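import Vale.Agent.P371.Fix

/-! Absolutely continuous functions and completing the square. -/

open Matrix Set Filter Topology MeasureTheory
open scoped ComplexOrder MatrixOrder Matrix.Norms.L2Operator

namespace Vale.Agent.P371

variable {N m k : ℕ}

/-- absolutely continuous with derivative `f'` -/
structure AC (f f' : ℝ → ℂ) (a b : ℝ) : Prop where
  ac : AbsolutelyContinuousOnInterval f a b
  int : IntervalIntegrable f' volume a b
  der : ∀ᵐ x, x ∈ uIcc a b → HasDerivAt f (f' x) x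

lemma ac_of_prim {f f' : ℝ → ℂ} {a b : ℝ} (hi : IntervalIntegrable f' volume a b)
    (h : ∀ x ∈ uIcc a b, ∀ y ∈ uIcc a b, f y - f x = ∫ t in x..y, f' t) :
    AbsolutelyContinuousOnInterval f a b := by
  have h1 := hi.norm.absolutelyContinuousOnInterval_intervalIntegral (c := a) left_mem_uIcc
  rw [absolutelyContinuousOnInterval_iff] at h1 ⊢
  intro ε hε
  obtain ⟨δ, hδ, h2⟩ := h1 ε hε
  refine ⟨δ, hδ, fun E hE hE' => lt_of_le_of_lt (Finset.sum_le_sum fun i hi' => ?_) (h2 E hE hE')⟩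
  obtain ⟨hx, hy⟩ := hE.1 i hi'
  rw [dist_eq_norm, h _ hy _ hx, Real.dist_eq, intervalIntegral.integral_interval_sub_left
    (hi.norm.mono_set (uIcc_subset_uIcc left_mem_uIcc hx))
    (hi.norm.mono_set (uIcc_subset_uIcc left_mem_uIcc hy))]
  exact intervalIntegral.norm_integral_le_abs_integral_norm

namespace AC

variable {f f' g g' : ℝ → ℂ} {a b : ℝ}

lemma ftc (h : AC f f' a b) : f b - f a = ∫ t in a..b, f' t := by
  have h1 : AbsolutelyContinuousOnInterval (fun x => ∫ t in a..x, f' t) a b :=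
    ac_of_prim h.int fun x hx y hy => intervalIntegral.integral_interval_sub_left
      (h.int.mono_set (uIcc_subset_uIcc left_mem_uIcc hy))
      (h.int.mono_set (uIcc_subset_uIcc left_mem_uIcc hx))
  obtain ⟨C, hC⟩ := (h.ac.sub h1).const_of_ae_hasDerivAt_zero (by
    filter_upwards [h.der, h.int.ae_hasDerivAt_integral] with x h2 h3 hx
    exact ((h2 hx).sub (h3 hx a left_mem_uIcc)).congr_deriv (sub_self _))
  have h2 := hC a left_mem_uIcc
  have h3 := hC b right_mem_uIcc
  simp only [Pi.sub_apply, intervalIntegral.integral_same, sub_zero] at h2 h3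
  rw [h2, ← h3]; ring

lemma of_deriv (hd : ∀ x ∈ uIcc a b, HasDerivAt f (f' x) x) (hc : ContinuousOn f' (uIcc a b)) :
    AC f f' a b :=
  ⟨ac_of_prim hc.intervalIntegrable fun _ hx _ hy =>
    (intervalIntegral.integral_eq_sub_of_hasDerivAt (fun t ht => hd t (uIcc_subset_uIcc hx hy ht))
      (hc.mono (uIcc_subset_uIcc hx hy)).intervalIntegrable).symm,
    hc.intervalIntegrable, Eventually.of_forall hd⟩

lemma const (c : ℂ) : AC (fun _ => c) (fun _ => 0) a b :=
  of_deriv (fun x _ => hasDerivAt_const x c) continuousOn_const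

lemma add (hf : AC f f' a b) (hg : AC g g' a b) :
    AC (fun x => f x + g x) (fun x => f' x + g' x) a b :=
  ⟨hf.ac.add hg.ac, hf.int.add hg.int, by
    filter_upwards [hf.der, hg.der] with x h1 h2 hx using (h1 hx).add (h2 hx)⟩

lemma mul (hf : AC f f' a b) (hg : AC g g' a b) :
    AC (fun x => f x * g x) (fun x => f' x * g x + f x * g' x) a b :=
  ⟨hf.ac.smul hg.ac, (hf.int.mul_continuousOn hg.ac.continuousOn).add
    (hg.int.continuousOn_mul hf.ac.continuousOn), by
    filter_upwards [hf.der, hg.der] with x h1 h2 hx using (h1 hx).mul (h2 hx)⟩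

lemma star (hf : AC f f' a b) : AC (fun x => star (f x)) (fun x => star (f' x)) a b :=
  ⟨by simpa only [AbsolutelyContinuousOnInterval, dist_star_star] using hf.ac,
    ⟨Complex.conjCLE.toContinuousLinearMap.integrable_comp hf.int.1,
      Complex.conjCLE.toContinuousLinearMap.integrable_comp hf.int.2⟩, by
    filter_upwards [hf.der] with x h1 hx using (h1 hx).star⟩

lemma sum {ι : Type*} (s : Finset ι) {f f' : ι → ℝ → ℂ} (h : ∀ i, AC (f i) (f' i) a b) :
    AC (fun x => ∑ i ∈ s, f i x) (fun x => ∑ i ∈ s, f' i x) a b := by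
  classical
  induction s using Finset.induction_on with
  | empty => simpa using const 0
  | insert i s hi ih => simpa only [Finset.sum_insert hi] using (h i).add ih

end AC

lemma H1.ac (ψ : H1 m) (c : Fin m) (a b : ℝ) :
    AC (fun x => ψ.val x c) (fun x => ψ.der x c) a b := by
  have h1 : LocallyIntegrable (fun x => ψ.der x c) := (ψ.der_L2 c).locallyIntegrable one_le_two
  have h2 : IntervalIntegrable (fun x => ψ.der x c) volume a b :=
    (h1.integrableOn_isCompact isCompact_uIcc).intervalIntegrable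
  refine ⟨ac_of_prim h2 fun x _ y _ => ψ.ftc c x y, h2, ?_⟩
  filter_upwards [LocallyIntegrable.ae_hasDerivAt_integral h1] with x hx _
  have : (fun x => ψ.val x c) = fun x => ψ.val 0 c + ∫ t in (0 : ℝ)..x, ψ.der t c := by
    ext y; rw [← ψ.ftc]; ring
  rw [this]
  exact (hx 0).const_add _

/-- entrywise absolutely continuous matrix functions -/
def MAC (F F' : ℝ → Matrix (Fin m) (Fin N) ℂ) (a b : ℝ) : Prop :=
  ∀ i j, AC (fun x => F x i j) (fun x => F' x i j) a b

lemma MAC.mul {F F' : ℝ → Matrix (Fin m) (Fin N) ℂ} {G G' : ℝ → Matrix (Fin N) (Fin k) ℂ}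
    {a b : ℝ} (hF : MAC F F' a b) (hG : MAC G G' a b) :
    MAC (fun x => F x * G x) (fun x => F' x * G x + F x * G' x) a b := fun i j => by
  simpa only [mul_apply, Matrix.add_apply, Finset.sum_add_distrib] using
    AC.sum Finset.univ fun l => (hF i l).mul (hG l j)

lemma MAC.ct {F F' : ℝ → Matrix (Fin m) (Fin N) ℂ} {a b : ℝ} (hF : MAC F F' a b) :
    MAC (fun x => (F x)ᴴ) (fun x => (F' x)ᴴ) a b := fun i j => (hF j i).star

lemma MAC.const (C : Matrix (Fin m) (Fin N) ℂ) (a b : ℝ) : MAC (fun _ => C) (fun _ => 0) a b :=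
  fun _ _ => AC.const _

/-- entries as continuous linear maps -/
noncomputable def entL (i j : Fin N) : Mat N →L[ℝ] ℂ :=
  LinearMap.toContinuousLinearMap (Matrix.entryLinearMap ℝ ℂ i j)

lemma MAC.of_deriv {M D : ℝ → Mat N} {a b : ℝ} (hd : ∀ x ∈ uIcc a b, HasDerivAt M (D x) x)
    (hc : ContinuousOn D (uIcc a b)) : MAC M D a b := fun i j =>
  AC.of_deriv (fun x hx => (entL i j).hasFDerivAt.comp_hasDerivAt x (hd x hx))
    ((entL i j).continuous.comp_continuousOn hc)

lemma MAC.rtr_ftc {F F' : ℝ → Mat N} {a b : ℝ} (hF : MAC F F' a b) :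
    IntervalIntegrable (fun x => rtr (F' x)) volume a b ∧
      rtr (F b) - rtr (F a) = ∫ x in a..b, rtr (F' x) := by
  have h := AC.sum Finset.univ fun i => hF i i
  refine ⟨⟨h.int.1.re, h.int.2.re⟩, ?_⟩
  have h1 := congrArg Complex.re h.ftc
  rw [← Complex.reCLM_apply (∫ t in a..b, _), ← Complex.reCLM.intervalIntegral_comp_comm h.int] at h1
  exact h1

lemma complete_sq {Φ Φ' : ℝ → Matrix (Fin m) (Fin N) ℂ} {M D : ℝ → Mat N} {a b : ℝ}
    (hab : a ≤ b) (hΦ : MAC Φ Φ' a b) (hM : MAC M D a b) (hh : ∀ x, (M x).IsHermitian)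
    {F : ℝ → ℝ} (hF : IntervalIntegrable F volume a b)
    (hle : ∀ x ∈ Icc a b, rtr ((Φ' x)ᴴ * Φ' x) + rtr ((M x * M x + D x) * ((Φ x)ᴴ * Φ x)) ≤ F x) :
    rtr (M b * ((Φ b)ᴴ * Φ b)) - rtr (M a * ((Φ a)ᴴ * Φ a)) ≤ ∫ x in a..b, F x := by
  obtain ⟨h1, h2⟩ := (hM.mul (hΦ.ct.mul hΦ)).rtr_ftc
  rw [h2]
  refine intervalIntegral.integral_mono_on hab h1 hF fun x hx => le_trans ?_ (hle x hx)
  have h3 := rtr_nonneg (posSemidef_conjTranspose_mul_self (Φ' x - Φ x * M x))
  have e1 : rtr ((Φ' x)ᴴ * (Φ x * M x)) = rtr (M x * ((Φ' x)ᴴ * Φ x)) := by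
    rw [← Matrix.mul_assoc, rtr_mul_comm]
  have e2 : rtr (M x * ((Φ x)ᴴ * (Φ x * M x))) = rtr (M x * (M x * ((Φ x)ᴴ * Φ x))) := by
    rw [← Matrix.mul_assoc (Φ x)ᴴ, ← Matrix.mul_assoc, rtr_mul_comm]
  simp only [conjTranspose_sub, conjTranspose_mul, (hh x).eq, Matrix.sub_mul, Matrix.mul_sub,
    Matrix.mul_assoc, rtr_sub, Matrix.add_mul, Matrix.mul_add, rtr_add, e1, e2] at h3 ⊢
  linarith

lemma exists_small {h : ℝ → ℝ} (hh : Integrable h) {δ : ℝ} (hδ : 0 < δ) (a : ℝ) :
    (∃ x ≤ a, h x < δ) ∧ ∃ y, a ≤ y ∧ h y < δ := by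
  have h1 := hh.measure_ge_lt_top hδ
  constructor
  · by_contra hc
    push Not at hc
    have := measure_mono (μ := volume) (show Iic a ⊆ {x | δ ≤ h x} from fun x hx => hc x hx)
    rw [Real.volume_Iic] at this
    exact absurd h1 (not_lt.mpr this)
  · by_contra hc
    push Not at hc
    have := measure_mono (μ := volume) (show Ici a ⊆ {x | δ ≤ h x} from fun x hx => hc x hx)
    rw [Real.volume_Ici] at this
    exact absurd h1 (not_lt.mpr this)

lemma interval_le_integral {F : ℝ → ℝ} (hF : Integrable F) (h0 : ∀ x, 0 ≤ F x) {a b : ℝ}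
    (hab : a ≤ b) : ∫ x in a..b, F x ≤ ∫ x, F x := by
  rw [intervalIntegral.integral_of_le hab]
  exact setIntegral_le_integral hF (Eventually.of_forall h0)

/-- The form inequality given by a Riccati solution. -/
lemma Ric.form_ineq {Λ : Mat N} {M V : ℝ → Mat N} {a b : ℝ} (h : Ric Λ M V a b) (hab : a ≤ b)
    (hΛ : Λ.IsHermitian) (cV : Continuous V) {Φ Φ' : ℝ → Matrix (Fin m) (Fin N) ℂ}
    (hΦ : ∀ x y, MAC Φ Φ' x y) (cΦ : Continuous fun x => (Φ x)ᴴ * Φ x)
    (i1 : Integrable fun x => rtr ((Φ' x)ᴴ * Φ' x))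
    (i2 : Integrable fun x => rtr (Λ * Λ * ((Φ x)ᴴ * Φ x)))
    (i3 : Integrable fun x => rtr (Λ * ((Φ x)ᴴ * Φ x))) :
    ∫ x in a..b, rtr (V x * ((Φ x)ᴴ * Φ x)) ≤
      (∫ x, rtr ((Φ' x)ᴴ * Φ' x)) + ∫ x, rtr (Λ * Λ * ((Φ x)ᴴ * Φ x)) := by
  refine le_of_forall_pos_le_add fun δ hδ => ?_
  obtain ⟨x, hx, hx'⟩ := (exists_small i3 (half_pos hδ) a).1
  obtain ⟨y, hy, hy'⟩ := (exists_small i3 (half_pos hδ) b).2
  have iF := i1.add i2
  have iV : IntervalIntegrable (fun x => rtr (V x * ((Φ x)ᴴ * Φ x))) volume a b :=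
    (continuous_rtr.comp (cV.mul cΦ)).intervalIntegrable _ _
  have b1 := complete_sq hx (hΦ x a) (MAC.const Λ x a) (fun _ => hΛ) iF.intervalIntegrable
    fun t _ => by simp
  have b2 := complete_sq hy (hΦ b y) (MAC.const (-Λ) b y) (fun _ => hΛ.neg) iF.intervalIntegrable
    fun t _ => by simp
  have cM : ContinuousOn M (Icc a b) := fun x hx => (h.ode x hx).continuousAt.continuousWithinAt
  have b3 := complete_sq hab (hΦ a b) (MAC.of_deriv (by rw [uIcc_of_le hab]; exact h.ode)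
    (by rw [uIcc_of_le hab]; exact (continuousOn_const.sub (cM.mul cM)).sub cV.continuousOn))
    h.herm (iF.intervalIntegrable.sub iV) fun t _ => by
      simp only [Pi.add_apply, Matrix.add_mul, Matrix.sub_mul, rtr_add, rtr_sub]
      linarith
  have b4 := rtr_mul_nonneg (h.lo b ⟨hab, le_rfl⟩) (posSemidef_conjTranspose_mul_self (Φ b))
  have b5 := interval_le_integral iF (fun t => add_nonneg
    (rtr_nonneg (posSemidef_conjTranspose_mul_self _))
    (rtr_mul_nonneg (sq_psd hΛ) (posSemidef_conjTranspose_mul_self _))) (hx.trans (hab.trans hy))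
  rw [← intervalIntegral.integral_add_adjacent_intervals (b := a) iF.intervalIntegrable
    iF.intervalIntegrable, ← intervalIntegral.integral_add_adjacent_intervals (a := a) (b := b)
    iF.intervalIntegrable iF.intervalIntegrable] at b5
  rw [intervalIntegral.integral_sub iF.intervalIntegrable iV, h.ha] at b3
  rw [← integral_add i1 i2]
  simp only [Matrix.neg_mul, rtr_neg, Matrix.add_mul, rtr_add, Pi.add_apply] at b1 b2 b3 b4 b5
  linarith

end Vale.Agent.P371
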