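import Mathlib

/-! Scalar integrals. -/

open MeasureTheory Set Filter Topology Real intervalIntegral

namespace Vale.Agent.P371

lemma swap_cont {F : ℝ → ℝ → ℝ} {a b c d : ℝ} (hab : a ≤ b) (hcd : c ≤ d)
    (hF : ContinuousOn (Function.uncurry F) (Icc a b ×ˢ Icc c d)) :
    (∫ x in a..b, ∫ y in c..d, F x y) = (∫ y in c..d, ∫ x in a..b, F x y) ∧
      IntervalIntegrable (fun x => ∫ y in c..d, F x y) volume a b ∧
      IntervalIntegrable (fun y => ∫ x in a..b, F x y) volume c d := by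
  have h1 : IntegrableOn (Function.uncurry F) (uIoc a b ×ˢ uIoc c d) := by
    rw [uIoc_of_le hab, uIoc_of_le hcd]
    exact (hF.integrableOn_compact (isCompact_Icc.prod isCompact_Icc)).mono_set
      (prod_mono Ioc_subset_Icc_self Ioc_subset_Icc_self)
  refine ⟨intervalIntegral_intervalIntegral_swap h1, ?_, ?_⟩
  · rw [uIoc_of_le hab, uIoc_of_le hcd, IntegrableOn, Measure.volume_eq_prod,
      ← Measure.prod_restrict] at h1
    rw [intervalIntegrable_iff_integrableOn_Ioc_of_le hab]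
    simp only [integral_of_le hcd]
    exact h1.integral_prod_left
  · rw [uIoc_of_le hab, uIoc_of_le hcd, IntegrableOn, Measure.volume_eq_prod,
      ← Measure.prod_restrict] at h1
    rw [intervalIntegrable_iff_integrableOn_Ioc_of_le hcd]
    simp only [integral_of_le hab]
    exact h1.integral_prod_right

noncomputable def kk (q J t : ℝ) : ℝ := t ^ (q - 1) * (1 - √t / √(J + t))

noncomputable def I3 (q : ℝ) : ℝ := ∫ t in Ioi (0 : ℝ), kk q 1 t

noncomputable def Bq (q : ℝ) : ℝ := ∫ s in (-1 : ℝ)..1, (1 - s ^ 2) ^ q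

lemma frac_le_one {J t : ℝ} (hJ : 0 ≤ J) : √t / √(J + t) ≤ 1 :=
  div_le_one_of_le₀ (sqrt_le_sqrt (by linarith)) (sqrt_nonneg _)

lemma kk_nonneg {q J t : ℝ} (hJ : 0 ≤ J) (ht : 0 < t) : 0 ≤ kk q J t :=
  mul_nonneg (rpow_nonneg ht.le _) (sub_nonneg.mpr (frac_le_one hJ))

lemma kk_le1 {q J t : ℝ} (ht : 0 < t) : kk q J t ≤ t ^ (q - 1) := by
  have : 0 ≤ √t / √(J + t) := by positivity
  have h2 := rpow_nonneg ht.le (q - 1)
  unfold kk; nlinarith

lemma kk_le2 {q J t : ℝ} (hJ : 0 ≤ J) (ht : 0 < t) : kk q J t ≤ J * t ^ (q - 2) := by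
  have h1 : 1 - √t / √(J + t) ≤ J / t := by
    have h0 := frac_le_one (t := t) hJ
    have h2 : 0 ≤ √t / √(J + t) := by positivity
    have h3 : (√t / √(J + t)) ^ 2 = t / (J + t) := by
      rw [div_pow, sq_sqrt ht.le, sq_sqrt (by linarith)]
    have h4 : 1 - t / (J + t) ≤ J / t := by
      have : 1 - t / (J + t) = J / (J + t) := by field_simp; ring
      rw [this]
      exact div_le_div_of_nonneg_left hJ ht (by linarith)
    nlinarith
  have h5 : t ^ (q - 2) = t ^ (q - 1) / t := by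
    rw [← rpow_sub_one ht.ne']; congr 1; ring
  rw [h5]
  calc kk q J t ≤ t ^ (q - 1) * (J / t) := mul_le_mul_of_nonneg_left h1 (rpow_nonneg ht.le _)
    _ = _ := by ring

lemma kk_cont (q : ℝ) : ContinuousOn (fun z : ℝ × ℝ => kk q z.1 z.2) (Ici 0 ×ˢ Ioi 0) := by
  unfold kk
  refine ContinuousOn.mul (ContinuousOn.rpow_const (by fun_prop) fun z hz => Or.inl (ne_of_gt hz.2))
    (continuousOn_const.sub (ContinuousOn.div (by fun_prop) (by fun_prop) fun z hz => ?_))
  have h1 : 0 ≤ z.1 := hz.1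
  have h2 : 0 < z.2 := hz.2
  exact (sqrt_pos.mpr (by linarith)).ne'

lemma kk_contOn (q : ℝ) {J : ℝ} (hJ : 0 ≤ J) : ContinuousOn (kk q J) (Ioi 0) :=
  (kk_cont q).comp (f := fun t => (J, t)) (by fun_prop) fun _ ht => ⟨hJ, ht⟩

lemma kk_integrable {q J : ℝ} (hq : 0 < q) (hq1 : q < 1) (hJ : 0 ≤ J) :
    IntegrableOn (kk q J) (Ioi 0) := by
  rw [← Ioc_union_Ioi_eq_Ioi zero_le_one]
  refine IntegrableOn.union ?_ ?_
  · refine Integrable.mono' (g := fun t => t ^ (q - 1))
      ((intervalIntegrable_iff_integrableOn_Ioc_of_le zero_le_one).mp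
        (intervalIntegrable_rpow' (by linarith)))
      (((kk_contOn q hJ).mono Ioc_subset_Ioi_self).aestronglyMeasurable measurableSet_Ioc) ?_
    filter_upwards [ae_restrict_mem measurableSet_Ioc] with t ht
    rw [Real.norm_of_nonneg (kk_nonneg hJ ht.1)]
    exact kk_le1 ht.1
  · refine Integrable.mono' (g := fun t => J * t ^ (q - 2))
      ((integrableOn_Ioi_rpow_of_lt (by linarith) one_pos).const_mul J)
      (((kk_contOn q hJ).mono (Ioi_subset_Ioi zero_le_one)).aestronglyMeasurable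
        measurableSet_Ioi) ?_
    filter_upwards [ae_restrict_mem measurableSet_Ioi] with t ht
    have ht' : 0 < t := one_pos.trans ht
    rw [Real.norm_of_nonneg (kk_nonneg hJ ht')]
    exact kk_le2 hJ ht'

lemma kk_integral {q J : ℝ} (hq : 0 < q) (hJ : 0 ≤ J) :
    ∫ t in Ioi 0, kk q J t = I3 q * J ^ q := by
  rcases hJ.eq_or_lt with rfl | hJ
  · rw [zero_rpow hq.ne', mul_zero]
    refine setIntegral_eq_zero_of_forall_eq_zero fun t ht => ?_
    have : 0 < √t := sqrt_pos.mpr ht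
    simp [kk, this.ne']
  · have h := integral_comp_mul_left_Ioi' (kk q J) 0 hJ
    rw [mul_zero] at h
    rw [← h, I3, smul_eq_mul, ← MeasureTheory.integral_const_mul,
      ← MeasureTheory.integral_mul_const]
    refine setIntegral_congr_fun measurableSet_Ioi fun t ht => ?_
    have ht' : 0 < t := ht
    simp only [kk]
    rw [mul_rpow hJ.le ht'.le, show J + J * t = J * (1 + t) by ring, sqrt_mul hJ.le,
      sqrt_mul hJ.le, rpow_sub_one hJ.ne']
    have : 0 < √J := sqrt_pos.mpr hJ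
    field_simp

lemma I3_pos {q : ℝ} (hq : 0 < q) (hq1 : q < 1) : 0 < I3 q := by
  rw [I3, setIntegral_pos_iff_support_of_nonneg_ae ?_ (kk_integrable hq hq1 zero_le_one)]
  · have : Function.support (kk q 1) ∩ Ioi 0 = Ioi 0 := by
      refine inter_eq_right.mpr fun t ht => ?_
      have ht' : 0 < t := ht
      have h1 : √t / √(1 + t) < 1 :=
        (div_lt_one (sqrt_pos.mpr (by linarith))).mpr (sqrt_lt_sqrt ht'.le (by linarith))
      exact (mul_pos (rpow_pos_of_pos ht' _) (sub_pos.mpr h1)).ne'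
    rw [this]; simp
  · filter_upwards [ae_restrict_mem measurableSet_Ioi] with t ht using kk_nonneg zero_le_one ht

lemma kk_upper {q J τ T : ℝ} (hq : 0 < q) (hq1 : q < 1) (hJ : 0 ≤ J) (hτ : 0 < τ) (hT : τ ≤ T) :
    ∫ t in τ..T, kk q J t ≤ I3 q * J ^ q := by
  rw [← kk_integral hq hJ, integral_of_le hT]
  refine setIntegral_mono_set (kk_integrable hq hq1 hJ) ?_
    (LE.le.eventuallyLE fun t ht => hτ.trans ht.1)
  filter_upwards [ae_restrict_mem measurableSet_Ioi] with t ht using kk_nonneg hJ ht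

lemma kk_lower {q J τ T : ℝ} (hq : 0 < q) (hq1 : q < 1) (hJ : 0 ≤ J) (hτ : 0 < τ) (hT : τ ≤ T) :
    I3 q * J ^ q - (τ ^ q / q + J * (T ^ (q - 1) / (1 - q))) ≤ ∫ t in τ..T, kk q J t := by
  have hi := kk_integrable hq hq1 hJ
  have hT0 : 0 < T := hτ.trans_le hT
  have h1 : ∫ t in Ioi 0, kk q J t =
      (∫ t in (0 : ℝ)..τ, kk q J t) + (∫ t in τ..T, kk q J t) + ∫ t in Ioi T, kk q J t := by
    rw [integral_add_adjacent_intervals, integral_of_le hT0.le, ← setIntegral_union,
      Ioc_union_Ioi_eq_Ioi hT0.le]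
    · exact Ioc_disjoint_Ioi_same
    · exact measurableSet_Ioi
    · exact hi.mono_set Ioc_subset_Ioi_self
    · exact hi.mono_set (Ioi_subset_Ioi hT0.le)
    · exact (intervalIntegrable_iff_integrableOn_Ioc_of_le hτ.le).mpr
        (hi.mono_set Ioc_subset_Ioi_self)
    · exact (intervalIntegrable_iff_integrableOn_Ioc_of_le hT).mpr
        (hi.mono_set fun t ht => hτ.trans ht.1)
  have h2 : ∫ t in (0 : ℝ)..τ, kk q J t ≤ τ ^ q / q := by
    have h3 : ∫ t in (0 : ℝ)..τ, t ^ (q - 1) = τ ^ q / q := by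
      rw [integral_rpow (Or.inl (by linarith))]
      simp [zero_rpow hq.ne']
    rw [← h3, integral_of_le hτ.le, integral_of_le hτ.le]
    exact setIntegral_mono_on (hi.mono_set Ioc_subset_Ioi_self)
      ((intervalIntegrable_iff_integrableOn_Ioc_of_le hτ.le).mp
        (intervalIntegrable_rpow' (by linarith))) measurableSet_Ioc fun t ht => kk_le1 ht.1
  have h4 : ∫ t in Ioi T, kk q J t ≤ J * (T ^ (q - 1) / (1 - q)) := by
    have h3 : ∫ t in Ioi T, J * t ^ (q - 2) = J * (T ^ (q - 1) / (1 - q)) := by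
      rw [MeasureTheory.integral_const_mul, integral_Ioi_rpow_of_lt (by linarith) hT0,
        show q - 2 + 1 = q - 1 by ring, ← neg_sub 1 q, neg_div_neg_eq]
    rw [← h3]
    exact setIntegral_mono_on (hi.mono_set (Ioi_subset_Ioi hT0.le))
      ((integrableOn_Ioi_rpow_of_lt (by linarith) hT0).const_mul J) measurableSet_Ioi
      fun t ht => kk_le2 hJ (hT0.trans ht)
  rw [← kk_integral hq hJ]
  linarith

lemma rpow_half_eq {q t : ℝ} (ht : 0 < t) : t ^ (q - 1 / 2) = t ^ (q - 1) * √t := by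
  rw [sqrt_eq_rpow, ← rpow_add ht]; congr 1; ring

lemma S1 {q y τ T : ℝ} (hq : 0 < q) (hq1 : q < 1) (hy : 0 ≤ y) (hτ : 0 < τ) (hT : τ ≤ T) :
    2 * T ^ (1 + q) + (1 + q) / q * T ^ q * y -
        2 * (1 + q) * ∫ t in τ..T, t ^ (q - 1 / 2) * √(y + t) ≤
      2 * τ ^ (1 + q) + (1 + q) / q * τ ^ q * y + I3 q * y ^ (1 + q) := by
  have h0 : (0 : ℝ) ∉ uIcc τ T := by
    rw [uIcc_of_le hT]; exact fun h => absurd h.1 (not_le.mpr hτ)
  obtain ⟨h1, -, h3⟩ := swap_cont (F := fun t s => kk q s t) hT hy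
    ((kk_cont q).comp (f := Prod.swap) (by fun_prop) fun z hz => ⟨hz.2.1, hτ.trans_le hz.1.1⟩)
  have h4 : ∫ s in (0 : ℝ)..y, ∫ t in τ..T, kk q s t ≤ I3 q * (y ^ (1 + q) / (1 + q)) := by
    have : ∫ s in (0 : ℝ)..y, I3 q * s ^ q = I3 q * (y ^ (1 + q) / (1 + q)) := by
      rw [intervalIntegral.integral_const_mul, integral_rpow (Or.inl (by linarith)),
        zero_rpow (by linarith), sub_zero, add_comm q 1]
    rw [← this]
    exact integral_mono_on hy h3 ((intervalIntegrable_rpow' (by linarith)).const_mul _)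
      fun s hs => kk_upper hq hq1 hs.1 hτ hT
  have h5 : ∫ t in τ..T, ∫ s in (0 : ℝ)..y, kk q s t =
      ∫ t in τ..T, (2 * t ^ q + y * t ^ (q - 1) - 2 * (t ^ (q - 1 / 2) * √(y + t))) := by
    refine integral_congr fun t ht => ?_
    rw [uIcc_of_le hT] at ht
    have ht' : 0 < t := hτ.trans_le ht.1
    have hd : ∀ s ∈ uIcc 0 y, HasDerivAt (fun s => t ^ (q - 1) * (s - 2 * √t * √(s + t)))
        (kk q s t) s := by
      intro s hs
      rw [uIcc_of_le hy] at hs
      have hst : 0 < s + t := by linarith [hs.1]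
      have := ((hasDerivAt_id s).sub (((hasDerivAt_id s).add_const t).sqrt hst.ne' |>.const_mul
        (2 * √t))).const_mul (t ^ (q - 1))
      refine this.congr_deriv ?_
      simp only [kk, id]
      field_simp
    have hc : IntervalIntegrable (fun s => kk q s t) volume 0 y := by
      refine ContinuousOn.intervalIntegrable ?_
      rw [uIcc_of_le hy]
      exact (kk_cont q).comp (f := fun s => (s, t)) (by fun_prop) fun s hs => ⟨hs.1, ht'⟩
    rw [integral_eq_sub_of_hasDerivAt hd hc, rpow_half_eq ht', zero_add]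
    have h6 : t ^ q = t ^ (q - 1) * (√t * √t) := by
      rw [mul_self_sqrt ht'.le, rpow_sub_one ht'.ne']; field_simp
    rw [h6]; ring
  have hi1 : IntervalIntegrable (fun t : ℝ => t ^ q) volume τ T :=
    intervalIntegrable_rpow' (by linarith)
  have hi2 : IntervalIntegrable (fun t : ℝ => t ^ (q - 1)) volume τ T :=
    intervalIntegrable_rpow' (by linarith)
  have hi3 : IntervalIntegrable (fun t : ℝ => t ^ (q - 1 / 2) * √(y + t)) volume τ T :=
    (intervalIntegrable_rpow' (by linarith)).mul_continuousOn (by fun_prop)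
  rw [intervalIntegral.integral_sub ((hi1.const_mul 2).add (hi2.const_mul y)) (hi3.const_mul 2),
    intervalIntegral.integral_add (hi1.const_mul 2) (hi2.const_mul y),
    intervalIntegral.integral_const_mul, intervalIntegral.integral_const_mul,
    intervalIntegral.integral_const_mul, integral_rpow (Or.inl (by linarith)),
    integral_rpow (Or.inl (by linarith)), sub_add_cancel, add_comm q 1] at h5
  rw [← h1, h5] at h4
  have hp : 0 < 1 + q := by linarith
  have h7 := mul_le_mul_of_nonneg_left h4 hp.le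
  have e1 : (1 + q) * (I3 q * (y ^ (1 + q) / (1 + q))) = I3 q * y ^ (1 + q) := by field_simp
  have e2 : ∀ Z : ℝ, (1 + q) * (2 * ((T ^ (1 + q) - τ ^ (1 + q)) / (1 + q)) +
      y * ((T ^ q - τ ^ q) / q) - 2 * Z) = 2 * T ^ (1 + q) + (1 + q) / q * T ^ q * y -
      2 * (1 + q) * Z - (2 * τ ^ (1 + q) + (1 + q) / q * τ ^ q * y) := by
    intro Z; field_simp; ring
  rw [e1, e2] at h7
  linarith

noncomputable def ang (l t : ℝ) : ℝ := arcsin (l / √(l ^ 2 + t))

lemma Bq_scale {q l : ℝ} (hq : 0 < q) (hl : 0 ≤ l) :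
    ∫ s in (-l)..l, (l ^ 2 - s ^ 2) ^ q = l ^ (2 * q + 1) * Bq q := by
  rcases hl.eq_or_lt with rfl | hl
  · simp [zero_rpow (show 2 * q + 1 ≠ 0 by linarith)]
  · have h := intervalIntegral.smul_integral_comp_mul_left
      (fun s => (l ^ 2 - s ^ 2) ^ q) (a := -1) (b := 1) l
    rw [mul_neg, mul_one] at h
    rw [← h, Bq, smul_eq_mul, ← intervalIntegral.integral_const_mul,
      ← intervalIntegral.integral_const_mul]
    refine integral_congr fun s hs => ?_
    rw [uIcc_of_le (by norm_num)] at hs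
    have : 0 ≤ 1 - s ^ 2 := by nlinarith [hs.1, hs.2]
    rw [show l ^ 2 - (l * s) ^ 2 = l ^ 2 * (1 - s ^ 2) by ring, mul_rpow (by positivity) this,
      rpow_add_one hl.ne', rpow_mul hl.le, rpow_two]
    ring

lemma S2 {q l τ T : ℝ} (hq : 0 < q) (hq1 : q < 1) (hl : 0 ≤ l) (hτ : 0 < τ) (hT : τ ≤ T) :
    q * I3 q * Bq q * l ^ (2 * q + 1) -
        2 * q * l * (τ ^ q / q + l ^ 2 * (T ^ (q - 1) / (1 - q))) ≤
      2 * T ^ q * l - q * ∫ t in τ..T, t ^ (q - 1 / 2) * (2 * ang l t) := by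
  have hl' : -l ≤ l := by linarith
  have hJ : ∀ s ∈ Icc (-l) l, 0 ≤ l ^ 2 - s ^ 2 := fun s hs => by nlinarith [hs.1, hs.2]
  obtain ⟨h1, -, h3⟩ := swap_cont (F := fun t s => kk q (l ^ 2 - s ^ 2) t) hT hl'
    ((kk_cont q).comp (f := fun z : ℝ × ℝ => (l ^ 2 - z.2 ^ 2, z.1)) (by fun_prop)
      fun z hz => ⟨hJ _ hz.2, hτ.trans_le hz.1.1⟩)
  set e := τ ^ q / q + l ^ 2 * (T ^ (q - 1) / (1 - q)) with he
  have h4 : I3 q * (l ^ (2 * q + 1) * Bq q) - 2 * l * e ≤
      ∫ s in (-l)..l, ∫ t in τ..T, kk q (l ^ 2 - s ^ 2) t := by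
    have hi : IntervalIntegrable (fun s => (l ^ 2 - s ^ 2) ^ q) volume (-l) l :=
      (Continuous.rpow_const (by fun_prop) fun _ => Or.inr hq.le).intervalIntegrable _ _
    have : ∫ s in (-l)..l, (I3 q * (l ^ 2 - s ^ 2) ^ q - e) =
        I3 q * (l ^ (2 * q + 1) * Bq q) - 2 * l * e := by
      rw [intervalIntegral.integral_sub (hi.const_mul _) intervalIntegrable_const,
        intervalIntegral.integral_const_mul, Bq_scale hq hl, intervalIntegral.integral_const]
      simp only [smul_eq_mul]; ring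
    rw [← this]
    refine integral_mono_on hl' ((hi.const_mul _).sub intervalIntegrable_const) h3 fun s hs => ?_
    refine le_trans ?_ (kk_lower hq hq1 (hJ s hs) hτ hT)
    have : 0 ≤ T ^ (q - 1) / (1 - q) :=
      div_nonneg (rpow_nonneg (hτ.le.trans hT) _) (by linarith)
    rw [he]
    nlinarith [sq_nonneg s]
  have h5 : ∫ t in τ..T, ∫ s in (-l)..l, kk q (l ^ 2 - s ^ 2) t =
      ∫ t in τ..T, (2 * l * t ^ (q - 1) - t ^ (q - 1 / 2) * (2 * ang l t)) := by
    refine integral_congr fun t ht => ?_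
    rw [uIcc_of_le hT] at ht
    have ht' : 0 < t := hτ.trans_le ht.1
    have hr : 0 < √(l ^ 2 + t) := sqrt_pos.mpr (by positivity)
    have hr2 : √(l ^ 2 + t) ^ 2 = l ^ 2 + t := sq_sqrt (by positivity)
    have hd : ∀ s ∈ uIcc (-l) l, HasDerivAt
        (fun s => t ^ (q - 1) * (s - √t * arcsin (s / √(l ^ 2 + t)))) (kk q (l ^ 2 - s ^ 2) t) s := by
      intro s hs
      rw [uIcc_of_le hl'] at hs
      have hst := hJ s hs
      have hlt : (s / √(l ^ 2 + t)) ^ 2 < 1 := by
        rw [div_pow, hr2, div_lt_one (by positivity)]; linarith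
      have ha := (hasDerivAt_arcsin (x := s / √(l ^ 2 + t)) (by intro h; rw [h] at hlt; norm_num at hlt)
        (by intro h; rw [h] at hlt; norm_num at hlt)).comp s
          ((hasDerivAt_id s).div_const (√(l ^ 2 + t)))
      have := ((hasDerivAt_id s).sub (ha.const_mul (√t))).const_mul (t ^ (q - 1))
      refine this.congr_deriv ?_
      have h6 : √(l ^ 2 - s ^ 2 + t) = √(1 - (s / √(l ^ 2 + t)) ^ 2) * √(l ^ 2 + t) := by
        rw [← sqrt_mul (by linarith), div_pow, hr2]
        congr 1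
        field_simp
        ring
      simp only [kk]
      rw [h6]
      field_simp
    have hc : IntervalIntegrable (fun s => kk q (l ^ 2 - s ^ 2) t) volume (-l) l := by
      refine ContinuousOn.intervalIntegrable ?_
      rw [uIcc_of_le hl']
      exact (kk_cont q).comp (f := fun s => (l ^ 2 - s ^ 2, t)) (by fun_prop)
        fun s hs => ⟨hJ s hs, ht'⟩
    rw [integral_eq_sub_of_hasDerivAt hd hc, rpow_half_eq ht', neg_div, arcsin_neg, ang]
    ring
  have hi2 : IntervalIntegrable (fun t : ℝ => t ^ (q - 1)) volume τ T :=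
    intervalIntegrable_rpow' (by linarith)
  have hi3 : IntervalIntegrable (fun t : ℝ => t ^ (q - 1 / 2) * (2 * ang l t)) volume τ T := by
    refine (intervalIntegrable_rpow' (by linarith)).mul_continuousOn ?_
    refine continuousOn_const.mul (continuous_arcsin.comp_continuousOn
      (ContinuousOn.div (by fun_prop) (by fun_prop) fun t ht => ?_))
    rw [uIcc_of_le hT] at ht
    have ht' : 0 < t := hτ.trans_le ht.1
    exact (sqrt_pos.mpr (by positivity)).ne'
  rw [intervalIntegral.integral_sub (hi2.const_mul _) hi3, intervalIntegral.integral_const_mul,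
    integral_rpow (Or.inl (by linarith)), sub_add_cancel] at h5
  rw [← h1, h5] at h4
  have h7 := mul_le_mul_of_nonneg_left h4 hq.le
  have e2 : ∀ Z : ℝ, q * (2 * l * ((T ^ q - τ ^ q) / q) - Z) =
      2 * T ^ q * l - q * Z - 2 * l * τ ^ q := by
    intro Z; field_simp; ring
  rw [e2] at h7
  have : 0 ≤ 2 * l * τ ^ q := by positivity
  nlinarith

lemma Bq_eq {q : ℝ} (hq : 0 < q) : Bq q = √π * Gamma (q + 1) / Gamma (q + 3 / 2) := by
  have h1 : ∫ u in (0 : ℝ)..1, u ^ q * (1 - u) ^ q = Gamma (q + 1) * Gamma (q + 1) /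
      Gamma (2 * (q + 1)) := by
    have := ProbabilityTheory.beta_eq_betaIntegralReal (q + 1) (q + 1) (by linarith) (by linarith)
    rw [ProbabilityTheory.beta, ← two_mul] at this
    rw [this, Complex.betaIntegral, ← Complex.ofReal_re (∫ u in (0 : ℝ)..1, u ^ q * (1 - u) ^ q),
      ← intervalIntegral.integral_ofReal]
    congr 1
    refine integral_congr fun u hu => ?_
    rw [uIcc_of_le zero_le_one] at hu
    rw [Complex.ofReal_mul, Complex.ofReal_cpow hu.1, Complex.ofReal_cpow (sub_nonneg.mpr hu.2)]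
    simp
  have h2 := intervalIntegral.smul_integral_comp_mul_add (fun s => (1 - s ^ 2) ^ q)
    (a := 0) (b := 1) 2 (-1)
  have h3 : ∫ u in (0 : ℝ)..1, (1 - (2 * u + -1) ^ 2) ^ q =
      2 ^ (2 * q) * ∫ u in (0 : ℝ)..1, u ^ q * (1 - u) ^ q := by
    rw [← intervalIntegral.integral_const_mul]
    refine integral_congr fun u hu => ?_
    rw [uIcc_of_le zero_le_one] at hu
    rw [show 1 - (2 * u + -1) ^ 2 = 2 ^ 2 * (u * (1 - u)) by ring,
      mul_rpow (by positivity) (mul_nonneg hu.1 (sub_nonneg.mpr hu.2)),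
      mul_rpow hu.1 (sub_nonneg.mpr hu.2), rpow_mul (by norm_num), rpow_two]
  rw [h3, h1] at h2
  norm_num at h2
  rw [Bq, ← h2]
  have h4 := Gamma_mul_Gamma_add_half (q + 1)
  have g1 : 0 < Gamma (q + 3 / 2) := Gamma_pos_of_pos (by linarith)
  have g2 : 0 < Gamma (2 * (q + 1)) := Gamma_pos_of_pos (by linarith)
  rw [show q + 1 + 1 / 2 = q + 3 / 2 by ring] at h4
  have h5 : (2 : ℝ) ^ (2 * q) * 2 * 2 ^ (1 - 2 * (q + 1)) = 1 := by
    rw [← rpow_add_one (by norm_num), ← rpow_add (by norm_num),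
      show 2 * q + 1 + (1 - 2 * (q + 1)) = 0 by ring, rpow_zero]
  rw [eq_div_iff g1.ne']
  generalize Gamma (q + 3 / 2) = A at *
  generalize Gamma (2 * (q + 1)) = B at *
  generalize Gamma (q + 1) = C at *
  have e : 2 * (2 ^ (2 * q) * (C * C / B)) * A = 2 * 2 ^ (2 * q) * C * (C * A) / B := by ring
  rw [e, h4, div_eq_iff g2.ne']
  linear_combination (C * √π * B) * h5

lemma Bq_pos {q : ℝ} (hq : 0 < q) : 0 < Bq q := by
  rw [Bq_eq hq]
  have g1 : 0 < Gamma (q + 3 / 2) := Gamma_pos_of_pos (by linarith)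
  have g2 : 0 < Gamma (q + 1) := Gamma_pos_of_pos (by linarith)
  have := pi_pos
  positivity

end Vale.Agent.P371
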