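import Vale.Agent.P371.Sol
import Vale.Agent.P371.Scalar

/-! The action inequality for matrix Riccati equations. -/

open Matrix Set Filter Topology Complex MeasureTheory intervalIntegral
open scoped ComplexOrder MatrixOrder Matrix.Norms.L2Operator

namespace Vale.Agent.P371

variable {N : ℕ}

lemma exp_ode {D c : ℝ → ℂ} {a b : ℝ} (hab : a ≤ b) (hc : ContinuousOn c (Icc a b))
    (hD : ∀ x ∈ Icc a b, HasDerivAt D (D x * c x) x) :
    D b = D a * Complex.exp (∫ x in a..b, c x) := by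
  set c' : ℝ → ℂ := fun y => c (projIcc a b hab y) with hc'
  have h1 : Continuous c' :=
    hc.comp_continuous (continuous_subtype_val.comp continuous_projIcc) fun y => (projIcc a b hab y).2
  have h2 : ∀ x ∈ Icc a b, c' x = c x := fun x hx => by simp [hc', projIcc_of_mem hab hx]
  have h3 : ∀ x ∈ Icc a b, HasDerivAt (fun y => D y * Complex.exp (-∫ z in a..y, c' z)) 0 x := by
    intro x hx
    have := (hD x hx).mul ((h1.integral_hasStrictDerivAt a x).hasDerivAt.neg.cexp)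
    refine this.congr_deriv ?_
    rw [h2 x hx]; simp only [Pi.neg_apply]; ring
  have h4 := constant_of_has_deriv_right_zero
    (fun x hx => (h3 x hx).continuousAt.continuousWithinAt)
    (fun x hx => (h3 x (Ico_subset_Icc_self hx)).hasDerivWithinAt) b ⟨hab, le_rfl⟩
  have h5 : ∫ z in a..b, c' z = ∫ z in a..b, c z :=
    integral_congr fun x hx => h2 x (by rwa [uIcc_of_le hab] at hx)
  simp only [integral_same, neg_zero, Complex.exp_zero, mul_one, h5] at h4
  rw [← h4, mul_assoc, ← Complex.exp_add]; simp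

lemma rtr_mul_le {g A : Mat N} (hg : g.PosSemidef) (hA : A.IsHermitian) :
    rtr (g * A) ≤ ‖A‖ * rtr g := by
  have h1 : (‖A‖ • (1 : Mat N) - A).PosSemidef := by
    have := IsSelfAdjoint.le_algebraMap_norm_self (a := A) hA
    rw [Algebra.algebraMap_eq_smul_one] at this
    exact this
  have := rtr_mul_nonneg hg h1
  simp only [Matrix.mul_sub, Matrix.mul_smul, Matrix.mul_one, rtr_sub, rtr_smul] at this
  linarith

lemma abs_rtr_mul_le {g A : Mat N} (hg : g.PosSemidef) (hA : A.IsHermitian) :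
    |rtr (g * A)| ≤ ‖A‖ * rtr g := by
  have h1 := rtr_mul_le hg hA
  have h2 := rtr_mul_le hg hA.neg
  rw [Matrix.mul_neg, rtr_neg, norm_neg] at h2
  exact abs_le.mpr ⟨by linarith, h1⟩

lemma ang_exp {l t : ℝ} (ht : 0 < t) :
    (-1 * (l : ℂ) + I * (√t : ℝ)) = (1 * (l : ℂ) + I * (√t : ℝ)) *
      Complex.exp (I * (2 * ang l t : ℝ)) := by
  have hr : 0 < √(l ^ 2 + t) := Real.sqrt_pos.mpr (by positivity)
  have hr2 : √(l ^ 2 + t) ^ 2 = l ^ 2 + t := Real.sq_sqrt (by positivity)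
  have hlt : (l / √(l ^ 2 + t)) ^ 2 ≤ 1 := by
    rw [div_pow, hr2, div_le_one (by positivity)]; linarith
  have h1 : Real.sin (ang l t) = l / √(l ^ 2 + t) :=
    Real.sin_arcsin (abs_le.mp ((sq_le_one_iff_abs_le_one _).mp hlt)).1
      (abs_le.mp ((sq_le_one_iff_abs_le_one _).mp hlt)).2
  have h2 : Real.cos (ang l t) = √t / √(l ^ 2 + t) := by
    rw [ang, Real.cos_arcsin, ← Real.sqrt_div ht.le, div_pow, hr2]
    congr 1
    field_simp
    ring
  have h3 : l = √(l ^ 2 + t) * Real.sin (ang l t) := by rw [h1]; field_simp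
  have h4 : √t = √(l ^ 2 + t) * Real.cos (ang l t) := by rw [h2]; field_simp
  have h5 := Real.sin_sq_add_cos_sq (ang l t)
  rw [mul_comm I ((2 * ang l t : ℝ) : ℂ), Complex.exp_ofReal_mul_I, Real.cos_two_mul,
    Real.sin_two_mul]
  generalize Real.sin (ang l t) = s at *
  generalize Real.cos (ang l t) = c at *
  generalize √(l ^ 2 + t) = r at *
  rw [h4]
  apply Complex.ext
  · simp [sq]
    rw [h3]
    ring
  · simp [sq]
    rw [h3]
    linear_combination (-2 * r * c) * h5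

lemma ang_tendsto (l : ℝ) : Tendsto (ang l) atTop (𝓝 0) := by
  have h1 : Tendsto (fun t : ℝ => l / √(l ^ 2 + t)) atTop (𝓝 0) :=
    tendsto_const_nhds.div_atTop (Real.tendsto_sqrt_atTop.comp (tendsto_atTop_add_const_left _ _
      tendsto_id))
  have := (Real.continuous_arcsin.tendsto 0).comp h1
  rwa [Real.arcsin_zero] at this

lemma ang_cont (l : ℝ) : ContinuousOn (ang l) (Ioi 0) := by
  refine Real.continuous_arcsin.comp_continuousOn
    (ContinuousOn.div (by fun_prop) (by fun_prop) fun t ht => ?_)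
  have ht' : 0 < t := ht
  exact (Real.sqrt_pos.mpr (by positivity)).ne'

/-- A solution of the Riccati equation joining `Λ` to `-Λ`. -/
structure Path (Λ : Mat N) (M V : ℝ → Mat N) (a b : ℝ) : Prop where
  hab : a ≤ b
  hΛ : Λ.PosSemidef
  herm : ∀ x, (M x).IsHermitian
  ode : ∀ x ∈ Icc a b, HasDerivAt M (Λ * Λ - M x * M x - V x) x
  up : ∀ x ∈ Icc a b, (Λ - M x).PosSemidef
  lo : ∀ x ∈ Icc a b, (Λ + M x).PosSemidef
  cV : Continuous V
  pV : ∀ x, (V x).PosSemidef
  ha : M a = Λ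
  hb : M b = -Λ

noncomputable def Gam (Λ : Mat N) (M : ℝ → Mat N) (t x : ℝ) : Mat N :=
  hre N (sol (Λ * Λ + t • 1, M x))

noncomputable def gg (Λ : Mat N) (M : ℝ → Mat N) (t x : ℝ) : Mat N :=
  him N (sol (Λ * Λ + t • 1, M x))

noncomputable def th (Λ : Mat N) (M V : ℝ → Mat N) (t x : ℝ) : ℝ :=
  -rtr (gg Λ M t x * (Λ * Λ - M x * M x - V x))

lemma IsSol.sol_eq' {E M Γ g : Mat N} (h : IsSol E M Γ g) :
    hre N (sol (E, M)) = Γ ∧ him N (sol (E, M)) = g := by
  rw [sol_eq (p := (E, M)) h.enc, hre_pair h.hΓ h.hg.1, him_pair h.hΓ h.hg.1]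
  exact ⟨rfl, rfl⟩

lemma E_herm {Λ : Mat N} (hΛ : Λ.IsHermitian) (t : ℝ) : (Λ * Λ + t • (1 : Mat N)).IsHermitian := by
  unfold IsHermitian; simp [hΛ.eq]

lemma sq_psd {Λ : Mat N} (hΛ : Λ.IsHermitian) : (Λ * Λ).PosSemidef := by
  have := posSemidef_conjTranspose_mul_self Λ
  rwa [hΛ.eq] at this

namespace Path

variable {Λ : Mat N} {M V : ℝ → Mat N} {a b : ℝ}

lemma isSol (h : Path Λ M V a b) {t x : ℝ} (ht : 0 < t) (hx : x ∈ Icc a b) :
    IsSol (Λ * Λ + t • 1) (M x) (Gam Λ M t x) (gg Λ M t x) := by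
  obtain ⟨Γ, g, hs⟩ := exists_sol (h.up x hx) (h.lo x hx) h.hΛ.1 ht
  rw [Gam, gg, hs.sol_eq'.1, hs.sol_eq'.2]
  exact hs

lemma cM (h : Path Λ M V a b) : ContinuousOn M (Icc a b) :=
  fun x hx => (h.ode x hx).continuousAt.continuousWithinAt

lemma cont_sol (h : Path Λ M V a b) :
    ContinuousOn (fun z : ℝ × ℝ => sol (Λ * Λ + z.1 • 1, M z.2)) (Ioi 0 ×ˢ Icc a b) := by
  intro z hz
  have h1 := (h.isSol hz.1 hz.2).local.2.continuousAt
  have h2 : ContinuousOn (fun z : ℝ × ℝ => ((Λ * Λ + z.1 • 1, M z.2) : Mat N × Mat N))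
      (Ioi 0 ×ˢ Icc a b) :=
    ContinuousOn.prodMk (by fun_prop) (h.cM.comp continuousOn_snd fun z hz => hz.2)
  exact ContinuousAt.comp_continuousWithinAt (f := fun z : ℝ × ℝ =>
    ((Λ * Λ + z.1 • 1, M z.2) : Mat N × Mat N)) h1 (h2 z hz)

lemma cont_gg (h : Path Λ M V a b) :
    ContinuousOn (fun z : ℝ × ℝ => gg Λ M z.1 z.2) (Ioi 0 ×ˢ Icc a b) :=
  (him N).continuous.comp_continuousOn h.cont_sol

lemma cont_Gam (h : Path Λ M V a b) :
    ContinuousOn (fun z : ℝ × ℝ => Gam Λ M z.1 z.2) (Ioi 0 ×ˢ Icc a b) :=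
  (hre N).continuous.comp_continuousOn h.cont_sol

lemma cD (h : Path Λ M V a b) : ContinuousOn (fun x => Λ * Λ - M x * M x - V x) (Icc a b) :=
  (continuousOn_const.sub (h.cM.mul h.cM)).sub h.cV.continuousOn

lemma cont_th (h : Path Λ M V a b) :
    ContinuousOn (fun z : ℝ × ℝ => th Λ M V z.1 z.2) (Ioi 0 ×ˢ Icc a b) :=
  (continuous_rtr.comp_continuousOn
    (h.cont_gg.mul (h.cD.comp continuousOn_snd fun _ hz => hz.2))).neg

lemma D_herm (h : Path Λ M V a b) (x : ℝ) : (Λ * Λ - M x * M x - V x).IsHermitian :=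
  ((sq_psd h.hΛ.1).1.sub (sq_psd (h.herm x)).1).sub (h.pV x).1

lemma deriv_t (h : Path Λ M V a b) {t x : ℝ} (ht : 0 < t) (hx : x ∈ Icc a b) :
    HasDerivAt (fun s => rtr (Gam Λ M s x)) (rtr (gg Λ M t x) / 2) t := by
  have hs := h.isSol ht hx
  have h1 : DifferentiableAt ℝ (fun s : ℝ => Gam Λ M s x) t := by
    refine (hre N).differentiableAt.comp t ?_
    exact DifferentiableAt.comp (g := sol) t hs.local.2 (by fun_prop)
  have h2 := hasDerivAt_E1 (hasDerivAt_const t (M x)) h1.hasDerivAt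
  have h3 : HasDerivAt (fun s : ℝ => Λ * Λ + s • (1 : Mat N)) 1 t := by
    simpa using ((hasDerivAt_id t).smul_const (1 : Mat N)).const_add (Λ * Λ)
  have h4 : (fun s : ℝ => Λ * Λ + s • (1 : Mat N)) =ᶠ[𝓝 t] fun s => E1 (M x) (Gam Λ M s x) := by
    filter_upwards [lt_mem_nhds ht] with s hs using (h.isSol hs hx).e1.symm
  have h5 := (h2.congr_of_eventuallyEq h4).unique h3
  simp only [Matrix.zero_mul, Matrix.mul_zero, zero_add, add_zero] at h5
  have h6 := hs.deriv_t h5
  have h7 := (rtrL N).hasFDerivAt.comp_hasDerivAt t h1.hasDerivAt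
  refine HasDerivAt.congr_deriv h7 ?_
  rw [rtrL_apply, ← h6]; ring

lemma deriv_x (h : Path Λ M V a b) {t x : ℝ} (ht : 0 < t) (hx : x ∈ Icc a b) :
    HasDerivAt (fun y => (M y + I • Gam Λ M t y).det)
      ((M x + I • Gam Λ M t x).det * (I * (th Λ M V t x : ℝ))) x := by
  have hs := h.isSol ht hx
  have h0 : HasDerivAt (fun y => ((Λ * Λ + t • 1, M y) : Mat N × Mat N)) (0, _) x :=
    (hasDerivAt_const x _).prodMk (h.ode x hx)
  have h1 : DifferentiableAt ℝ (fun y : ℝ => Gam Λ M t y) x := by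
    refine (hre N).differentiableAt.comp x ?_
    exact DifferentiableAt.comp (g := sol) x hs.local.2 h0.differentiableAt
  have h2 := hasDerivAt_E1 (h.ode x hx) h1.hasDerivAt
  have h4 : (fun _ : ℝ => Λ * Λ + t • (1 : Mat N)) =ᶠ[𝓝 x] fun y => E1 (M y) (Gam Λ M t y) := by
    filter_upwards [h0.continuousAt.eventually hs.local.1] with y hy
    have := hy.e1
    rw [hre_of_herm (h.herm y), hre_of_herm hs.hE] at this
    exact this.symm
  have h5 := (h2.congr_of_eventuallyEq h4).unique (hasDerivAt_const x _)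
  have hE : (Λ * Λ + t • (1 : Mat N)).PosDef :=
    PosDef.posSemidef_add (sq_psd h.hΛ.1) (PosDef.one.smul ht)
  obtain ⟨h6, h7⟩ := hs.deriv_x hE (h.D_herm x)
    (herm_deriv h1.hasDerivAt (Eventually.of_forall fun y => hre_herm _)) h5
  have h8 := hasDerivAt_det ((h.ode x hx).add (hasDerivAt_csmul h1.hasDerivAt I)) h6
  refine HasDerivAt.congr_deriv h8 ?_
  simp only [Pi.add_apply]
  rw [h7, th]
  push_cast
  ring

lemma cos_eq (h : Path Λ M V a b) {t : ℝ} (ht : 0 < t) :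
    Real.cos ((∫ x in a..b, th Λ M V t x) - ∑ j, 2 * ang (h.hΛ.1.eigenvalues j) t) = 1 := by
  have hc : ContinuousOn (fun x => th Λ M V t x) (Icc a b) :=
    h.cont_th.comp (f := fun x => (t, x)) (by fun_prop) fun x hx => ⟨ht, hx⟩
  have h1 := exp_ode (c := fun x => I * (th Λ M V t x : ℝ)) h.hab
    (continuousOn_const.mul (continuous_ofReal.comp_continuousOn hc)) fun x hx => h.deriv_x ht hx
  have ea : M a + I • Gam Λ M t a = (1 : ℂ) • Λ + (I * (√t : ℝ)) • (1 : Mat N) := by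
    rw [Gam, h.ha, (isSol_end h.hΛ.1 ht).sol_eq'.1, one_smul, mul_smul]; rfl
  have eb : M b + I • Gam Λ M t b = (-1 : ℂ) • Λ + (I * (√t : ℝ)) • (1 : Mat N) := by
    have := (isSol_end h.hΛ.1.neg ht).sol_eq'.1
    rw [neg_mul_neg] at this
    rw [Gam, h.hb, this, neg_smul, one_smul, mul_smul]; rfl
  rw [ea, eb, det_add_smul h.hΛ.1, det_add_smul h.hΛ.1, intervalIntegral.integral_const_mul,
    intervalIntegral.integral_ofReal] at h1
  simp only [ang_exp ht] at h1
  rw [Finset.prod_mul_distrib, ← Complex.exp_sum] at h1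
  have hne : ∏ i, (1 * (h.hΛ.1.eigenvalues i : ℂ) + I * (√t : ℝ)) ≠ 0 := by
    refine Finset.prod_ne_zero_iff.mpr fun i _ h0 => ?_
    have := congrArg Complex.im h0
    simp only [add_im, mul_im, one_re, ofReal_im, one_im, ofReal_re, I_re, I_im, zero_im] at this
    have := Real.sqrt_pos.mpr ht
    linarith
  have h2 := mul_left_cancel₀ hne h1
  rw [← Complex.exp_ofReal_mul_I_re]
  push_cast at h2 ⊢
  rw [sub_mul, Complex.exp_sub, mul_comm _ I, ← h2, mul_comm _ I, Finset.mul_sum,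
    div_self (Complex.exp_ne_zero _), one_re]

lemma cont_th_t (h : Path Λ M V a b) {τ T : ℝ} (hτ : 0 < τ) :
    ContinuousOn (Function.uncurry fun t x => th Λ M V t x) (Icc τ T ×ˢ Icc a b) :=
  h.cont_th.mono (prod_mono (fun _ ht => hτ.trans_le ht.1) le_rfl)

lemma cont_Th (h : Path Λ M V a b) : ContinuousOn (fun t => ∫ x in a..b, th Λ M V t x) (Ioi 0) := by
  set f : Ioi (0 : ℝ) → ℝ → ℝ := fun t y => th Λ M V t (projIcc a b h.hab y) with hf
  have h1 : Continuous (Function.uncurry f) :=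
    h.cont_th.comp_continuous (f := fun z : Ioi (0 : ℝ) × ℝ => ((z.1 : ℝ), (projIcc a b h.hab z.2 : ℝ)))
      ((continuous_subtype_val.comp continuous_fst).prodMk
        (continuous_subtype_val.comp (continuous_projIcc.comp continuous_snd)))
      fun z => ⟨z.1.2, (projIcc a b h.hab z.2).2⟩
  have h2 := intervalIntegral.continuous_parametric_intervalIntegral_of_continuous' (μ := volume)
    h1 a b
  rw [continuousOn_iff_continuous_domRestrict]
  refine h2.congr fun t => integral_congr fun x hx => ?_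
  rw [uIcc_of_le h.hab] at hx
  simp [hf, projIcc_of_mem h.hab hx]

lemma Th_tendsto (h : Path Λ M V a b) :
    Tendsto (fun t => ∫ x in a..b, th Λ M V t x) atTop (𝓝 0) := by
  obtain ⟨C, hC⟩ := isCompact_Icc.exists_bound_of_continuousOn h.cD
  obtain ⟨C', hC'⟩ := isCompact_Icc.exists_bound_of_continuousOn
    ((continuousOn_const (c := Λ * Λ)).sub (h.cM.mul h.cM))
  have hC0 : 0 ≤ C := (norm_nonneg _).trans (hC a ⟨le_rfl, h.hab⟩)
  have hC0' : 0 ≤ C' := (norm_nonneg _).trans (hC' a ⟨le_rfl, h.hab⟩)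
  have h1 : Tendsto (fun t : ℝ => C * ((2 * N + N * C') / √t) * |b - a|) atTop (𝓝 0) := by
    have := ((tendsto_const_nhds (x := 2 * N + N * C')).div_atTop
      Real.tendsto_sqrt_atTop).const_mul C |>.mul_const |b - a|
    simpa using this
  refine squeeze_zero_norm' ?_ h1
  filter_upwards [eventually_ge_atTop 1, eventually_ge_atTop (2 * C')] with t ht1 ht2
  refine norm_integral_le_of_norm_le_const fun x hx => ?_
  rw [uIoc_of_le h.hab] at hx
  have hx' := Ioc_subset_Icc_self hx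
  have ht : 0 < t := by linarith
  have hs := h.isSol ht hx'
  have hJ : (Λ * Λ - M x * M x).IsHermitian := (sq_psd h.hΛ.1).1.sub (sq_psd (h.herm x)).1
  have e : Λ * Λ + t • 1 - M x * M x = (Λ * Λ - M x * M x) + t • (1 : Mat N) := by abel
  have b1 := hs.b_ineq
  have b2 := hs.e_ineq (√t)
  have b3 := (abs_le.mp (abs_rtr_mul_le hs.hg.posSemidef hJ)).1
  have b4 := rtr_mul_le PosSemidef.one hJ
  have b5 := abs_rtr_mul_le hs.hg.posSemidef (h.D_herm x)
  have b6 := rtr_nonneg hs.hg.posSemidef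
  have b7 : ‖Λ * Λ - M x * M x‖ ≤ C' := hC' x hx'
  have b8 := hC x hx'
  rw [e] at b1 b2
  simp only [Matrix.mul_add, Matrix.mul_smul, Matrix.mul_one, rtr_add, rtr_smul, rtr_one,
    Matrix.one_mul, Real.sq_sqrt ht.le] at b1 b2 b4
  have hr : 1 ≤ √t := Real.one_le_sqrt.mpr ht1
  have hr2 : √t * √t = t := Real.mul_self_sqrt ht.le
  have hN : (0 : ℝ) ≤ N := Nat.cast_nonneg _
  have c1 : t / 2 * rtr (gg Λ M t x) ≤ rtr (Gam Λ M t x) := by nlinarith
  have c2 : 2 * √t * rtr (Gam Λ M t x) ≤ (2 * N + N * C') * t := by nlinarith [mul_nonneg hN hC0']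
  have c3 : rtr (gg Λ M t x) ≤ (2 * N + N * C') / √t := by
    rw [le_div_iff₀ (by linarith)]
    have := mul_le_mul_of_nonneg_left c1 (show 0 ≤ 2 * √t by linarith)
    nlinarith
  rw [th, norm_neg, Real.norm_eq_abs]
  exact b5.trans (mul_le_mul b8 c3 b6 hC0)

lemma Th_eq (h : Path Λ M V a b) {t : ℝ} (ht : 0 < t) :
    (∫ x in a..b, th Λ M V t x) = ∑ j, 2 * ang (h.hΛ.1.eigenvalues j) t := by
  set F : ℝ → ℝ := fun t =>
    (∫ x in a..b, th Λ M V t x) - ∑ j, 2 * ang (h.hΛ.1.eigenvalues j) t with hF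
  have h1 : ContinuousOn (fun t => |F t|) (Ioi 0) :=
    (h.cont_Th.sub (continuousOn_finsetSum _ fun j _ => continuousOn_const.mul (ang_cont _))).abs
  have h2 : Tendsto (fun t => |F t|) atTop (𝓝 0) := by
    have := (h.Th_tendsto.sub (tendsto_finsetSum Finset.univ fun j _ =>
      (ang_tendsto (h.hΛ.1.eigenvalues j)).const_mul 2)).abs
    simpa using this
  obtain ⟨s, hs1, hs2⟩ := ((h2.eventually (gt_mem_nhds Real.pi_pos)).and
    (eventually_gt_atTop 0)).exists
  have h3 : |F t| < Real.pi := by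
    by_contra hc
    obtain ⟨u, hu1, hu2⟩ := isPreconnected_Ioi.intermediate_value hs2 ht h1
      ⟨hs1.le, not_lt.mp hc⟩
    have h4 := h.cos_eq hu1
    rw [← Real.cos_abs] at h4
    have hu3 : |F u| = Real.pi := hu2
    rw [hu3, Real.cos_pi] at h4
    norm_num at h4
  have h4 := abs_lt.mp h3
  have := Real.pi_pos
  exact sub_eq_zero.mp ((Real.cos_eq_one_iff_of_lt_of_lt (by linarith [h4.1])
    (by linarith [h4.2])).mp (h.cos_eq ht))

lemma pointwise (h : Path Λ M V a b) {q t x : ℝ} (hq : 0 < q) (ht : 0 < t) (hx : x ∈ Icc a b) :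
    2 * (1 + q) * ∑ i, √(q / (1 + q) * (h.pV x).1.eigenvalues i + t) -
      ((2 * q + 1) * rtr (Gam Λ M t x) + t * rtr (gg Λ M t x)) ≤ q * th Λ M V t x := by
  have hs := h.isSol ht hx
  have hV := (h.pV x).1
  have b1 := hs.b_ineq
  have b2 := hs.sq_ineq (cfc_herm (fun v => √(q / (1 + q) * v + t)) (V x))
  have e : Λ * Λ + t • 1 - M x * M x = (Λ * Λ - M x * M x) + t • (1 : Mat N) := by abel
  have e2 : cfc (fun v => √(q / (1 + q) * v + t)) (V x) * cfc (fun v => √(q / (1 + q) * v + t)) (V x)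
      = (q / (1 + q)) • V x + t • (1 : Mat N) := by
    rw [cfc_mul' hV, cfc_congr' hV (g := fun v => q / (1 + q) * v + t * 1), cfc_affine hV,
      cfc_id'' hV, cfc_one' hV]
    intro i
    have := (h.pV x).eigenvalues_nonneg i
    rw [Real.mul_self_sqrt (by positivity), mul_one]
  rw [e] at b1
  rw [e2, rtr_cfc hV] at b2
  rw [th, Matrix.mul_sub _ _ (V x), rtr_sub]
  simp only [Matrix.mul_add, Matrix.mul_smul, Matrix.mul_one, rtr_add, rtr_smul] at b1 b2
  have b3 := mul_le_mul_of_nonneg_left b2 (show 0 ≤ 1 + q by linarith)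
  have b4 := mul_le_mul_of_nonneg_left b1 hq.le
  have e3 : (1 + q) * (q / (1 + q) * rtr (gg Λ M t x * V x) + t * rtr (gg Λ M t x)) =
      q * rtr (gg Λ M t x * V x) + (1 + q) * t * rtr (gg Λ M t x) := by field_simp
  rw [e3] at b3
  linarith

lemma int_t (h : Path Λ M V a b) {q τ T x : ℝ} (hq : 0 < q) (hq1 : q < 1) (hτ : 0 < τ)
    (hT : τ ≤ T) (hx : x ∈ Icc a b) :
    -(T ^ q * rtr (Λ * Λ - M x * M x - V x)) - (2 * N * τ ^ (1 + q) + τ ^ q * rtr (V x) +
      I3 q * (q / (1 + q)) ^ (1 + q) * trPow (V x) (1 + q)) ≤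
      q * ∫ t in τ..T, t ^ (q - 1 / 2) * th Λ M V t x := by
  have hpos : ∀ t ∈ uIcc τ T, 0 < t := fun t ht => by
    rw [uIcc_of_le hT] at ht; exact hτ.trans_le ht.1
  have hT0 : 0 < T := hτ.trans_le hT
  have cp : ContinuousOn (fun t : ℝ => t ^ (q - 1 / 2)) (uIcc τ T) :=
    continuousOn_id.rpow_const fun t ht => Or.inl (hpos t ht).ne'
  have c1 : ContinuousOn (fun t => rtr (Gam Λ M t x)) (uIcc τ T) :=
    continuous_rtr.comp_continuousOn
      (h.cont_Gam.comp (f := fun t => (t, x)) (by fun_prop) fun t ht => ⟨hpos t ht, hx⟩)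
  have c2 : ContinuousOn (fun t => rtr (gg Λ M t x)) (uIcc τ T) :=
    continuous_rtr.comp_continuousOn
      (h.cont_gg.comp (f := fun t => (t, x)) (by fun_prop) fun t ht => ⟨hpos t ht, hx⟩)
  have c3 : ContinuousOn (fun t => th Λ M V t x) (uIcc τ T) :=
    h.cont_th.comp (f := fun t => (t, x)) (by fun_prop) fun t ht => ⟨hpos t ht, hx⟩
  set y : Fin N → ℝ := fun i => q / (1 + q) * (h.pV x).1.eigenvalues i with hy
  have hy0 : ∀ i, 0 ≤ y i := fun i => by
    have := (h.pV x).eigenvalues_nonneg i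
    simp only [hy]; positivity
  have i1 : ∀ i, IntervalIntegrable (fun t : ℝ => t ^ (q - 1 / 2) * √(y i + t)) volume τ T :=
    fun i => (cp.mul (by fun_prop)).intervalIntegrable
  have i1' : IntervalIntegrable (fun t : ℝ => ∑ i, t ^ (q - 1 / 2) * √(y i + t)) volume τ T :=
    ⟨integrable_finsetSum _ fun i _ => (i1 i).1, integrable_finsetSum _ fun i _ => (i1 i).2⟩
  have i2 : IntervalIntegrable (fun t : ℝ => t ^ (q - 1 / 2) *
      ((2 * q + 1) * rtr (Gam Λ M t x) + t * rtr (gg Λ M t x))) volume τ T :=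
    (cp.mul ((continuousOn_const.mul c1).add (continuousOn_id.mul c2))).intervalIntegrable
  have i3 : ∫ t in τ..T, t ^ (q - 1 / 2) *
      ((2 * q + 1) * rtr (Gam Λ M t x) + t * rtr (gg Λ M t x)) =
      2 * (T ^ (q + 1 / 2) * rtr (Gam Λ M T x)) - 2 * (τ ^ (q + 1 / 2) * rtr (Gam Λ M τ x)) := by
    refine integral_eq_sub_of_hasDerivAt (f := fun t => 2 * (t ^ (q + 1 / 2) * rtr (Gam Λ M t x)))
      (fun t ht => ?_) i2
    have ht' := hpos t ht
    refine (((Real.hasDerivAt_rpow_const (p := q + 1 / 2) (Or.inl ht'.ne')).mul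
      (h.deriv_t ht' hx)).const_mul 2).congr_deriv ?_
    rw [show q + 1 / 2 - 1 = q - 1 / 2 by ring, show q + 1 / 2 = q - 1 / 2 + 1 by ring,
      Real.rpow_add_one ht'.ne']
    ring
  have i4 : ∫ t in τ..T, (2 * (1 + q) * ∑ i, t ^ (q - 1 / 2) * √(y i + t) - t ^ (q - 1 / 2) *
      ((2 * q + 1) * rtr (Gam Λ M t x) + t * rtr (gg Λ M t x))) ≤
      ∫ t in τ..T, q * (t ^ (q - 1 / 2) * th Λ M V t x) := by
    refine integral_mono_on hT ((i1'.const_mul _).sub i2)
      ((cp.mul c3).intervalIntegrable.const_mul _) fun t ht => ?_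
    have ht' : 0 < t := hτ.trans_le ht.1
    have := mul_le_mul_of_nonneg_left (h.pointwise hq ht' hx) (Real.rpow_nonneg ht'.le (q - 1 / 2))
    rw [← Finset.mul_sum]
    linarith
  rw [intervalIntegral.integral_sub (i1'.const_mul _) i2,
    intervalIntegral.integral_const_mul, intervalIntegral.integral_const_mul,
    intervalIntegral.integral_finsetSum fun i _ => i1 i, i3] at i4
  have b1 : 0 ≤ τ ^ (q + 1 / 2) * rtr (Gam Λ M τ x) :=
    mul_nonneg (Real.rpow_nonneg hτ.le _) (h.isSol hτ hx).gam_nonneg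
  have b2 := mul_le_mul_of_nonneg_left ((h.isSol hT0 hx).e_ineq (√T)) (Real.rpow_nonneg hT0.le q)
  have e : Λ * Λ + T • 1 - M x * M x = (Λ * Λ - M x * M x) + T • (1 : Mat N) := by abel
  rw [e, rtr_add, rtr_smul, rtr_one, Real.sq_sqrt hT0.le] at b2
  have e1 : T ^ (q + 1 / 2) = T ^ q * √T := by rw [Real.rpow_add hT0, Real.sqrt_eq_rpow]
  have e2 : T ^ (1 + q) = T ^ q * T := by rw [add_comm, Real.rpow_add_one hT0.ne']
  have b3 := Finset.sum_le_sum fun i (_ : i ∈ Finset.univ) => S1 hq hq1 (hy0 i) hτ hT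
  have e3 : ∑ i, y i = q / (1 + q) * rtr (V x) := by
    rw [rtr_eq_sum (h.pV x).1, Finset.mul_sum]
  have e4 : ∑ i, y i ^ (1 + q) = (q / (1 + q)) ^ (1 + q) * trPow (V x) (1 + q) := by
    rw [trPow_eq (h.pV x).1, Finset.mul_sum]
    refine Finset.sum_congr rfl fun i _ => ?_
    exact Real.mul_rpow (by positivity) ((h.pV x).eigenvalues_nonneg i)
  simp only [Finset.sum_sub_distrib, Finset.sum_add_distrib, ← Finset.mul_sum, Finset.sum_const,
    Finset.card_univ, Fintype.card_fin, nsmul_eq_mul, e3, e4] at b3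
  have e5 : ∀ Z : ℝ, (1 + q) / q * Z * (q / (1 + q) * rtr (V x)) = Z * rtr (V x) := by
    intro Z; field_simp
  rw [e5, e5, e2] at b3
  rw [e1] at i4
  rw [rtr_sub _ (V x)]
  nlinarith

lemma main_ineq (h : Path Λ M V a b) {q τ T : ℝ} (hq : 0 < q) (hq1 : q < 1) (hτ : 0 < τ)
    (hT : τ ≤ T) :
    q * I3 q * Bq q * trPow Λ (2 * q + 1) - ∑ j, 2 * q * h.hΛ.1.eigenvalues j *
      (τ ^ q / q + h.hΛ.1.eigenvalues j ^ 2 * (T ^ (q - 1) / (1 - q))) ≤
      2 * N * τ ^ (1 + q) * (b - a) + τ ^ q * (∫ x in a..b, rtr (V x)) +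
      I3 q * (q / (1 + q)) ^ (1 + q) * ∫ x in a..b, trPow (V x) (1 + q) := by
  have hpos : ∀ t ∈ uIcc τ T, 0 < t := fun t ht => by
    rw [uIcc_of_le hT] at ht; exact hτ.trans_le ht.1
  obtain ⟨h1, -, h3⟩ := swap_cont (F := fun t x => t ^ (q - 1 / 2) * th Λ M V t x) hT h.hab
    ((continuousOn_fst.rpow_const fun z hz => Or.inl (hτ.trans_le hz.1.1).ne').mul (h.cont_th_t hτ))
  have cp : ContinuousOn (fun t : ℝ => t ^ (q - 1 / 2)) (uIcc τ T) :=
    continuousOn_id.rpow_const fun t ht => Or.inl (hpos t ht).ne'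
  have h4 : ∫ t in τ..T, ∫ x in a..b, t ^ (q - 1 / 2) * th Λ M V t x =
      ∑ j, ∫ t in τ..T, t ^ (q - 1 / 2) * (2 * ang (h.hΛ.1.eigenvalues j) t) := by
    have i0 : ∀ j, IntervalIntegrable
        (fun t => t ^ (q - 1 / 2) * (2 * ang (h.hΛ.1.eigenvalues j) t)) volume τ T := fun j =>
      (cp.mul (continuousOn_const.mul ((ang_cont _).mono hpos))).intervalIntegrable
    rw [← intervalIntegral.integral_finsetSum fun j _ => i0 j]
    refine integral_congr fun t ht => ?_
    rw [intervalIntegral.integral_const_mul, h.Th_eq (hpos t ht), Finset.mul_sum]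
  have i1 : IntervalIntegrable (fun x => rtr (Λ * Λ - M x * M x - V x)) volume a b := by
    refine ContinuousOn.intervalIntegrable ?_
    rw [uIcc_of_le h.hab]
    exact continuous_rtr.comp_continuousOn h.cD
  have i2 : IntervalIntegrable (fun x => rtr (V x)) volume a b :=
    (continuous_rtr.comp h.cV).intervalIntegrable _ _
  have i3 : IntervalIntegrable (fun x => trPow (V x) (1 + q)) volume a b :=
    (continuous_trPow (by linarith) h.cV fun x => (h.pV x).1).intervalIntegrable _ _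
  have h5 : ∫ x in a..b, rtr (Λ * Λ - M x * M x - V x) = -(2 * ∑ j, h.hΛ.1.eigenvalues j) := by
    rw [integral_eq_sub_of_hasDerivAt (f := fun x => rtr (M x)) (fun x hx => ?_) i1, h.ha, h.hb,
      rtr_neg, rtr_eq_sum h.hΛ.1]
    · ring
    · rw [uIcc_of_le h.hab] at hx
      exact (rtrL N).hasFDerivAt.comp_hasDerivAt x (h.ode x hx)
  have h6 := integral_mono_on h.hab ((i1.const_mul _).neg.sub ((intervalIntegrable_const.add
    (i2.const_mul _)).add (i3.const_mul _))) (h3.const_mul q)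
    fun x hx => h.int_t hq hq1 hτ hT hx
  rw [intervalIntegral.integral_sub (i1.const_mul _).neg ((intervalIntegrable_const.add
    (i2.const_mul _)).add (i3.const_mul _)), intervalIntegral.integral_add
    (intervalIntegrable_const.add (i2.const_mul _)) (i3.const_mul _),
    intervalIntegral.integral_add intervalIntegrable_const (i2.const_mul _)] at h6
  simp only [Pi.neg_apply, intervalIntegral.integral_neg, intervalIntegral.integral_const_mul, intervalIntegral.integral_const, smul_eq_mul,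
    h5] at h6
  rw [← h1, h4] at h6
  have b3 := Finset.sum_le_sum fun i (_ : i ∈ Finset.univ) =>
    S2 hq hq1 (h.hΛ.eigenvalues_nonneg i) hτ hT
  rw [Finset.sum_sub_distrib, Finset.sum_sub_distrib, ← Finset.mul_sum, ← Finset.mul_sum,
    ← Finset.mul_sum _ _ q, ← trPow_eq h.hΛ.1] at b3
  linarith

theorem action (h : Path Λ M V a b) {q : ℝ} (hq : 0 < q) (hq1 : q < 1) :
    q * Bq q * trPow Λ (2 * q + 1) ≤
      (q / (1 + q)) ^ (1 + q) * ∫ x in a..b, trPow (V x) (1 + q) := by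
  have t0 : ∀ r : ℝ, 0 < r → Tendsto (fun τ : ℝ => τ ^ r) (𝓝[>] 0) (𝓝 0) := fun r hr => by
    have := (Real.continuousAt_rpow_const 0 r (Or.inr hr.le)).tendsto
    rw [Real.zero_rpow hr.ne'] at this
    exact this.mono_left nhdsWithin_le_nhds
  have h1 := (tendsto_const_nhds (x := q * I3 q * Bq q * trPow Λ (2 * q + 1))).sub
    (tendsto_finsetSum Finset.univ fun j _ => ((((t0 q hq).div_const q).add
      (((t0 (1 - q) (by linarith)).div_const (1 - q)).const_mul
        (h.hΛ.1.eigenvalues j ^ 2))).const_mul (2 * q * h.hΛ.1.eigenvalues j)))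
  have h2 := (((((t0 (1 + q) (by linarith)).const_mul (2 * N : ℝ)).mul_const (b - a)).add
    ((t0 q hq).mul_const (∫ x in a..b, rtr (V x)))).add_const
    (I3 q * (q / (1 + q)) ^ (1 + q) * ∫ x in a..b, trPow (V x) (1 + q)))
  have h3 := le_of_tendsto_of_tendsto h1 h2 (by
    filter_upwards [Ioc_mem_nhdsGT one_pos] with τ hτ
    have := h.main_ineq hq hq1 hτ.1 (hτ.2.trans (one_le_inv_iff₀.mpr hτ))
    rwa [Real.inv_rpow hτ.1.le, ← Real.rpow_neg hτ.1.le, neg_sub] at this)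
  simp only [zero_div, mul_zero, add_zero, Finset.sum_const_zero, sub_zero, zero_mul,
    zero_add] at h3
  refine le_of_mul_le_mul_left ?_ (I3_pos hq hq1)
  linarith

end Path

end Vale.Agent.P371
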