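import Vale.Agent.P371.Basic

/-! The algebraic Riccati system. -/

open Matrix Set Filter Topology Complex
open scoped ComplexOrder MatrixOrder Matrix.Norms.L2Operator

namespace Vale.Agent.P371

variable {N : ℕ}

noncomputable def E1 (M Γ : Mat N) : Mat N := Γ * Γ + I • (M * Γ - Γ * M) + M * M

noncomputable def E2 (M Γ g : Mat N) : Mat N := Γ * g + g * Γ - I • (M * g - g * M)

structure IsSol (E M Γ g : Mat N) : Prop where
  hM : M.IsHermitian
  hΓ : Γ.IsHermitian
  hg : g.PosDef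
  e1 : E1 M Γ = E
  e2 : E2 M Γ g = (2 : ℂ) • 1

lemma E1_herm {M Γ : Mat N} (hM : M.IsHermitian) (hΓ : Γ.IsHermitian) : (E1 M Γ).IsHermitian := by
  unfold IsHermitian E1
  simp only [conjTranspose_add, conjTranspose_mul, conjTranspose_smul, conjTranspose_sub, hM.eq,
    hΓ.eq, RCLike.star_def, conj_I, neg_smul, ← smul_neg, neg_sub]

lemma E2_herm {M Γ g : Mat N} (hM : M.IsHermitian) (hΓ : Γ.IsHermitian) (hg : g.IsHermitian) :
    (E2 M Γ g).IsHermitian := by
  unfold IsHermitian E2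
  simp only [conjTranspose_add, conjTranspose_mul, conjTranspose_smul, conjTranspose_sub, hM.eq,
    hΓ.eq, hg.eq, RCLike.star_def, conj_I, neg_smul, ← smul_neg, neg_sub, add_comm]

lemma Z_star {M Γ : Mat N} (hM : M.IsHermitian) (hΓ : Γ.IsHermitian) :
    (M + I • Γ)ᴴ = M - I • Γ := by
  simp [conjTranspose_add, conjTranspose_smul, hM.eq, hΓ.eq, sub_eq_add_neg]

lemma ZZ_eq (M Γ : Mat N) : (M - I • Γ) * (M + I • Γ) = E1 M Γ := by
  simp only [E1, Matrix.sub_mul, Matrix.mul_add, Matrix.mul_smul, Matrix.smul_mul, smul_sub,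
    smul_smul, I_mul_I, neg_smul, one_smul]
  abel

lemma Zg_eq (M Γ g : Mat N) : (M + I • Γ) * g - g * (M - I • Γ) = I • E2 M Γ g := by
  simp only [E2, Matrix.add_mul, Matrix.mul_sub, Matrix.mul_smul, Matrix.smul_mul, smul_sub,
    smul_add, smul_smul, I_mul_I, neg_smul, one_smul]
  abel

lemma sylvester {Z P Q X : Mat N} (hP : P.PosDef) (hQ : Q.PosDef)
    (h : Z * P - P * Zᴴ = (2 * I) • Q) (hX : Zᴴ * X = X * Z) : X = 0 := by
  have hX' : Xᴴ * Z = Zᴴ * Xᴴ := by
    have := congrArg conjTranspose hX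
    simpa [conjTranspose_mul] using this
  have h1 : (Xᴴ * ((2 * I) • Q) * X * P).trace = -(Xᴴ * P * X * ((2 * I) • Q)).trace := by
    rw [← h]
    have e1 : (Xᴴ * (Z * P) * X * P).trace = (Xᴴ * P * X * (P * Zᴴ)).trace := by
      rw [← Matrix.mul_assoc Xᴴ Z, hX']
      simp only [Matrix.mul_assoc]
      rw [trace_mul_comm]
      simp only [Matrix.mul_assoc]
    have e2 : (Xᴴ * (P * Zᴴ) * X * P).trace = (Xᴴ * P * X * (Z * P)).trace := by
      simp only [Matrix.mul_assoc]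
      rw [← Matrix.mul_assoc Zᴴ X, hX]
      simp only [Matrix.mul_assoc]
    simp only [Matrix.mul_sub, Matrix.sub_mul, trace_sub, e1, e2]
    ring
  simp only [Matrix.mul_smul, Matrix.smul_mul, trace_smul, smul_eq_mul] at h1
  have h2 : (Xᴴ * Q * X * P).trace = -(Xᴴ * P * X * Q).trace := by
    have : (2 * I) ≠ 0 := by simp
    apply mul_left_cancel₀ this
    rw [h1]; ring
  have h3 : rtr (Xᴴ * Q * X * P) = -rtr (Xᴴ * P * X * Q) := by
    simp only [rtr, h2, neg_re]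
  have h4 := rtr_mul_nonneg (hQ.posSemidef.conjTranspose_mul_mul_same X) hP.posSemidef
  have h5 := rtr_mul_nonneg (hP.posSemidef.conjTranspose_mul_mul_same X) hQ.posSemidef
  exact eq_zero_of_conj hP
    (eq_zero_of_rtr_mul (hP.posSemidef.conjTranspose_mul_mul_same X) hQ (by linarith))

namespace IsSol

variable {E M Γ g : Mat N}

lemma gG (h : IsSol E M Γ g) : g * g⁻¹ = 1 :=
  mul_nonsing_inv _ ((isUnit_iff_isUnit_det _).mp h.hg.isUnit)

lemma Gg (h : IsSol E M Γ g) : g⁻¹ * g = 1 :=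
  nonsing_inv_mul _ ((isUnit_iff_isUnit_det _).mp h.hg.isUnit)

lemma lyap (h : IsSol E M Γ g) :
    (M + I • Γ) * g - g * (M + I • Γ)ᴴ = (2 * I) • (1 : Mat N) := by
  rw [Z_star h.hM h.hΓ, Zg_eq, h.e2, smul_smul, mul_comm]

lemma ZZ (h : IsSol E M Γ g) : (M + I • Γ)ᴴ * (M + I • Γ) = E := by
  rw [Z_star h.hM h.hΓ, ZZ_eq, h.e1]

lemma inj1 (h : IsSol E M Γ g) {X : Mat N} (hX : Γ * X + X * Γ + I • (M * X - X * M) = 0) :
    X = 0 := by
  refine sylvester h.hg PosDef.one h.lyap ?_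
  rw [Z_star h.hM h.hΓ, ← sub_eq_zero]
  have := congrArg (fun Y => (-I) • Y) hX
  simp only [smul_add, smul_smul, neg_mul, I_mul_I, neg_neg, one_smul, smul_zero] at this
  rw [← this]
  simp only [Matrix.sub_mul, Matrix.mul_add, Matrix.mul_smul, Matrix.smul_mul, neg_smul]
  abel

lemma inj2 (h : IsSol E M Γ g) {X : Mat N} (hX : E2 M Γ X = 0) : X = 0 := by
  have hG := h.hg.inv
  have hGG : (g⁻¹ * g⁻¹).PosDef := by
    have := PosDef.one.conjTranspose_mul_mul_same (B := g⁻¹)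
      (mulVec_injective_of_isUnit hG.isUnit)
    rwa [Matrix.mul_one, hG.1.eq] at this
  refine sylvester (Z := -(M + I • Γ)ᴴ) hG hGG ?_ ?_
  · have := congrArg (fun Y => g⁻¹ * Y * g⁻¹) h.lyap
    simp only [Matrix.mul_sub, Matrix.sub_mul, Matrix.mul_smul, Matrix.smul_mul, Matrix.mul_one,
      Matrix.mul_assoc, h.gG] at this
    rw [← Matrix.mul_assoc g⁻¹ g, h.Gg, Matrix.one_mul] at this
    rw [← this]
    simp only [conjTranspose_neg, conjTranspose_conjTranspose, Matrix.neg_mul, Matrix.mul_neg]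
    abel
  · have := Zg_eq M Γ X
    rw [hX, smul_zero, sub_eq_zero] at this
    rw [conjTranspose_neg, conjTranspose_conjTranspose, Matrix.neg_mul, Matrix.mul_neg, this,
      Z_star h.hM h.hΓ]

lemma tr_inv (h : IsSol E M Γ g) : rtr g⁻¹ = rtr Γ := by
  have := congrArg (fun Y => (g⁻¹ * Y).trace) h.e2
  have e1 : ∀ Y : Mat N, (g⁻¹ * (Y * g)).trace = Y.trace := fun Y => by
    rw [trace_mul_comm, Matrix.mul_assoc, h.gG, Matrix.mul_one]
  have e2 : ∀ Y : Mat N, (g⁻¹ * (g * Y)).trace = Y.trace := fun Y => by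
    rw [← Matrix.mul_assoc, h.Gg, Matrix.one_mul]
  simp only [E2, Matrix.mul_add, Matrix.mul_sub, Matrix.mul_smul, trace_add, trace_sub,
    trace_smul, e1, e2, Matrix.mul_one, smul_eq_mul] at this
  have h2 : g⁻¹.trace = Γ.trace := by linear_combination (-1 / 2 : ℂ) * this
  simp only [rtr, h2]

lemma gam_nonneg (h : IsSol E M Γ g) : 0 ≤ rtr Γ := h.tr_inv ▸ rtr_nonneg h.hg.inv.posSemidef

lemma sq_ineq (h : IsSol E M Γ g) {T : Mat N} (hT : T.IsHermitian) :
    2 * rtr T - rtr Γ ≤ rtr (g * (T * T)) := by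
  have h1 := rtr_nonneg (h.hg.posSemidef.conjTranspose_mul_mul_same (T - g⁻¹))
  rw [conjTranspose_sub, hT.eq, h.hg.inv.1.eq] at h1
  simp only [Matrix.sub_mul, Matrix.mul_sub, h.Gg, Matrix.one_mul, Matrix.mul_assoc, h.gG,
    Matrix.mul_one, rtr_sub, h.tr_inv] at h1
  rw [rtr_mul_comm T, Matrix.mul_assoc] at h1
  linarith

lemma b_ineq (h : IsSol E M Γ g) : rtr (g * (E - M * M)) ≤ rtr Γ := by
  have h1 := congrArg (fun Y => (Γ * Y).trace) h.e2
  have e1 : (Γ * (Γ * g)).trace = (g * (Γ * Γ)).trace := by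
    rw [← Matrix.mul_assoc, trace_mul_comm]
  have e2 : (Γ * (g * Γ)).trace = (g * (Γ * Γ)).trace := by
    rw [trace_mul_comm, Matrix.mul_assoc]
  have e3 : (Γ * (M * g)).trace = (g * (Γ * M)).trace := by
    rw [← Matrix.mul_assoc, trace_mul_comm]
  have e4 : (Γ * (g * M)).trace = (g * (M * Γ)).trace := by
    rw [trace_mul_comm, Matrix.mul_assoc]
  simp only [E2, Matrix.mul_add, Matrix.mul_sub, Matrix.mul_smul, trace_add, trace_sub,
    trace_smul, e1, e2, e3, e4, Matrix.mul_one, smul_eq_mul] at h1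
  have h2 : (g * (E - M * M)).trace = 2 * Γ.trace - (g * (Γ * Γ)).trace := by
    rw [← h.e1]
    simp only [E1, add_sub_cancel_right, Matrix.mul_add, Matrix.mul_sub, Matrix.mul_smul,
      trace_add, trace_sub, trace_smul, smul_eq_mul]
    linear_combination h1
  have h3 : rtr (g * (E - M * M)) = 2 * rtr Γ - rtr (g * (Γ * Γ)) := by
    simp [rtr, h2]
  have := h.sq_ineq h.hΓ
  linarith

end IsSol

lemma rtr_E1 (M Γ : Mat N) : rtr (E1 M Γ - M * M) = rtr (Γ * Γ) := by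
  simp only [rtr, E1, add_sub_cancel_right, trace_add, trace_smul, trace_sub, trace_mul_comm M Γ,
    sub_self, smul_zero, add_zero]

lemma IsSol.e_ineq {E M Γ g : Mat N} (h : IsSol E M Γ g) (s : ℝ) :
    2 * s * rtr Γ ≤ rtr (E - M * M) + N * s ^ 2 := by
  have h1 := rtr_nonneg (posSemidef_conjTranspose_mul_self (Γ - s • (1 : Mat N)))
  rw [conjTranspose_sub, h.hΓ.eq, conjTranspose_smul, conjTranspose_one, star_trivial] at h1
  simp only [Matrix.sub_mul, Matrix.mul_sub, Matrix.mul_smul, Matrix.smul_mul, Matrix.mul_one,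
    Matrix.one_mul, rtr_sub, rtr_smul, rtr_one] at h1
  rw [← h.e1, rtr_E1]
  nlinarith

lemma IsSol.diff {E M Γ g Γ' g' : Mat N} (h : IsSol E M Γ g) (h' : IsSol E M Γ' g') :
    rtr (g * ((Γ' - Γ) * (Γ' - Γ))) + 2 * rtr (Γ' - Γ) = 0 := by
  set δ := Γ' - Γ with hδ
  have h1 : δ * δ + (Γ * δ + δ * Γ + I • (M * δ - δ * M)) = 0 := by
    have := h'.e1.trans h.e1.symm
    simp only [E1] at this
    rw [← sub_eq_zero] at this
    rw [← this, hδ]
    simp only [Matrix.mul_sub, Matrix.sub_mul, smul_sub]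
    abel
  have h2 := congrArg (fun Y => (g * Y).trace) h1
  have h3 := congrArg (fun Y => (δ * Y).trace) h.e2
  have e1 : (δ * (Γ * g)).trace = (g * (δ * Γ)).trace := by
    rw [← Matrix.mul_assoc, trace_mul_comm]
  have e2 : (δ * (g * Γ)).trace = (g * (Γ * δ)).trace := by
    rw [trace_mul_comm, Matrix.mul_assoc]
  have e3 : (δ * (M * g)).trace = (g * (δ * M)).trace := by
    rw [← Matrix.mul_assoc, trace_mul_comm]
  have e4 : (δ * (g * M)).trace = (g * (M * δ)).trace := by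
    rw [trace_mul_comm, Matrix.mul_assoc]
  simp only [E2, Matrix.mul_add, Matrix.mul_sub, Matrix.mul_smul, trace_add, trace_sub,
    trace_smul, e1, e2, e3, e4, Matrix.mul_one, smul_eq_mul, Matrix.mul_zero,
    trace_zero] at h2 h3
  have h4 : (g * (δ * δ)).trace + 2 * δ.trace = 0 := by linear_combination h2 - h3
  have := congrArg Complex.re h4
  simpa [rtr] using this

lemma IsSol.unique {E M Γ g Γ' g' : Mat N} (h : IsSol E M Γ g) (h' : IsSol E M Γ' g') :
    Γ' = Γ ∧ g' = g := by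
  have hδ : (Γ' - Γ).IsHermitian := h'.hΓ.sub h.hΓ
  have hp : ((Γ' - Γ) * (Γ' - Γ)).PosSemidef := by
    have := posSemidef_conjTranspose_mul_self (Γ' - Γ)
    rwa [hδ.eq] at this
  have h1 := h.diff h'
  have h2 := h'.diff h
  rw [← neg_sub Γ' Γ, neg_mul_neg, rtr_neg] at h2
  have h3 := rtr_mul_nonneg h.hg.posSemidef hp
  have h4 := rtr_mul_nonneg h'.hg.posSemidef hp
  have h5 := eq_zero_of_rtr_mul hp h.hg (by rw [rtr_mul_comm]; linarith)
  have h6 : Γ' = Γ := by
    rw [← sub_eq_zero, ← conjTranspose_mul_self_eq_zero, hδ.eq, h5]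
  refine ⟨h6, ?_⟩
  subst h6
  rw [← sub_eq_zero]
  apply h.inj2
  have := h'.e2.trans h.e2.symm
  rw [← sub_eq_zero] at this
  rw [← this]
  simp only [E2, Matrix.mul_sub, Matrix.sub_mul, smul_sub]
  abel

end Vale.Agent.P371
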