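import Mathlib

/-! One-dimensional Lieb-Thirring constants for matrix potentials: definitions. -/

open MeasureTheory Matrix
open scoped ENNReal ComplexOrder

namespace Vale.Agent.P371

/-- The trace of the power `A ^ p`, taken by functional calculus. -/
noncomputable def trPow {m : ℕ} (A : Matrix (Fin m) (Fin m) ℂ) (p : ℝ) : ℝ :=
  (cfc (fun t : ℝ => t ^ p) A).trace.re

/-- The integral over the line of the trace of `W x ^ p`. -/
noncomputable def potInt {m : ℕ} (p : ℝ) (W : ℝ → Matrix (Fin m) (Fin m) ℂ) : ℝ≥0∞ :=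
  ∫⁻ x, ENNReal.ofReal (trPow (W x) p)

/-- Measurable, positive semidefinite matrix potentials with finite integral. -/
structure IsPotential {m : ℕ} (p : ℝ) (W : ℝ → Matrix (Fin m) (Fin m) ℂ) : Prop where
  meas : ∀ a b, Measurable fun x => W x a b
  psd : ∀ x, (W x).PosSemidef
  fin : potInt p W < ⊤

/-- The Sobolev space of vector functions: an absolutely continuous square integrable function
together with its square integrable derivative. -/
structure H1 (m : ℕ) where
  val : ℝ → Fin m → ℂ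
  der : ℝ → Fin m → ℂ
  val_L2 : ∀ a, MemLp (fun x => val x a) 2 volume
  der_L2 : ∀ a, MemLp (fun x => der x a) 2 volume
  ftc : ∀ a x y, val y a - val x a = ∫ t in x..y, der t a

/-- The inner product of square integrable vector functions. -/
noncomputable def l2 {m : ℕ} (φ ψ : H1 m) : ℂ :=
  ∫ x, star (φ.val x) ⬝ᵥ ψ.val x

/-- The sesquilinear form of the Schroedinger operator with potential `-W`. -/
noncomputable def form {m : ℕ} (W : ℝ → Matrix (Fin m) (Fin m) ℂ) (φ ψ : H1 m) : ℂ :=
  (∫ x, star (φ.der x) ⬝ᵥ ψ.der x) - ∫ x, star (φ.val x) ⬝ᵥ (W x *ᵥ ψ.val x)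

/-- `ψ` solves the eigenvalue equation of the operator of the form, with eigenvalue `lam`. -/
def IsEigen {m : ℕ} (W : ℝ → Matrix (Fin m) (Fin m) ℂ) (ψ : H1 m) (lam : ℝ) : Prop :=
  ∀ φ : H1 m, form W φ ψ = (lam : ℂ) * l2 φ ψ

/-- The Riesz mean of the negative eigenvalues counted with multiplicity: the supremum over finite
orthonormal families of eigenfunctions with negative eigenvalues. -/
noncomputable def riesz {m : ℕ} (γ : ℝ) (W : ℝ → Matrix (Fin m) (Fin m) ℂ) : ℝ≥0∞ :=
  ⨆ (N : ℕ) (ψ : Fin N → H1 m) (lam : Fin N → ℝ) (_ : ∀ j, lam j < 0)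
    (_ : ∀ j, IsEigen W (ψ j) (lam j))
    (_ : ∀ i j, l2 (ψ i) (ψ j) = if i = j then 1 else 0),
    ENNReal.ofReal (∑ j, |lam j| ^ γ)

/-- The Lieb-Thirring constant for `m × m` matrix potentials on the line. -/
noncomputable def LT (γ : ℝ) (m : ℕ) : ℝ≥0∞ :=
  ⨆ (W : ℝ → Matrix (Fin m) (Fin m) ℂ) (_ : IsPotential (γ + 1 / 2) W)
    (_ : potInt (γ + 1 / 2) W ≠ 0), riesz γ W / potInt (γ + 1 / 2) W

end Vale.Agent.P371
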