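import Mathlib
import Vale.Agent.P371.Defs

/-! Basic matrix facts. -/

open Matrix Set Filter Topology
open scoped ComplexOrder MatrixOrder Matrix.Norms.L2Operator

namespace Vale.Agent.P371

abbrev Mat (N : ℕ) := Matrix (Fin N) (Fin N) ℂ

variable {N m : ℕ}

/-- real part of the trace -/
noncomputable def rtr (A : Mat N) : ℝ := A.trace.re

@[simp] lemma rtr_add (A B : Mat N) : rtr (A + B) = rtr A + rtr B := by simp [rtr]
@[simp] lemma rtr_sub (A B : Mat N) : rtr (A - B) = rtr A - rtr B := by simp [rtr]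
@[simp] lemma rtr_neg (A : Mat N) : rtr (-A) = -rtr A := by simp [rtr]
@[simp] lemma rtr_zero : rtr (0 : Mat N) = 0 := by simp [rtr]
@[simp] lemma rtr_one : rtr (1 : Mat N) = N := by simp [rtr]
@[simp] lemma rtr_smul (c : ℝ) (A : Mat N) : rtr (c • A) = c * rtr A := by simp [rtr]
lemma rtr_mul_comm (A : Matrix (Fin N) (Fin m) ℂ) (B : Matrix (Fin m) (Fin N) ℂ) :
    rtr (A * B) = rtr (B * A) := by simp only [rtr]; rw [trace_mul_comm]
lemma rtr_conjTranspose (A : Mat N) : rtr Aᴴ = rtr A := by simp [rtr, trace_conjTranspose]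

lemma continuous_rtr : Continuous (rtr : Mat N → ℝ) := by
  unfold rtr; fun_prop

@[fun_prop] lemma Continuous.rtr' {X : Type*} [TopologicalSpace X] {f : X → Mat N}
    (hf : Continuous f) : Continuous fun x => rtr (f x) := continuous_rtr.comp hf

/-- real trace as a continuous linear map -/
noncomputable def rtrL (N : ℕ) : Mat N →L[ℝ] ℝ :=
  LinearMap.toContinuousLinearMap
    { toFun := rtr, map_add' := rtr_add, map_smul' := fun c A => by simp }

@[simp] lemma rtrL_apply (A : Mat N) : rtrL N A = rtr A := rfl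

lemma rtr_nonneg {A : Mat N} (hA : A.PosSemidef) : 0 ≤ rtr A :=
  (Complex.le_def.mp hA.trace_nonneg).1

lemma trace_herm {A : Mat N} (hA : A.IsHermitian) : A.trace = (rtr A : ℂ) := by
  have h : star A.trace = A.trace := by rw [← trace_conjTranspose, hA.eq]
  exact (Complex.conj_eq_iff_re.mp h).symm

lemma eq_zero_of_rtr {A : Mat N} (hA : A.PosSemidef) (h : rtr A = 0) : A = 0 := by
  rw [← hA.trace_eq_zero_iff, trace_herm hA.1, h]; simp

lemma exists_sq {A : Mat N} (hA : A.PosSemidef) : ∃ C : Mat N, C.IsHermitian ∧ A = C * C :=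
  ⟨CFC.sqrt A, (CFC.sqrt_nonneg A).posSemidef.1, (CFC.sqrt_mul_sqrt_self A hA.nonneg).symm⟩

lemma rtr_mul_nonneg {A B : Mat N} (hA : A.PosSemidef) (hB : B.PosSemidef) :
    0 ≤ rtr (A * B) := by
  obtain ⟨C, hC, rfl⟩ := exists_sq hB
  have := rtr_nonneg (hA.mul_mul_conjTranspose_same C)
  rw [hC.eq, Matrix.mul_assoc, rtr_mul_comm, Matrix.mul_assoc] at this
  exact this

lemma eq_zero_of_rtr_mul {A B : Mat N} (hA : A.PosSemidef) (hB : B.PosDef)
    (h : rtr (A * B) = 0) : A = 0 := by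
  obtain ⟨C, hC, hBC⟩ := exists_sq hB.posSemidef
  have h1 := eq_zero_of_rtr (hA.mul_mul_conjTranspose_same C) (by
    rw [hC.eq, Matrix.mul_assoc, rtr_mul_comm, Matrix.mul_assoc, ← hBC, h])
  have hu : IsUnit C := by
    have := hB.isUnit
    rw [hBC] at this
    exact isUnit_of_mul_isUnit_left this
  rw [hC.eq] at h1
  exact hu.mul_right_eq_zero.mp (hu.mul_left_eq_zero.mp h1)

lemma eq_zero_of_conj {X : Mat N} {P : Mat N} (hP : P.PosDef) (h : Xᴴ * P * X = 0) : X = 0 := by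
  obtain ⟨C, hC, hBC⟩ := exists_sq hP.posSemidef
  have hu : IsUnit C := by
    have := hP.isUnit
    rw [hBC] at this
    exact isUnit_of_mul_isUnit_left this
  have h2 : (C * X)ᴴ * (C * X) = 0 := by
    rw [conjTranspose_mul, hC.eq, ← h, hBC]; simp only [Matrix.mul_assoc]
  exact hu.mul_right_eq_zero.mp (conjTranspose_mul_self_eq_zero.mp h2)

lemma rtr_frob {k : ℕ} (A : Matrix (Fin k) (Fin N) ℂ) :
    rtr (Aᴴ * A) = ∑ j, ∑ i, ‖A i j‖ ^ 2 := by
  simp only [rtr, trace, diag, mul_apply, conjTranspose_apply, Complex.re_sum]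
  refine Finset.sum_congr rfl fun j _ => Finset.sum_congr rfl fun i _ => ?_
  rw [RCLike.star_def, Complex.conj_mul', ← Complex.ofReal_pow, Complex.ofReal_re]

lemma isCompact_frob (C : ℝ) : IsCompact {A : Mat N | rtr (Aᴴ * A) ≤ C} := by
  have h1 : IsCompact (Set.pi univ fun _ : Fin N => Set.pi univ fun _ : Fin N =>
      Metric.closedBall (0 : ℂ) (C + 1)) :=
    isCompact_univ_pi fun _ => isCompact_univ_pi fun _ => isCompact_closedBall _ _
  refine IsCompact.of_isClosed_subset h1 (isClosed_le (by fun_prop) continuous_const) ?_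
  intro A hA i _ j _
  simp only [mem_ofPred_eq, rtr_frob] at hA
  have h2 : ‖A i j‖ ^ 2 ≤ ∑ j, ∑ i, ‖A i j‖ ^ 2 :=
    (Finset.single_le_sum (f := fun i => ‖A i j‖ ^ 2) (fun _ _ => by positivity)
      (Finset.mem_univ i)).trans
      (Finset.single_le_sum (f := fun j => ∑ i, ‖A i j‖ ^ 2)
        (fun _ _ => Finset.sum_nonneg fun _ _ => by positivity) (Finset.mem_univ j))
  rw [mem_closedBall_zero_iff]
  nlinarith [norm_nonneg (A i j), sq_nonneg (‖A i j‖ - 1)]

/-! ### spectral facts -/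

/-- eigenvector matrix -/
noncomputable def evU {A : Mat N} (hA : A.IsHermitian) : Mat N := hA.eigenvectorUnitary

lemma evU_star_mul {A : Mat N} (hA : A.IsHermitian) : (evU hA)ᴴ * evU hA = 1 :=
  hA.eigenvectorUnitary.2.1

lemma evU_mul_star {A : Mat N} (hA : A.IsHermitian) : evU hA * (evU hA)ᴴ = 1 :=
  hA.eigenvectorUnitary.2.2

lemma cfc_spec {A : Mat N} (hA : A.IsHermitian) (f : ℝ → ℝ) :
    cfc f A = evU hA * diagonal (fun i => (f (hA.eigenvalues i) : ℂ)) * (evU hA)ᴴ := by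
  rw [hA.cfc_eq, IsHermitian.cfc, Unitary.conjStarAlgAut_apply]; rfl

lemma spec {A : Mat N} (hA : A.IsHermitian) :
    A = evU hA * diagonal (fun i => (hA.eigenvalues i : ℂ)) * (evU hA)ᴴ := by
  conv_lhs => rw [hA.spectral_theorem, Unitary.conjStarAlgAut_apply]
  rfl

lemma rtr_conj {U : Mat N} (hU : Uᴴ * U = 1) (X : Mat N) : rtr (U * X * Uᴴ) = rtr X := by
  rw [rtr_mul_comm, ← Matrix.mul_assoc, hU, Matrix.one_mul]

lemma rtr_diagonal (d : Fin N → ℝ) : rtr (diagonal fun i => (d i : ℂ)) = ∑ i, d i := by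
  simp [rtr]

lemma rtr_cfc {A : Mat N} (hA : A.IsHermitian) (f : ℝ → ℝ) :
    rtr (cfc f A) = ∑ i, f (hA.eigenvalues i) := by
  rw [cfc_spec hA, rtr_conj (evU_star_mul hA), rtr_diagonal]

lemma rtr_eq_sum {A : Mat N} (hA : A.IsHermitian) : rtr A = ∑ i, hA.eigenvalues i := by
  conv_lhs => rw [spec hA]
  rw [rtr_conj (evU_star_mul hA), rtr_diagonal]

lemma trPow_eq {A : Mat N} (hA : A.IsHermitian) (p : ℝ) :
    trPow A p = ∑ i, hA.eigenvalues i ^ p := rtr_cfc hA _

lemma trPow_nonneg {A : Mat N} (hA : A.PosSemidef) (p : ℝ) : 0 ≤ trPow A p := by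
  rw [trPow_eq hA.1]
  exact Finset.sum_nonneg fun i _ => Real.rpow_nonneg (hA.eigenvalues_nonneg i) _

lemma cfc_herm (f : ℝ → ℝ) (A : Mat N) : (cfc f A).IsHermitian :=
  (cfc_predicate f A : IsSelfAdjoint _)

lemma conj_mul_conj {U X Y : Mat N} (hU : Uᴴ * U = 1) :
    (U * X * Uᴴ) * (U * Y * Uᴴ) = U * (X * Y) * Uᴴ := by
  calc (U * X * Uᴴ) * (U * Y * Uᴴ) = U * X * (Uᴴ * U) * Y * Uᴴ := by simp only [Matrix.mul_assoc]
    _ = _ := by simp [hU, Matrix.mul_assoc]

lemma cfc_mul' {A : Mat N} (hA : A.IsHermitian) (f g : ℝ → ℝ) :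
    cfc f A * cfc g A = cfc (fun x => f x * g x) A := by
  rw [cfc_spec hA, cfc_spec hA, cfc_spec hA, conj_mul_conj (evU_star_mul hA), diagonal_mul_diagonal]
  simp

lemma cfc_congr' {A : Mat N} (hA : A.IsHermitian) {f g : ℝ → ℝ}
    (h : ∀ i, f (hA.eigenvalues i) = g (hA.eigenvalues i)) : cfc f A = cfc g A := by
  rw [cfc_spec hA, cfc_spec hA]; simp only [h]

lemma cfc_id'' {A : Mat N} (hA : A.IsHermitian) : cfc (fun x : ℝ => x) A = A := by
  rw [cfc_spec hA]; exact (spec hA).symm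

lemma cfc_affine {A : Mat N} (hA : A.IsHermitian) (f g : ℝ → ℝ) (a b : ℝ) :
    cfc (fun x => a * f x + b * g x) A = a • cfc f A + b • cfc g A := by
  have : (diagonal fun i => ((a * f (hA.eigenvalues i) + b * g (hA.eigenvalues i) : ℝ) : ℂ)) =
      a • (diagonal fun i => (f (hA.eigenvalues i) : ℂ)) +
        b • (diagonal fun i => (g (hA.eigenvalues i) : ℂ)) := by
    ext i j
    by_cases h : i = j <;> simp [h]
  rw [cfc_spec hA, cfc_spec hA, cfc_spec hA, this]
  simp [Matrix.mul_add, Matrix.add_mul]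

lemma cfc_one' {A : Mat N} (hA : A.IsHermitian) : cfc (fun _ : ℝ => (1 : ℝ)) A = 1 := by
  rw [cfc_spec hA]; simp [evU_mul_star hA]

lemma cfc_psd {A : Mat N} (hA : A.IsHermitian) {f : ℝ → ℝ}
    (hf : ∀ i, 0 ≤ f (hA.eigenvalues i)) : (cfc f A).PosSemidef := by
  rw [cfc_spec hA]
  refine PosSemidef.mul_mul_conjTranspose_same ?_ _
  rw [posSemidef_diagonal_iff]
  intro i
  exact_mod_cast hf i

lemma continuous_cfc {X : Type*} [TopologicalSpace X] {f : ℝ → ℝ} (hf : Continuous f)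
    {a : X → Mat N} (ha : Continuous a) (hh : ∀ x, (a x).IsHermitian) :
    Continuous fun x => cfc f (a x) :=
  ha.cfc_of_mem_nhdsSet (s := univ) f (by simp) (fun x => hh x) hf.continuousOn

lemma continuous_trPow {X : Type*} [TopologicalSpace X] {p : ℝ} (hp : 0 ≤ p)
    {a : X → Mat N} (ha : Continuous a) (hh : ∀ x, (a x).IsHermitian) :
    Continuous fun x => trPow (a x) p :=
  continuous_rtr.comp (continuous_cfc (Real.continuous_rpow_const hp) ha hh)

lemma trPow_cfc {A : Mat N} (hA : A.IsHermitian) (f : ℝ → ℝ) (p : ℝ) :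
    trPow (cfc f A) p = ∑ i, f (hA.eigenvalues i) ^ p := by
  rw [← rtr_cfc hA (fun x => f x ^ p)]
  exact congrArg rtr (cfc_comp' (fun t : ℝ => t ^ p) f A
    ((A.finite_real_spectrum.image f).continuousOn _) (A.finite_real_spectrum.continuousOn _)
    hA).symm

lemma det_add_smul {A : Mat N} (hA : A.IsHermitian) (s c : ℂ) :
    (s • A + c • (1 : Mat N)).det = ∏ i, (s * hA.eigenvalues i + c) := by
  have h : s • A + c • (1 : Mat N) =
      evU hA * diagonal (fun i => s * (hA.eigenvalues i : ℂ) + c) * (evU hA)ᴴ := by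
    conv_lhs => rw [spec hA, ← evU_mul_star hA]
    have : diagonal (fun i => s * (hA.eigenvalues i : ℂ) + c) =
        s • diagonal (fun i => (hA.eigenvalues i : ℂ)) + c • (1 : Mat N) := by
      ext i j
      by_cases h : i = j <;> simp [h, one_apply]
    rw [this]
    simp [Matrix.mul_add, Matrix.add_mul]
  rw [h, det_mul, det_mul, mul_comm, ← mul_assoc, ← det_mul, evU_star_mul, det_one, one_mul,
    det_diagonal]

lemma diag_eq_sum {A : Mat N} (hA : A.IsHermitian) (f : ℝ → ℝ) (j : Fin N) :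
    (cfc f A j j).re = ∑ i, ‖evU hA j i‖ ^ 2 * f (hA.eigenvalues i) := by
  rw [cfc_spec hA]
  simp only [mul_apply, diagonal_apply, conjTranspose_apply, mul_ite, mul_zero,
    Finset.sum_ite_eq', Finset.mem_univ, if_true, Complex.re_sum]
  refine Finset.sum_congr rfl fun i _ => ?_
  rw [mul_right_comm, RCLike.star_def, Complex.mul_conj', ← Complex.ofReal_pow,
    ← Complex.ofReal_mul, Complex.ofReal_re]

/-- Peierls inequality for powers. -/
lemma peierls {A : Mat N} (hA : A.PosSemidef) {r : ℝ} (hr : 1 ≤ r) :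
    ∑ j, (A j j).re ^ r ≤ trPow A r := by
  have h1 : ∀ j, (A j j).re ^ r ≤ (cfc (fun t : ℝ => t ^ r) A j j).re := by
    intro j
    have hs : ∑ i, ‖evU hA.1 j i‖ ^ 2 = 1 := by
      have := diag_eq_sum hA.1 (fun _ => 1) j
      rw [cfc_one' hA.1] at this
      simpa using this.symm
    have h2 := diag_eq_sum hA.1 (fun x => x) j
    rw [cfc_id'' hA.1] at h2
    rw [h2, diag_eq_sum hA.1]
    exact Real.rpow_arith_mean_le_arith_mean_rpow _ _ _ (fun _ _ => by positivity) hs
      (fun i _ => hA.eigenvalues_nonneg i) hr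
  calc _ ≤ ∑ j, (cfc (fun t : ℝ => t ^ r) A j j).re := Finset.sum_le_sum fun j _ => h1 j
    _ = _ := by simp [trPow, trace]

lemma trPow_conj {A U : Mat N} (hA : A.IsHermitian) (hU : Uᴴ * U = 1) (r : ℝ) :
    trPow (Uᴴ * A * U) r = trPow A r := by
  have hB : (Uᴴ * A * U).IsHermitian := isHermitian_conjTranspose_mul_mul U hA
  have hU' : U * Uᴴ = 1 := mul_eq_one_comm.mp hU
  have : hB.eigenvalues = hA.eigenvalues := by
    rw [IsHermitian.eigenvalues_eq_eigenvalues_iff, charpoly_mul_comm, ← Matrix.mul_assoc, hU',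
      Matrix.one_mul]
  rw [trPow_eq hB, trPow_eq hA, this]

open Polynomial in
lemma trPow_mul_comm (X : Matrix (Fin m) (Fin N) ℂ) {r : ℝ} (hr : r ≠ 0) :
    trPow (X * Xᴴ) r = trPow (Xᴴ * X) r := by
  have h1 := isHermitian_mul_conjTranspose_self X
  have h2 := isHermitian_conjTranspose_mul_self X
  have h := charpoly_mul_comm' X Xᴴ
  have h3 := congrArg Polynomial.roots h
  rw [roots_mul (mul_ne_zero (pow_ne_zero _ X_ne_zero) (charpoly_monic _).ne_zero),
    roots_mul (mul_ne_zero (pow_ne_zero _ X_ne_zero) (charpoly_monic _).ne_zero),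
    h1.roots_charpoly_eq_eigenvalues, h2.roots_charpoly_eq_eigenvalues, roots_X_pow,
    roots_X_pow] at h3
  have h4 := congrArg (fun s : Multiset ℂ => (s.map fun z => z.re ^ r).sum) h3
  simp only [Multiset.map_add, Multiset.sum_add, Multiset.map_nsmul, Multiset.map_singleton,
    Complex.zero_re, Real.zero_rpow hr, Multiset.sum_nsmul, Multiset.sum_singleton, smul_zero,
    zero_add, Multiset.map_map] at h4
  rw [trPow_eq h1, trPow_eq h2]
  simpa [Finset.sum] using h4

/-- Young inequality for traces. -/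
lemma young {W X : Mat N} (hW : W.PosSemidef) (hX : X.PosSemidef) {p p' α β : ℝ} (hp' : 1 ≤ p')
    (hβ : 0 ≤ β) (hy : ∀ w x : ℝ, 0 ≤ w → 0 ≤ x → w * x ≤ α * w ^ p + β * x ^ p') :
    rtr (W * X) ≤ α * trPow W p + β * trPow X p' := by
  set U := evU hW.1
  have hY : (Uᴴ * X * U).PosSemidef := hX.conjTranspose_mul_mul_same U
  have h1 : rtr (W * X) = ∑ i, hW.1.eigenvalues i * ((Uᴴ * X * U) i i).re := by
    conv_lhs => rw [spec hW.1]
    rw [Matrix.mul_assoc, Matrix.mul_assoc, rtr_mul_comm, Matrix.mul_assoc]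
    simp [rtr, trace, U, diagonal_mul]
  have h2 := peierls hY hp'
  rw [trPow_conj hX.1 (evU_star_mul hW.1)] at h2
  rw [h1, trPow_eq hW.1]
  calc _ ≤ ∑ i, (α * hW.1.eigenvalues i ^ p + β * ((Uᴴ * X * U) i i).re ^ p') :=
        Finset.sum_le_sum fun i _ => hy _ _ (hW.eigenvalues_nonneg i)
          (Complex.le_def.mp (hY.diag_nonneg (i := i))).1
    _ = α * ∑ i, hW.1.eigenvalues i ^ p + β * ∑ i, ((Uᴴ * X * U) i i).re ^ p' := by
        rw [Finset.sum_add_distrib, Finset.mul_sum, Finset.mul_sum]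
    _ ≤ _ := by gcongr

/-! ### positivity: open and closed -/

lemma posDef_iff_re {A : Mat N} (hA : A.IsHermitian) :
    A.PosDef ↔ ∀ v : Fin N → ℂ, v ≠ 0 → 0 < (star v ⬝ᵥ A *ᵥ v).re := by
  refine ⟨fun h v hv => h.re_dotProduct_pos hv, fun h => PosDef.of_dotProduct_mulVec_pos hA ?_⟩
  intro v hv
  exact Complex.lt_def.mpr ⟨h v hv, (hA.im_star_dotProduct_mulVec_self v).symm⟩

lemma posSemidef_iff_re {A : Mat N} (hA : A.IsHermitian) :
    A.PosSemidef ↔ ∀ v : Fin N → ℂ, 0 ≤ (star v ⬝ᵥ A *ᵥ v).re := by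
  refine ⟨fun h v => h.re_dotProduct_nonneg v,
    fun h => PosSemidef.of_dotProduct_mulVec_nonneg hA ?_⟩
  intro v
  exact Complex.le_def.mpr ⟨h v, (hA.im_star_dotProduct_mulVec_self v).symm⟩

lemma isClosed_herm : IsClosed {A : Mat N | A.IsHermitian} :=
  isClosed_eq (by fun_prop) continuous_id

lemma isClosed_psd : IsClosed {A : Mat N | A.PosSemidef} := by
  have : {A : Mat N | A.PosSemidef} = {A : Mat N | A.IsHermitian} ∩
      ⋂ v : Fin N → ℂ, {A : Mat N | 0 ≤ (star v ⬝ᵥ A *ᵥ v).re} := by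
    ext A
    simp only [mem_ofPred_eq, mem_inter_iff, mem_iInter]
    exact ⟨fun h => ⟨h.1, (posSemidef_iff_re h.1).mp h⟩, fun h => (posSemidef_iff_re h.1).mpr h.2⟩
  rw [this]
  exact isClosed_herm.inter (isClosed_iInter fun v => isClosed_le continuous_const (by fun_prop))

lemma eventually_posDef {A : Mat N} (hA : A.PosDef) :
    ∀ᶠ B in 𝓝 A, B.IsHermitian → B.PosDef := by
  have h := (isCompact_sphere (0 : Fin N → ℂ) 1).eventually_forall_of_forall_eventually
    (x₀ := A) (P := fun B v => 0 < (star v ⬝ᵥ B *ᵥ v).re) (by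
      intro v hv
      have hv0 : v ≠ 0 := by rintro rfl; simp at hv
      have hc : Continuous fun z : Mat N × (Fin N → ℂ) => (star z.2 ⬝ᵥ z.1 *ᵥ z.2).re := by
        fun_prop
      exact hc.continuousAt.eventually (lt_mem_nhds (hA.re_dotProduct_pos hv0)))
  filter_upwards [h] with B hB hh
  rw [posDef_iff_re hh]
  intro v hv
  have hn : 0 < ‖v‖ := norm_pos_iff.mpr hv
  have h1 := hB ((‖v‖⁻¹ : ℝ) • v) (by simp [norm_smul, hn.ne'])
  rw [star_smul, mulVec_smul, smul_dotProduct, dotProduct_smul] at h1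
  simp only [star_trivial, Complex.real_smul, Complex.re_ofReal_mul] at h1
  have h2 : 0 < ‖v‖⁻¹ := inv_pos.mpr hn
  exact (mul_pos_iff_of_pos_left h2).mp ((mul_pos_iff_of_pos_left h2).mp h1)

/-! ### derivative of the determinant -/

lemma differentiable_det : Differentiable ℝ (fun A : Mat N => A.det) := by
  simp only [det_apply']
  refine ContDiff.differentiable (n := 1) ?_ one_ne_zero
  refine ContDiff.sum fun σ _ => contDiff_const.mul ?_
  refine contDiff_prod fun i _ => ?_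
  exact (LinearMap.toContinuousLinearMap
    ((Matrix.entryLinearMap ℝ ℂ (σ i) i) : Mat N →ₗ[ℝ] ℂ)).contDiff

lemma hasDerivAt_det {Z : ℝ → Mat N} {Z' : Mat N} {x : ℝ} (h : HasDerivAt Z Z' x)
    (hu : IsUnit (Z x).det) :
    HasDerivAt (fun y => (Z y).det) ((Z x).det * ((Z x)⁻¹ * Z').trace) x := by
  have hd := (differentiable_det (N := N) (Z x)).hasFDerivAt
  have h1 := hd.comp_hasDerivAt x h
  have h2 : HasDerivAt (fun s : ℝ => Z x + s • Z') Z' 0 := by
    simpa using ((hasDerivAt_id (0 : ℝ)).smul_const Z').const_add (Z x)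
  have h3 := HasFDerivAt.comp_hasDerivAt (l := fun A : Mat N => A.det) (0 : ℝ)
    (by simpa using hd) h2
  set Y := (Z x)⁻¹ * Z'
  have h4 : ((fun A : Mat N => A.det) ∘ fun s : ℝ => Z x + s • Z') = fun s : ℝ =>
      (Z x).det * (1 + Y.trace * (s : ℂ) + (Polynomial.eval (s : ℂ) (Matrix.det
        (1 + (Polynomial.X : Polynomial ℂ) • Y.map Polynomial.C)).divX.divX) * (s : ℂ) ^ 2) := by
    ext s
    rw [← det_one_add_smul, ← det_mul]
    simp only [Function.comp, Y]
    rw [Matrix.mul_add, Matrix.mul_smul, ← Matrix.mul_assoc, mul_nonsing_inv _ hu]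
    simp
  rw [h4] at h3
  have h5 : HasDerivAt (fun s : ℂ => (Z x).det * (1 + Y.trace * s + (Polynomial.eval s (Matrix.det
        (1 + (Polynomial.X : Polynomial ℂ) • Y.map Polynomial.C)).divX.divX) * s ^ 2))
        ((Z x).det * Y.trace) ((0 : ℝ) : ℂ) := by
    have := ((((hasDerivAt_id ((0 : ℝ) : ℂ)).const_mul Y.trace).const_add 1).add
      (((Matrix.det (1 + (Polynomial.X : Polynomial ℂ) • Y.map Polynomial.C)).divX.divX.hasDerivAt
        ((0 : ℝ) : ℂ)).mul (hasDerivAt_pow 2 ((0 : ℝ) : ℂ)))).const_mul (Z x).det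
    simpa using this
  have h6 := h3.unique h5.comp_ofReal
  rw [h6] at h1
  exact h1

end Vale.Agent.P371
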