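import Vale.Agent.P371.Thresh
import Vale.Agent.Lib.Brouwer

/-! The fixed point argument. -/

open Matrix Set Filter Topology MeasureTheory
open scoped ComplexOrder MatrixOrder Matrix.Norms.L2Operator

namespace Vale.Agent.P371

variable {N : ℕ}

lemma cfc_smul' {A : Mat N} (hA : A.IsHermitian) (f : ℝ → ℝ) (a : ℝ) :
    cfc (fun x => a * f x) A = a • cfc f A := by
  simpa using cfc_affine hA f f a 0

lemma cfc_ker {A : Mat N} (hA : A.IsHermitian) (f : ℝ → ℝ) {ξ : Fin N → ℂ} (h : A *ᵥ ξ = 0) :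
    cfc f A *ᵥ ξ = (f 0 : ℂ) • ξ := by
  have h1 : diagonal (fun i => (hA.eigenvalues i : ℂ)) *ᵥ ((evU hA)ᴴ *ᵥ ξ) = 0 := by
    rw [spec hA] at h
    have h2 := congrArg (fun v => (evU hA)ᴴ *ᵥ v) h
    simp only [mulVec_mulVec, ← Matrix.mul_assoc, evU_star_mul, Matrix.one_mul, mulVec_zero] at h2
    rwa [mulVec_mulVec]
  have h2 : diagonal (fun i => (f (hA.eigenvalues i) : ℂ)) *ᵥ ((evU hA)ᴴ *ᵥ ξ) =
      (f 0 : ℂ) • ((evU hA)ᴴ *ᵥ ξ) := by
    ext i
    have := congrFun h1 i
    simp only [mulVec_diagonal, Pi.zero_apply, mul_eq_zero, Complex.ofReal_eq_zero] at this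
    rcases this with h | h <;> simp [mulVec_diagonal, h]
  rw [cfc_spec hA, ← mulVec_mulVec, ← mulVec_mulVec, h2, mulVec_smul, mulVec_mulVec,
    evU_mul_star, one_mulVec]

/-- density matrices -/
def Dens (N : ℕ) : Set (Mat N) := {B | B.PosSemidef ∧ rtr B = 1}

lemma sq_le_one {B : Mat N} (hB : B ∈ Dens N) : rtr (B * B) ≤ 1 := by
  have h1 := cfc_mul' hB.1.1 (fun x => x) (fun x => x)
  rw [cfc_id'' hB.1.1] at h1
  have h2 := Finset.sum_sq_le_sq_sum_of_nonneg (s := Finset.univ)
    fun i _ => hB.1.eigenvalues_nonneg i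
  rw [← rtr_eq_sum hB.1.1] at h2
  rw [h1, rtr_cfc hB.1.1]
  simpa [sq, hB.2] using h2

lemma sq_ge {B : Mat N} (hB : B ∈ Dens N) (hN : 0 < N) : (N : ℝ)⁻¹ ≤ rtr (B * B) := by
  have h1 := rtr_nonneg (sq_psd (hB.1.1.sub (PosSemidef.one.smul (a := (N : ℝ)⁻¹)
    (by positivity)).1))
  simp only [Matrix.sub_mul, Matrix.mul_sub, Matrix.mul_smul, Matrix.smul_mul, Matrix.mul_one,
    Matrix.one_mul, rtr_sub, rtr_smul, rtr_one, hB.2] at h1
  have : (N : ℝ)⁻¹ * N = 1 := inv_mul_cancel₀ (by positivity)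
  rw [this] at h1
  linarith

lemma isCompact_Dens : IsCompact (Dens N) := by
  refine (isCompact_frob 1).of_isClosed_subset
    (isClosed_psd.inter (isClosed_eq continuous_rtr continuous_const)) fun B hB => ?_
  simp only [mem_ofPred_eq, hB.1.1.eq]
  exact sq_le_one hB

lemma brouwer_Dens (hN : 0 < N) (F : Dens N → Dens N) (hF : Continuous F) : ∃ B, F B = B := by
  let pos : Mat N → Mat N := fun A => cfc (fun x : ℝ => max x 0) (hre N A)
  have h1 : Continuous pos := continuous_cfc (by fun_prop) (hre N).continuous hre_herm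
  have h2 : ∀ A, (pos A).PosSemidef := fun A => cfc_psd (hre_herm A) fun _ => le_max_right _ _
  have hN' : (N : ℝ) ≠ 0 := by positivity
  let r : Mat N → Dens N := fun A =>
    ⟨(max 1 (rtr (pos A)))⁻¹ • (pos A + (max (1 - rtr (pos A)) 0 / N) • 1),
      ((h2 A).add (PosSemidef.one.smul (by positivity))).smul (by positivity), by
        rw [rtr_smul, rtr_add, rtr_smul, rtr_one, div_mul_cancel₀ _ hN']
        rcases le_total 1 (rtr (pos A)) with h | h
        · rw [max_eq_right h, max_eq_right (by linarith), add_zero, inv_mul_cancel₀ (by linarith)]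
        · rw [max_eq_left h, max_eq_left (by linarith)]; simp⟩
  have hr : Continuous r := by
    have h3 : Continuous fun A => (max 1 (rtr (pos A)))⁻¹ :=
      Continuous.inv₀ (by fun_prop) fun A => by positivity
    exact Continuous.subtype_mk (by fun_prop) _
  have hr' : ∀ B : Dens N, r B = B := fun B => by
    have : pos B = B := by
      simp only [pos, hre_of_herm B.2.1.1]
      rw [cfc_congr' B.2.1.1 (g := fun x => x) fun i => max_eq_left (B.2.1.eigenvalues_nonneg i),
        cfc_id'' B.2.1.1]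
    exact Subtype.ext (by simp [r, this, B.2.2])
  obtain ⟨C, hC⟩ := (isCompact_Dens (N := N)).exists_bound_of_continuousOn continuousOn_id
  obtain ⟨x, hx⟩ := Vale.Agent.Lib.Brouwer.exists_fixed (fun A => (F (r A) : Mat N))
    (continuous_subtype_val.comp (hF.comp hr)) C fun A => hC _ (F (r A)).2
  refine ⟨r x, ?_⟩
  rw [← hr' (F (r x)), hx]

lemma brouwer_Theta (hN : 0 < N) (Θ : Dens N → Mat N) (cΘ : Continuous Θ)
    (pΘ : ∀ B, (Θ B).PosSemidef) : ∃ B : Dens N, Θ B = rtr (Θ B) • (B : Mat N) := by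
  obtain ⟨B, hB⟩ := brouwer_Dens hN (fun B => ⟨(1 + rtr (Θ B))⁻¹ • (B + Θ B),
    (B.2.1.add (pΘ B)).smul (by have := rtr_nonneg (pΘ B); positivity), by
      have := rtr_nonneg (pΘ B)
      rw [rtr_smul, rtr_add, B.2.2, inv_mul_cancel₀ (by positivity)]⟩) (by
    have h3 : Continuous fun B => (1 + rtr (Θ B))⁻¹ :=
      Continuous.inv₀ (by fun_prop) fun B => by have := rtr_nonneg (pΘ B); positivity
    exact Continuous.subtype_mk (by fun_prop) _)
  have := congrArg (fun X : Dens N => (1 + rtr (Θ B)) • (X : Mat N)) hB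
  have h0 := rtr_nonneg (pΘ B)
  simp only [smul_smul, mul_inv_cancel₀ (show 1 + rtr (Θ B) ≠ 0 by positivity), one_smul,
    add_smul, add_right_inj] at this
  exact ⟨B, this⟩

lemma exists_ker {A : Mat N} (hA : A.PosSemidef) (h : ¬ A.PosDef) : ∃ ξ, ξ ≠ 0 ∧ A *ᵥ ξ = 0 := by
  by_contra hcon
  refine h (PosDef.of_dotProduct_mulVec_pos hA.1 fun v hv => ?_)
  exact lt_of_le_of_ne (hA.dotProduct_mulVec_nonneg v) fun h0 =>
    hcon ⟨v, hv, (hA.dotProduct_mulVec_zero_iff v).mp h0.symm⟩

/-- the cutoff that detects the kernel -/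
noncomputable def om (η : ℝ) (B : Mat N) : Mat N := cfc (fun x : ℝ => η / (|x| + η)) B

noncomputable def Lam (K : Mat N) (L η : ℝ) (B : Mat N) : Mat N :=
  (1 - om η B) * K * (1 - om η B) + L • (om η B * om η B)

lemma om_herm (η : ℝ) (B : Mat N) : (om η B).IsHermitian := cfc_herm _ _

lemma Lam_lower {K : Mat N} (hK : K.PosSemidef) {L : ℝ} (hL : 0 < L) (η : ℝ) (B : Mat N) :
    (Lam K L η B - (K - L⁻¹ • (K * K))).PosSemidef := by
  have h1 := (posSemidef_conjTranspose_mul_self (K - L • om η B)).smul (a := L⁻¹) (by positivity)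
  have h2 := hK.conjTranspose_mul_mul_same (om η B)
  refine (congrArg PosSemidef ?_).mp (h1.add h2)
  simp only [Lam, conjTranspose_sub, conjTranspose_smul, star_trivial, (om_herm η B).eq, hK.1.eq,
    Matrix.sub_mul, Matrix.mul_sub, Matrix.mul_smul, Matrix.smul_mul, Matrix.mul_one,
    Matrix.one_mul, smul_sub, smul_smul, inv_mul_cancel₀ hL.ne', one_smul,
    inv_mul_cancel_left₀ hL.ne']
  abel

lemma frob_add (X Y : Mat N) {s : ℝ} (hs : 0 < s) :
    rtr ((X + Y)ᴴ * (X + Y)) ≤ (1 + s) * rtr (Xᴴ * X) + (1 + s⁻¹) * rtr (Yᴴ * Y) := by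
  have h1 := mul_nonneg (inv_pos.mpr hs).le
    (rtr_nonneg (posSemidef_conjTranspose_mul_self (s • X - Y)))
  simp only [conjTranspose_sub, conjTranspose_add, conjTranspose_smul, star_trivial,
    Matrix.sub_mul, Matrix.mul_smul, Matrix.smul_mul, rtr_sub, rtr_smul,
    Matrix.add_mul, Matrix.mul_add, rtr_add, mul_sub, inv_mul_cancel_left₀ hs.ne'] at h1 ⊢
  linarith

lemma Lam_upper {K B : Mat N} (hK : K.PosSemidef) (hB : B ∈ Dens N) {L η : ℝ} (hη : 0 < η)
    (hη1 : η ≤ 1) : rtr (B * (Lam K L η B * Lam K L η B) * B) ≤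
      rtr (B * (K * K) * B) + η * (‖K * K‖ + 2 * L ^ 2 * N) := by
  have hb := hB.1.1
  set χ := 1 - om η B with hχ
  have hχh : χ.IsHermitian := isHermitian_one.sub (om_herm η B)
  have hcomm : χ * B = B * χ := by
    have h1 := cfc_mul' hb (fun x : ℝ => η / (|x| + η)) (fun x => x)
    have h2 := cfc_mul' hb (fun x => x) (fun x : ℝ => η / (|x| + η))
    rw [cfc_id'' hb] at h1 h2
    simp only [hχ, om, Matrix.sub_mul, Matrix.mul_sub, h1, h2, Matrix.one_mul, Matrix.mul_one,
      mul_comm]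
  have hc : (1 - χ * χ).PosSemidef := by
    have h1 := cfc_psd hb (f := fun x => 2 * (η / (|x| + η)) +
      (-1) * (η / (|x| + η) * (η / (|x| + η)))) fun i => by
        have h0 : 0 ≤ η / (|hb.eigenvalues i| + η) := by positivity
        have h1 : η / (|hb.eigenvalues i| + η) ≤ 1 :=
          div_le_one_of_le₀ (by linarith [abs_nonneg (hb.eigenvalues i)]) (by positivity)
        nlinarith
    rw [cfc_affine hb, ← cfc_mul' hb] at h1
    refine (congrArg PosSemidef ?_).mp h1
    simp only [hχ, om, Matrix.sub_mul, Matrix.mul_sub, Matrix.one_mul, Matrix.mul_one]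
    module
  have hL : (Lam K L η B).IsHermitian := by
    unfold IsHermitian
    simp [Lam, (om_herm η B).eq, hK.1.eq, Matrix.mul_assoc]
  have e1 : B * (Lam K L η B * Lam K L η B) * B =
      (χ * K * χ * B + L • (om η B * om η B) * B)ᴴ *
        (χ * K * χ * B + L • (om η B * om η B) * B) := by
    rw [← Matrix.add_mul, hχ, ← Lam, conjTranspose_mul, hL.eq, hb.eq]
    simp only [Matrix.mul_assoc]
  have b1 : rtr ((χ * K * χ * B)ᴴ * (χ * K * χ * B)) ≤ rtr (B * (K * K) * B) := by
    have h1 := rtr_nonneg (hc.conjTranspose_mul_mul_same (K * χ * B))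
    have h2 := rtr_mul_nonneg ((sq_psd hK.1).conjTranspose_mul_mul_same B) hc
    have h3 : rtr (B * (χ * (K * (K * (χ * B))))) = rtr (B * (K * (K * (B * (χ * χ))))) := by
      rw [← Matrix.mul_assoc B χ, ← hcomm, Matrix.mul_assoc, rtr_mul_comm χ, hcomm]
      simp only [Matrix.mul_assoc]
    simp only [conjTranspose_mul, hb.eq, hχh.eq, hK.1.eq, Matrix.sub_mul, Matrix.mul_sub,
      Matrix.mul_one, Matrix.mul_assoc, rtr_sub] at h1 h2 ⊢
    linarith
  have b2 : rtr (B * (K * K) * B) ≤ ‖K * K‖ := by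
    rw [rtr_mul_comm, ← Matrix.mul_assoc]
    exact (rtr_mul_le (sq_psd hb) (sq_psd hK.1).1).trans
      (mul_le_of_le_one_right (norm_nonneg _) (sq_le_one hB))
  have b3 : rtr ((L • (om η B * om η B) * B)ᴴ * (L • (om η B * om η B) * B)) ≤
      L ^ 2 * N * η ^ 2 := by
    have h1 : om η B * om η B * B =
        cfc (fun x : ℝ => η / (|x| + η) * (η / (|x| + η)) * x) B := by
      rw [← cfc_mul' hb, ← cfc_mul' hb, cfc_id'' hb]; rfl
    rw [Matrix.smul_mul, conjTranspose_smul, Matrix.smul_mul, Matrix.mul_smul, rtr_smul, rtr_smul,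
      h1, (cfc_herm _ _).eq, cfc_mul' hb, rtr_cfc hb, star_trivial, ← mul_assoc, ← sq, mul_assoc]
    refine mul_le_mul_of_nonneg_left ?_ (sq_nonneg L)
    refine (Finset.sum_le_card_nsmul _ _ (η ^ 2) fun i _ => ?_).trans (by simp)
    have h0 := hB.1.eigenvalues_nonneg i
    rw [abs_of_nonneg h0, ← sq]
    refine pow_le_pow_left₀ (by positivity) ?_ 2
    have h2 : η / (hb.eigenvalues i + η) ≤ 1 := div_le_one_of_le₀ (by linarith) (by positivity)
    have h3 : η / (hb.eigenvalues i + η) * hb.eigenvalues i ≤ η := by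
      rw [div_mul_eq_mul_div, div_le_iff₀ (by positivity)]; nlinarith
    rw [mul_assoc]
    exact (mul_le_of_le_one_left (by positivity) h2).trans h3
  rw [e1]
  refine (frob_add _ _ hη).trans ?_
  have b4 := mul_le_mul_of_nonneg_left b3 (show 0 ≤ 1 + η⁻¹ by positivity)
  have e2 : (1 + η⁻¹) * (L ^ 2 * N * η ^ 2) = L ^ 2 * N * (η ^ 2 + η) := by field_simp
  have b5 : L ^ 2 * N * (η ^ 2 + η) ≤ L ^ 2 * N * (2 * η) :=
    mul_le_mul_of_nonneg_left (by nlinarith) (by positivity)
  nlinarith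

lemma Lam_ker {K B : Mat N} (hB : B.IsHermitian) (L : ℝ) {η : ℝ} (hη : 0 < η) {ξ : Fin N → ℂ}
    (h : B *ᵥ ξ = 0) : Lam K L η B *ᵥ ξ = (L : ℂ) • ξ := by
  have h1 : om η B *ᵥ ξ = ξ := by rw [om, cfc_ker hB _ h]; simp [hη.ne']
  simp only [Lam, add_mulVec, ← mulVec_mulVec, sub_mulVec 1, one_mulVec, h1, sub_self,
    mulVec_zero, zero_add, smul_mulVec]
  rfl

theorem fix_main (hN : 0 < N) {κ : Fin N → ℝ} {ε q A τ a b : ℝ} (hε : 0 < ε)
    (hκ : ∀ j, 3 * ε ≤ κ j) (hq : 0 < q) (hq1 : q < 1) (hA : 0 < A) (hτ : τ < ε ^ 2 / N)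
    (hab : a ≤ b) {G : ℝ → Mat N} (cG : Continuous G) (pG : ∀ x, (G x).PosSemidef)
    (hT : ∀ B ∈ Dens N, ∀ l : ℝ, 0 < l → ∀ (Λ : Mat N) (M V : ℝ → Mat N), Λ.IsHermitian →
      Continuous V → Ric Λ M V a b →
      (∫ x in a..b, rtr (V x * (B * G x * B))) +
        rtr (B * (diagonal (fun j => (κ j : ℂ)) * diagonal (fun j => (κ j : ℂ))) * B) ≤
      rtr (B * (Λ * Λ) * B) + l ^ (-q) * A / (1 + q) +
        q / (1 + q) * l * (∫ x in a..b, trPow (B * G x * B) ((1 + q) / q)) + τ) :
    q * Bq q * ∑ j, (κ j - 2 * ε) ^ (2 * q + 1) ≤ (q / (1 + q)) ^ (1 + q) * A := by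
  have : CompactSpace (Dens N) := isCompact_iff_compactSpace.mp isCompact_Dens
  set K : Mat N := diagonal (fun j => (κ j : ℂ)) with hKd
  have hN' : (0 : ℝ) < N := by positivity
  have hK : K.PosSemidef := posSemidef_diagonal_iff.mpr fun j => by
    exact_mod_cast (show 0 ≤ κ j by linarith [hκ j])
  set L : ℝ := 2 * ε + (∑ j, κ j ^ 2) / ε with hL
  have hL0 : ε < L := by
    have : 0 ≤ (∑ j, κ j ^ 2) / ε := by positivity
    linarith
  have hLκ : ∀ j, L⁻¹ * (κ j * κ j) ≤ ε := fun j => by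
    have h1 : κ j ^ 2 ≤ ∑ j, κ j ^ 2 :=
      Finset.single_le_sum (f := fun j => κ j ^ 2) (fun _ _ => sq_nonneg _) (Finset.mem_univ j)
    rw [inv_mul_le_iff₀ (by linarith), hL, add_mul, div_mul_cancel₀ _ hε.ne']
    nlinarith
  set δ := ε ^ 2 / N with hδ
  have hδ0 : 0 < δ := by positivity
  set η := min 1 (δ / (‖K * K‖ + 2 * L ^ 2 * N + 1)) with hη
  have hη0 : 0 < η := lt_min one_pos (by positivity)
  have hη2 : η * (‖K * K‖ + 2 * L ^ 2 * N) ≤ δ := by
    have := (le_div_iff₀ (by positivity)).mp (min_le_right 1 (δ / (‖K * K‖ + 2 * L ^ 2 * N + 1)))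
    linarith
  set e := (δ ^ (1 + q) / A) ^ q⁻¹ with he
  have he0 : 0 < e := by positivity
  have hlow : ∀ B s, -ε ≤ s →
      (Lam K L η B + s • 1 - diagonal fun j => ((κ j - 2 * ε : ℝ) : ℂ)).PosSemidef := by
    intro B s hs
    have h1 : (diagonal fun j => ((ε - L⁻¹ * (κ j * κ j) : ℝ) : ℂ) : Mat N).PosSemidef :=
      posSemidef_diagonal_iff.mpr fun j => by exact_mod_cast sub_nonneg.mpr (hLκ j)
    refine (congrArg PosSemidef ?_).mp (((Lam_lower hK (hε.trans hL0) η B).add h1).add
      (PosSemidef.one.smul (a := s + ε) (by linarith)))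
    ext i j
    by_cases h : i = j <;> simp [hKd, h, one_apply]
    ring
  have hc : ∀ B, (Lam K L η B - (2 * ε) • 1).PosSemidef := fun B => by
    have h1 : (diagonal fun j => ((κ j - 3 * ε : ℝ) : ℂ) : Mat N).PosSemidef :=
      posSemidef_diagonal_iff.mpr fun j => by exact_mod_cast sub_nonneg.mpr (hκ j)
    refine (congrArg PosSemidef ?_).mp ((hlow B (-ε) le_rfl).add h1)
    ext i j
    by_cases h : i = j <;> simp [h, one_apply]
    ring
  have hpsd : ∀ B s, -ε ≤ s → (Lam K L η B + s • 1).PosSemidef := fun B s hs => by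
    refine (congrArg PosSemidef ?_).mp ((hc B).add (PosSemidef.one.smul (a := s + 2 * ε)
      (by linarith)))
    module
  let P : Dens N → ℝ → Mat N := fun B x => B * G x * B
  have pP : ∀ B x, (P B x).PosSemidef := fun B x => by
    have := (pG x).conjTranspose_mul_mul_same (B : Mat N)
    rwa [B.2.1.1.eq] at this
  have cP : Continuous (Function.uncurry P) := by
    have : Continuous fun u : Dens N × ℝ => G u.2 := cG.comp continuous_snd
    exact Continuous.mul (Continuous.mul (by fun_prop) this) (by fun_prop)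
  let n : Dens N → ℝ := fun B => ∫ x in a..b, trPow (P B x) ((1 + q) / q)
  have cn : Continuous n := by
    have := continuous_trPow (p := (1 + q) / q) (by positivity) cP fun u => (pP u.1 u.2).1
    exact intervalIntegral.continuous_parametric_intervalIntegral_of_continuous' (μ := volume)
      (f := fun B x => trPow (P B x) ((1 + q) / q)) this a b
  have n0 : ∀ B, 0 ≤ n B := fun B =>
    intervalIntegral.integral_nonneg hab fun x _ => trPow_nonneg (pP B x) _
  let l : Dens N → ℝ := fun B => (A / (n B + e)) ^ (1 + q)⁻¹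
  have l0 : ∀ B, 0 < l B := fun B => by have := n0 B; positivity
  have lp : ∀ B, l B ^ (1 + q) * (n B + e) = A := fun B => by
    have := n0 B
    rw [Real.rpow_inv_rpow (by positivity) (by positivity), div_mul_cancel₀ _ (by positivity)]
  have cl : Continuous l := by
    refine Continuous.rpow_const (Continuous.div continuous_const (by fun_prop) fun B => ?_)
      fun _ => Or.inr (by positivity)
    have := n0 B; positivity
  let V : Dens N → ℝ → Mat N := fun B x => l B • cfc (fun t : ℝ => t ^ q⁻¹) (P B x)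
  have cV : Continuous (Function.uncurry V) := (cl.comp continuous_fst).smul
    (continuous_cfc (Real.continuous_rpow_const (by positivity)) cP fun u => (pP u.1 u.2).1)
  have cV' : ∀ B, Continuous (V B) := fun B => cV.comp (f := fun x => (B, x)) (by fun_prop)
  have pV : ∀ B x, (V B x).PosSemidef := fun B x => (cfc_psd (pP B x).1 fun i =>
    Real.rpow_nonneg ((pP B x).eigenvalues_nonneg i) _).smul (l0 B).le
  have cΛ : Continuous fun B : Dens N => Lam K L η B := by
    have : Continuous fun B : Dens N => om η (B : Mat N) :=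
      continuous_cfc (Continuous.div continuous_const (by fun_prop) fun x => by positivity)
        continuous_subtype_val fun B => B.2.1.1
    simp only [Lam]
    fun_prop
  obtain ⟨σ, M, cΘ, hσ⟩ := threshold (c := 2 * ε) cΛ cV pV hab (fun B => hc B) hε (by linarith)
    (by
      intro B s M h1 h2 hR
      obtain rfl : s = -ε := by linarith
      have b1 := hT B B.2 (l B) (l0 B) _ M _ (hpsd B _ le_rfl).1 (cV' B) hR
      have b2 : ∫ x in a..b, rtr (V B x * P B x) = l B * n B := by
        rw [← intervalIntegral.integral_const_mul]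
        refine intervalIntegral.integral_congr fun x _ => ?_
        have h3 := cfc_mul' (pP B x).1 (fun t : ℝ => t ^ q⁻¹) (fun t => t)
        rw [cfc_id'' (pP B x).1] at h3
        simp only [V, Matrix.smul_mul, rtr_smul, h3, rtr_cfc (pP B x).1, trPow_eq (pP B x).1]
        congr 1
        refine Finset.sum_congr rfl fun i _ => ?_
        rw [← Real.rpow_add_one' ((pP B x).eigenvalues_nonneg i) (by positivity)]
        congr 1; field_simp
      have b3 := Lam_upper hK B.2 (L := L) hη0 (min_le_left _ _)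
      have b4 := sq_ge B.2 hN
      have b5 := rtr_nonneg ((hc B).conjTranspose_mul_mul_same (B : Mat N))
      have b6 : l B * e ≤ δ := by
        rw [← Real.rpow_le_rpow_iff (z := 1 + q) (by have := l0 B; positivity) hδ0.le
          (by positivity), Real.mul_rpow (l0 B).le he0.le, Real.rpow_add he0, Real.rpow_one, he,
          Real.rpow_inv_rpow (by positivity) hq.ne', ← he, ← mul_assoc, mul_div_assoc',
          div_le_iff₀ hA, mul_comm]
        refine mul_le_mul_of_nonneg_left ?_ (by positivity)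
        rw [← lp B]
        exact mul_le_mul_of_nonneg_left (by linarith [n0 B]) (by have := l0 B; positivity)
      have b7 : l B ^ (-q) * A / (1 + q) + q / (1 + q) * l B * n B =
          l B * n B + l B * e / (1 + q) := by
        rw [← lp B, ← mul_assoc, ← Real.rpow_add (l0 B), show -q + (1 + q) = 1 by ring,
          Real.rpow_one]
        field_simp; ring
      have b8 : l B * e / (1 + q) ≤ δ :=
        (div_le_self (by have := l0 B; positivity) (by linarith)).trans b6
      have b9 : ε ^ 2 * (N : ℝ)⁻¹ = δ := by rw [hδ, div_eq_mul_inv]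
      rw [B.2.1.1.eq] at b5
      change (∫ x in a..b, rtr (V B x * P B x)) + _ ≤ _ + _ + _ * n B + _ at b1
      simp only [Matrix.add_mul, Matrix.mul_add, Matrix.sub_mul, Matrix.mul_sub, Matrix.mul_smul,
        Matrix.smul_mul, Matrix.mul_one, Matrix.one_mul, rtr_add, rtr_sub, rtr_smul] at b1 b5
      nlinarith [mul_le_mul_of_nonneg_left b4 (sq_nonneg ε), mul_nonneg hε.le b5])
  let Θ : Dens N → Mat N := fun B => Lam K L η B + σ B • 1 + M B b
  have pΘ : ∀ B, (Θ B).PosSemidef := fun B => (hσ B).2.1.lo b ⟨hab, le_rfl⟩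
  obtain ⟨B, h5⟩ := brouwer_Theta hN Θ cΘ pΘ
  obtain ⟨h1, h2, h3, h4⟩ := hσ B
  have h6 : Θ B = 0 := by
    by_contra hne
    have h7 : rtr (Θ B) ≠ 0 := fun h => hne (eq_zero_of_rtr (pΘ B) h)
    obtain ⟨ξ, hξ, hξ'⟩ := exists_ker (pΘ B) h3
    have h8 : (B : Mat N) *ᵥ ξ = 0 := by
      rw [h5, smul_mulVec] at hξ'
      exact (smul_eq_zero.mp hξ').resolve_left h7
    have h9 : (Lam K L η B + σ B • 1) *ᵥ ξ = ((L + σ B : ℝ) : ℂ) • ξ := by
      rw [add_mulVec, Lam_ker B.2.1.1 L hη0 h8, smul_mulVec, one_mulVec, Complex.ofReal_add L,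
        add_smul]
      rfl
    have h10 := h4 ξ _ h9 fun x => by
      have : P B x *ᵥ ξ = 0 := by simp only [P, ← mulVec_mulVec, h8, mulVec_zero]
      simp only [V, smul_mulVec, cfc_ker (pP B x).1 _ this]
      simp [hq.ne']
    simp only [Θ] at hξ'
    rw [add_mulVec, h9, h10, ← add_smul, smul_eq_zero] at hξ'
    have h11 : L + σ B + (L + σ B) = 0 := by exact_mod_cast hξ'.resolve_right hξ
    linarith
  have hP : Path (Lam K L η B + σ B • 1) (M B) (V B) a b :=
    ⟨hab, hpsd B _ h1, h2.herm, h2.ode, fun x hx => h2.up (pV B) hx, h2.lo, cV' B, pV B, h2.ha,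
      eq_neg_of_add_eq_zero_right h6⟩
  have b1 := hP.action hq hq1
  have b2 : ∫ x in a..b, trPow (V B x) (1 + q) = l B ^ (1 + q) * n B := by
    rw [← intervalIntegral.integral_const_mul]
    refine intervalIntegral.integral_congr fun x _ => ?_
    simp only [V, ← cfc_smul' (pP B x).1, trPow_cfc (pP B x).1, trPow_eq (pP B x).1,
      Finset.mul_sum]
    refine Finset.sum_congr rfl fun i _ => ?_
    have h0 := (pP B x).eigenvalues_nonneg i
    rw [Real.mul_rpow (l0 B).le (by positivity), ← Real.rpow_mul h0, inv_mul_eq_div]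
  have b3 : l B ^ (1 + q) * n B ≤ A := by
    rw [← lp B]
    exact mul_le_mul_of_nonneg_left (by linarith) (by have := l0 B; positivity)
  have b4 := peierls (hpsd B _ h1) (r := 2 * q + 1) (by linarith)
  have b5 : ∑ j, (κ j - 2 * ε) ^ (2 * q + 1) ≤
      ∑ j, ((Lam K L η B + σ B • 1 : Mat N) j j).re ^ (2 * q + 1) := by
    refine Finset.sum_le_sum fun j _ => Real.rpow_le_rpow (by linarith [hκ j]) ?_ (by linarith)
    have := (Complex.le_def.mp ((hlow B _ h1).diag_nonneg (i := j))).1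
    rw [Matrix.sub_apply, diagonal_apply_eq, Complex.sub_re, Complex.ofReal_re, Complex.zero_re] at this
    linarith
  have := Bq_pos hq
  calc _ ≤ q * Bq q * trPow (Lam K L η B + σ B • 1) (2 * q + 1) := by
        gcongr; exact b5.trans b4
    _ ≤ _ := b1.trans (by rw [b2]; gcongr)

end Vale.Agent.P371
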