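import Vale.Agent.P371.Upper

/-! The one bound state example. -/

open Matrix Set Filter Topology MeasureTheory Real
open scoped ComplexOrder MatrixOrder Matrix.Norms.L2Operator

namespace Vale.Agent.P371

variable {m : ℕ} {q : ℝ}

noncomputable def tt (q x : ℝ) : ℝ := sinh (x / q) / cosh (x / q)

noncomputable def uu (q x : ℝ) : ℝ := cosh (x / q) ^ (-q)

noncomputable def ww (q x : ℝ) : ℝ := (1 + q) / q * (1 - tt q x ^ 2)

lemma one_sub_tt (q x : ℝ) : 1 - tt q x ^ 2 = (cosh (x / q) ^ 2)⁻¹ := by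
  have := cosh_pos (x / q)
  rw [tt]
  field_simp
  exact cosh_sq_sub_sinh_sq _

lemma tt_sq_le (q x : ℝ) : 0 ≤ 1 - tt q x ^ 2 := by rw [one_sub_tt]; positivity

lemma tt_deriv (q x : ℝ) : HasDerivAt (tt q) ((1 - tt q x ^ 2) / q) x := by
  have h := cosh_pos (x / q)
  have h1 := (hasDerivAt_id x).div_const q
  refine (h1.sinh.div h1.cosh h.ne').congr_deriv ?_
  simp only [tt, id]
  field_simp

lemma uu_deriv (hq : 0 < q) (x : ℝ) : HasDerivAt (uu q) (-(tt q x * uu q x)) x := by
  have h := cosh_pos (x / q)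
  refine (((hasDerivAt_id x).div_const q).cosh.rpow_const (p := -q) (Or.inl h.ne')).congr_deriv ?_
  simp only [tt, uu, id]
  rw [rpow_sub_one h.ne']
  field_simp

lemma uu_deriv2 (hq : 0 < q) (x : ℝ) :
    HasDerivAt (fun x => -(tt q x * uu q x)) ((1 - ww q x) * uu q x) x := by
  refine ((tt_deriv q x).mul (uu_deriv hq x)).neg.congr_deriv ?_
  rw [ww]
  field_simp
  ring

lemma tt_cont (q : ℝ) : Continuous (tt q) :=
  continuous_iff_continuousAt.mpr fun x => (tt_deriv q x).continuousAt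

lemma uu_cont (hq : 0 < q) : Continuous (uu q) :=
  continuous_iff_continuousAt.mpr fun x => (uu_deriv hq x).continuousAt

lemma ww_cont (q : ℝ) : Continuous (ww q) :=
  continuous_const.mul (continuous_const.sub ((tt_cont q).pow 2))

lemma uu_pos (q x : ℝ) : 0 < uu q x := rpow_pos_of_pos (cosh_pos _) _

lemma ww_nonneg (hq : 0 < q) (x : ℝ) : 0 ≤ ww q x := mul_nonneg (by positivity) (tt_sq_le q x)

lemma ww_le (hq : 0 < q) (x : ℝ) : ww q x ≤ (1 + q) / q :=
  mul_le_of_le_one_right (by positivity) (by linarith [sq_nonneg (tt q x)])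

lemma uu_sq (q x : ℝ) : uu q x ^ 2 = (1 - tt q x ^ 2) ^ q := by
  have h := cosh_pos (x / q)
  rw [one_sub_tt, uu, ← rpow_natCast, ← rpow_natCast, ← rpow_neg h.le, ← rpow_mul h.le,
    ← rpow_mul h.le]
  congr 1; ring

lemma uu_le (hq : 0 < q) (x s : ℝ) (hs : exp (s / q) / 2 ≤ cosh (x / q)) :
    uu q x ^ 2 ≤ ((2 : ℝ) ^ q) ^ 2 * exp (-2 * s) := by
  have h1 : uu q x ≤ 2 ^ q * exp (-s) := by
    refine (rpow_le_rpow_of_nonpos (by positivity) hs (by linarith)).trans (le_of_eq ?_)
    rw [div_rpow (exp_pos _).le (by norm_num), ← exp_mul, rpow_neg (by norm_num), div_inv_eq_mul,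
      mul_comm]
    congr 2; field_simp
  refine (pow_le_pow_left₀ (uu_pos q x).le h1 2).trans (le_of_eq ?_)
  rw [mul_pow, ← exp_nat_mul]
  congr 2; push_cast; ring

lemma uu_int (hq : 0 < q) : Integrable fun x => uu q x ^ 2 := by
  have hm := ((uu_cont hq).pow 2).aestronglyMeasurable (μ := volume)
  rw [← integrableOn_univ, ← Iic_union_Ioi (a := (0 : ℝ))]
  refine IntegrableOn.union ?_ ?_
  · refine Integrable.mono' ((integrableOn_exp_mul_Iic two_pos 0).const_mul (((2 : ℝ) ^ q) ^ 2))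
      hm.restrict (Eventually.of_forall fun x => ?_)
    rw [Real.norm_of_nonneg (sq_nonneg _)]
    have := uu_le hq x (-x) (by rw [cosh_eq, neg_div]; linarith [exp_pos (x / q)])
    simpa using this
  · refine Integrable.mono' ((integrableOn_exp_mul_Ioi (a := -2) (by norm_num) 0).const_mul
      (((2 : ℝ) ^ q) ^ 2)) hm.restrict (Eventually.of_forall fun x => ?_)
    rw [Real.norm_of_nonneg (sq_nonneg _)]
    exact uu_le hq x x (by rw [cosh_eq]; linarith [exp_pos (-(x / q))])

lemma tt_top (hq : 0 < q) : Tendsto (tt q) atTop (𝓝 1) := by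
  have h1 : Tendsto (fun x => 1 - exp (-(x / q))) atTop (𝓝 (1 - 0)) :=
    (tendsto_exp_neg_atTop_nhds_zero.comp (tendsto_id.atTop_div_const hq)).const_sub 1
  rw [sub_zero] at h1
  refine tendsto_of_tendsto_of_tendsto_of_le_of_le h1 tendsto_const_nhds (fun x => ?_) fun x => ?_
  · have h := one_le_cosh (x / q)
    simp only [tt]
    rw [le_div_iff₀ (by linarith)]
    nlinarith [cosh_sub_sinh (x / q), exp_pos (-(x / q))]
  · nlinarith [tt_sq_le q x]

lemma tt_bot (hq : 0 < q) : Tendsto (tt q) atBot (𝓝 (-1)) := by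
  refine ((tt_top hq).comp tendsto_neg_atBot_atTop).neg.congr fun x => ?_
  simp [tt, neg_div]

lemma ww_pow (hq : 0 < q) (x : ℝ) : ww q x ^ (1 + q) =
    ((1 + q) / q) ^ (1 + q) * ((1 - tt q x ^ 2) * uu q x ^ 2) := by
  rw [ww, mul_rpow (by positivity) (tt_sq_le q x), rpow_one_add' (tt_sq_le q x) (by positivity),
    uu_sq]

lemma ww_int (hq : 0 < q) : Integrable fun x => (1 - tt q x ^ 2) * uu q x ^ 2 := by
  refine (uu_int hq).mono' ((continuous_const.sub ((tt_cont q).pow 2)).mul
    ((uu_cont hq).pow 2)).aestronglyMeasurable (Eventually.of_forall fun x => ?_)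
  rw [Real.norm_of_nonneg (mul_nonneg (tt_sq_le q x) (sq_nonneg _))]
  exact mul_le_of_le_one_left (sq_nonneg _) (by linarith [sq_nonneg (tt q x)])

lemma ww_integral (hq : 0 < q) : ∫ x, (1 - tt q x ^ 2) * uu q x ^ 2 = q * Bq q := by
  have hc : Continuous fun s : ℝ => (1 - s ^ 2) ^ q :=
    Continuous.rpow_const (by fun_prop) fun _ => Or.inr hq.le
  have hF : Continuous fun y : ℝ => q * ∫ s in (-1 : ℝ)..y, (1 - s ^ 2) ^ q :=
    continuous_const.mul (continuous_iff_continuousAt.mpr fun y =>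
      (hc.integral_hasStrictDerivAt (-1) y).hasDerivAt.continuousAt)
  rw [integral_of_hasDerivAt_of_tendsto
    (f := fun x => q * ∫ s in (-1 : ℝ)..tt q x, (1 - s ^ 2) ^ q) (fun x => ?_) (ww_int hq)
    ((hF.tendsto _).comp (tt_bot hq)) ((hF.tendsto _).comp (tt_top hq))]
  · simp [Bq]
  · refine (((hc.integral_hasStrictDerivAt (-1) (tt q x)).hasDerivAt.comp x
      (tt_deriv q x)).const_mul q).congr_deriv ?_
    rw [uu_sq]; field_simp

lemma integral_deriv_zero {F F' : ℝ → ℂ} (h : ∀ x y, AC F F' x y) (hF : Integrable F)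
    (hF' : Integrable F') : ∫ x, F' x = 0 := by
  have h1 : ∀ n : ℕ, (0 : ℝ) < 1 / (n + 1) := fun n => by positivity
  choose x hx hx' using fun n : ℕ => (exists_small hF.norm (h1 n) (-n)).1
  choose y hy hy' using fun n : ℕ => (exists_small hF.norm (h1 n) n).2
  have h2 := intervalIntegral_tendsto_integral hF'
    (tendsto_atBot_mono hx (tendsto_neg_atTop_atBot.comp tendsto_natCast_atTop_atTop))
    (tendsto_atTop_mono hy tendsto_natCast_atTop_atTop)
  have h3 := (squeeze_zero_norm (fun n => (hy' n).le) tendsto_one_div_add_atTop_nhds_zero_nat).sub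
    (squeeze_zero_norm (fun n => (hx' n).le) tendsto_one_div_add_atTop_nhds_zero_nat)
  simp only [(h _ _).ftc, sub_zero] at h3
  exact tendsto_nhds_unique h2 h3

lemma memLp_mul (hq : 0 < q) {f : ℝ → ℝ} (hf : Continuous f) {C : ℝ} (hC : ∀ x, |f x| ≤ C) :
    MemLp (fun x => ((f x * uu q x : ℝ) : ℂ)) 2 := by
  have h1 : MemLp (uu q) 2 := (memLp_two_iff_integrable_sq (uu_cont hq).aestronglyMeasurable).mpr
    (uu_int hq)
  refine h1.of_le_mul (c := C) (Complex.continuous_ofReal.comp
    (hf.mul (uu_cont hq))).aestronglyMeasurable (Eventually.of_forall fun x => ?_)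
  rw [Complex.norm_real, norm_mul]
  exact mul_le_mul_of_nonneg_right (hC x) (norm_nonneg _)

lemma abs_tt (q x : ℝ) : |tt q x| ≤ 1 :=
  (sq_le_one_iff_abs_le_one _).mp (by linarith [tt_sq_le q x])

lemma memLp_single {f : ℝ → ℂ} (hf : MemLp f 2) (i a : Fin m) :
    MemLp (fun x => (Pi.single i (f x) : Fin m → ℂ) a) 2 := by
  by_cases h : a = i
  · subst h; simpa using hf
  · simp [h]

/-- the ground state -/
noncomputable def psi0 (hq : 0 < q) (c : ℝ) (i : Fin m) : H1 m where
  val x := Pi.single i ((c * uu q x : ℝ) : ℂ)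
  der x := Pi.single i ((-(c * tt q x) * uu q x : ℝ) : ℂ)
  val_L2 := memLp_single (memLp_mul hq (f := fun _ => c) continuous_const fun _ => le_rfl) i
  der_L2 := memLp_single (memLp_mul hq (f := fun x => -(c * tt q x))
    (continuous_const.mul (tt_cont q)).neg (C := |c|)
    fun x => by
      rw [abs_neg, abs_mul]; exact mul_le_of_le_one_right (abs_nonneg _) (abs_tt q x)) i
  ftc a x y := by
    by_cases h : a = i
    · subst h
      simp only [Pi.single_eq_same]
      refine (intervalIntegral.integral_eq_sub_of_hasDerivAt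
        (f := fun x => ((c * uu q x : ℝ) : ℂ)) (fun t _ => ?_) ?_).symm
      · exact (((uu_deriv hq t).const_mul c).congr_deriv (by ring)).ofReal_comp
      · exact (Complex.continuous_ofReal.comp
          ((continuous_const.mul (tt_cont q)).neg.mul (uu_cont hq))).intervalIntegrable _ _
    · simp [h]

noncomputable def W0 (q : ℝ) (i : Fin m) (x : ℝ) : Mat m := ww q x • single i i (1 : ℂ)

lemma proj_psd (i : Fin m) : (single i i (1 : ℂ) : Mat m).PosSemidef := by
  simpa using posSemidef_conjTranspose_mul_self (single i i (1 : ℂ) : Mat m)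

lemma trPow_W0 (hq : 0 < q) (i : Fin m) (x : ℝ) : trPow (W0 q i x) (1 + q) = ww q x ^ (1 + q) := by
  have hP := (proj_psd i).1
  have h1 : IsIdempotentElem (single i i (1 : ℂ) : Mat m) := by simp [IsIdempotentElem]
  have h2 := cfc_smul' hP (fun x => x) (ww q x)
  rw [cfc_id'' hP] at h2
  have h3 : ∑ j, hP.eigenvalues j = 1 := by rw [← rtr_eq_sum hP]; simp [rtr]
  rw [W0, ← h2, trPow_cfc hP, ← mul_one (ww q x ^ (1 + q)), ← h3, Finset.mul_sum]
  refine Finset.sum_congr rfl fun j _ => ?_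
  rcases h1.spectrum_subset ℝ (hP.eigenvalues_mem_spectrum_real j) with h | h
  · rw [h, mul_zero, mul_zero, zero_rpow (by linarith)]
  · rw [mem_singleton_iff.mp h, mul_one, mul_one]

lemma int_W0 (hq : 0 < q) (i : Fin m) : Integrable (fun x => trPow (W0 q i x) (1 + q)) ∧
    ∫ x, trPow (W0 q i x) (1 + q) = ((1 + q) / q) ^ (1 + q) * (q * Bq q) := by
  simp only [trPow_W0 hq, ww_pow hq]
  exact ⟨(ww_int hq).const_mul _, by rw [integral_const_mul, ww_integral hq]⟩

lemma W0_psd (hq : 0 < q) (i : Fin m) (x : ℝ) : (W0 q i x).PosSemidef :=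
  (proj_psd i).smul (ww_nonneg hq x)

lemma potInt_eq {W : ℝ → Mat m} {p : ℝ} (hW : ∀ x, (W x).PosSemidef)
    (hi : Integrable fun x => trPow (W x) p) : potInt p W = ENNReal.ofReal (∫ x, trPow (W x) p) :=
  (ofReal_integral_eq_lintegral_ofReal hi
    (Eventually.of_forall fun x => trPow_nonneg (hW x) p)).symm

lemma W0_pot (hq : 0 < q) (i : Fin m) : IsPotential (1 + q) (W0 q i) := by
  refine ⟨fun a b => ?_, W0_psd hq i, ?_⟩
  · exact ((ww_cont q).smul continuous_const).measurable
  · rw [potInt_eq (W0_psd hq i) (int_W0 hq i).1]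
    exact ENNReal.ofReal_lt_top

lemma psi0_eigen (hq : 0 < q) (c : ℝ) (i : Fin m) : IsEigen (W0 q i) (psi0 hq c i) (-1) := by
  intro φ
  have m1 := memLp_mul hq (f := fun _ => c) continuous_const fun _ => le_rfl
  have m2 := (psi0 hq c i).der_L2 i
  have m3 := memLp_mul hq (f := fun x => ww q x * c) ((ww_cont q).mul continuous_const)
    (C := (1 + q) / q * |c|) fun x => by
      rw [abs_mul, abs_of_nonneg (ww_nonneg hq x)]
      exact mul_le_mul_of_nonneg_right (ww_le hq x) (abs_nonneg _)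
  simp only [psi0, Pi.single_eq_same] at m2
  have i1 : Integrable fun x => star (φ.val x i) * ((c * uu q x : ℝ) : ℂ) :=
    (φ.val_L2 i).star.integrable_mul m1
  have i2 : Integrable fun x => star (φ.der x i) * ((-(c * tt q x) * uu q x : ℝ) : ℂ) :=
    (φ.der_L2 i).star.integrable_mul m2
  have i3 : Integrable fun x => star (φ.val x i) * ((ww q x * c * uu q x : ℝ) : ℂ) :=
    (φ.val_L2 i).star.integrable_mul m3
  have i5 : Integrable fun x => star (φ.val x i) * ((c * uu q x : ℝ) : ℂ) -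
    star (φ.val x i) * ((ww q x * c * uu q x : ℝ) : ℂ) := i1.sub i3
  have i4 := (φ.val_L2 i).star.integrable_mul m2
  have h := integral_deriv_zero (fun x y => (φ.ac i x y).star.mul (AC.of_deriv
    (f := fun x => ((-(c * tt q x) * uu q x : ℝ) : ℂ))
    (f' := fun x => ((c * uu q x : ℝ) : ℂ) - ((ww q x * c * uu q x : ℝ) : ℂ)) (fun t _ => by
      rw [← Complex.ofReal_sub]
      refine HasDerivAt.ofReal_comp ?_
      refine (((uu_deriv2 hq t).const_mul c).congr_deriv (by ring)).congr_of_eventuallyEq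
        (Eventually.of_forall fun s => by ring))
    (by have := uu_cont hq; have := ww_cont q; fun_prop))) i4
    (i2.add ((i1.sub i3).congr (Eventually.of_forall fun x => (mul_sub _ _ _).symm)))
  simp only [mul_sub] at h
  rw [integral_add i2 i5, integral_sub i1 i3] at h
  have e : ∀ x, star (φ.val x) ⬝ᵥ (W0 q i x *ᵥ (psi0 hq c i).val x) =
      star (φ.val x i) * ((ww q x * c * uu q x : ℝ) : ℂ) := fun x => by
    have : W0 q i x *ᵥ (psi0 hq c i).val x = Pi.single i ((ww q x * c * uu q x : ℝ) : ℂ) := by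
      rw [W0, psi0, smul_mulVec, mulVec_single]
      ext a
      by_cases h : a = i
      · subst h; simp [mul_assoc]
      · simp [h, Ne.symm h]
    rw [this, dotProduct_single, Pi.star_apply]
  simp only [form, l2, e]
  simp only [psi0, dotProduct_single, Pi.star_apply]
  rw [Complex.ofReal_neg, Complex.ofReal_one]
  linear_combination h

lemma psi0_norm (hq : 0 < q) (i : Fin m) :
    l2 (psi0 hq (√(∫ x, uu q x ^ 2))⁻¹ i) (psi0 hq (√(∫ x, uu q x ^ 2))⁻¹ i) = 1 := by
  have h1 : 0 < ∫ x, uu q x ^ 2 := integral_pos_of_integrable_nonneg_nonzero (x := 0)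
    ((uu_cont hq).pow 2) (uu_int hq) (fun x => sq_nonneg _) (pow_pos (uu_pos q 0) 2).ne'
  simp only [l2, psi0, dotProduct_single, Pi.star_apply, Pi.single_eq_same, RCLike.star_def,
    Complex.conj_ofReal, ← sq, ← Complex.ofReal_pow]
  simp only [mul_pow]
  rw [integral_complex_ofReal, integral_const_mul, inv_pow, sq_sqrt h1.le, inv_mul_cancel₀ h1.ne',
    Complex.ofReal_one]

lemma one_le_riesz (hq : 0 < q) (γ : ℝ) (i : Fin m) : 1 ≤ riesz γ (W0 q i) := by
  refine le_iSup_of_le 1 (le_iSup_of_le (fun _ => psi0 hq (√(∫ x, uu q x ^ 2))⁻¹ i)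
    (le_iSup_of_le (fun _ => -1) (le_iSup_of_le (fun _ => by norm_num)
    (le_iSup_of_le (fun _ => psi0_eigen hq _ i) (le_iSup_of_le (fun a b => ?_) ?_)))))
  · rw [if_pos (Subsingleton.elim a b)]; exact psi0_norm hq i
  · simp

theorem LT_eq (hq : 0 < q) (hq1 : q < 1) (hm : 1 ≤ m) :
    LT (q + 1 / 2) m = ENNReal.ofReal ((q / (1 + q)) ^ (1 + q) / (q * Bq q)) := by
  have hB := Bq_pos hq
  have e : q + 1 / 2 + 1 / 2 = 1 + q := by ring
  rw [LT, e]
  refine le_antisymm (iSup_le fun W => iSup_le fun hW => iSup_le fun h0 => ?_) ?_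
  · have h1 := potInt_eq hW.psd (hW.integrable (by linarith))
    have hA : 0 < ∫ x, trPow (W x) (1 + q) := by
      rw [h1] at h0
      exact ENNReal.ofReal_pos.mp (pos_iff_ne_zero.mpr h0)
    refine ENNReal.div_le_of_le_mul ?_
    rw [h1, ← ENNReal.ofReal_mul (by positivity)]
    refine iSup_le fun N => iSup_le fun ψ => iSup_le fun lam => iSup_le fun hl =>
      iSup_le fun he => iSup_le fun ho => ENNReal.ofReal_le_ofReal ?_
    rw [div_mul_eq_mul_div, le_div_iff₀' (by positivity)]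
    exact upper hq hq1 hW hA hl he ho
  · have h1 := potInt_eq (W0_psd hq (⟨0, hm⟩ : Fin m)) (int_W0 hq _).1
    rw [(int_W0 hq _).2] at h1
    have h2 : 0 < ((1 + q) / q) ^ (1 + q) * (q * Bq q) := by positivity
    refine le_iSup_of_le (W0 q ⟨0, hm⟩) (le_iSup_of_le (W0_pot hq _) (le_iSup_of_le
      (by rw [h1]; exact (ENNReal.ofReal_pos.mpr h2).ne') ?_))
    refine le_trans (le_of_eq ?_) (ENNReal.div_le_div_right (one_le_riesz hq _ _) _)
    rw [h1, one_div, ← ENNReal.ofReal_inv_of_pos h2, mul_inv, ← inv_rpow (by positivity), inv_div,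
      div_eq_mul_inv _ (q * Bq q)]

end Vale.Agent.P371
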