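import Vale.Agent.P371.Action

/-! Linear equations with parameters, comparison, and the Riccati solution. -/

open Matrix Set Filter Topology MeasureTheory intervalIntegral
open scoped ComplexOrder MatrixOrder Matrix.Norms.L2Operator NNReal

namespace Vale.Agent.P371

variable {N : ℕ}

lemma exists_ode {P E : Type*} [TopologicalSpace P] [CompactSpace P] [NormedAddCommGroup E]
    [NormedSpace ℝ E] [CompleteSpace E] {f : P → ℝ → E → E} {z₀ : P → E} {a b : ℝ} (hab : a ≤ b)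
    {K : ℝ} (hK : 0 ≤ K) (hf : Continuous fun u : P × ℝ × E => f u.1 u.2.1 u.2.2)
    (hz : Continuous z₀)
    (hL : ∀ p, ∀ x ∈ Icc a b, ∀ u v, ‖f p x u - f p x v‖ ≤ K * ‖u - v‖) :
    ∃ z : P → ℝ → E, Continuous (Function.uncurry z) ∧ ∀ p, z p a = z₀ p ∧
      ∀ x ∈ Icc a b, HasDerivAt (z p) (f p x (z p x)) x := by
  set L := 2 * K + 1 with hLd
  have hL0 : 0 < L := by positivity
  let c := projIcc a b hab
  have hc : Continuous c := continuous_projIcc
  let G : C(P × Icc a b, E) → P → ℝ → E := fun φ p s =>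
    f p (c s) (Real.exp (L * c s) • φ (p, c s))
  have hG : ∀ φ, Continuous (Function.uncurry (G φ)) := fun φ =>
    hf.comp (f := fun u : P × ℝ => (u.1, (c u.2 : ℝ), Real.exp (L * c u.2) • φ (u.1, c u.2)))
      (by fun_prop)
  have hG' : ∀ φ p, Continuous (G φ p) := fun φ p =>
    (hG φ).comp (f := fun s => (p, s)) (by fun_prop)
  let J : C(P × Icc a b, E) → P → ℝ → E := fun φ p x => z₀ p + ∫ s in a..x, G φ p s
  have hJ : ∀ φ, Continuous (Function.uncurry (J φ)) := fun φ =>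
    (hz.comp continuous_fst).add (continuous_parametric_primitive_of_continuous (hG φ))
  let T : C(P × Icc a b, E) → C(P × Icc a b, E) := fun φ =>
    ⟨fun u => Real.exp (-(L * u.2)) • J φ u.1 u.2, by
      have := (hJ φ).comp (f := fun u : P × Icc a b => (u.1, (u.2 : ℝ))) (by fun_prop)
      exact Continuous.smul (by fun_prop) this⟩
  have hT : ContractingWith (1 / 2) T := by
    refine ⟨by norm_num, LipschitzWith.of_dist_le_mul fun φ ψ => ?_⟩
    refine (ContinuousMap.dist_le (by positivity)).mpr fun u => ?_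
    obtain ⟨p, x, hx⟩ := u
    have h1 : ‖∫ s in a..x, (G φ p s - G ψ p s)‖ ≤
        ∫ s in a..x, K * dist φ ψ * Real.exp (L * s) := by
      refine norm_integral_le_of_norm_le hx.1 (Eventually.of_forall fun s hs => ?_)
        (Continuous.intervalIntegrable (by fun_prop) _ _)
      have hs' : s ∈ Icc a b := ⟨hs.1.le, hs.2.trans hx.2⟩
      refine (hL p _ (c s).2 _ _).trans ?_
      rw [← smul_sub, norm_smul, Real.norm_of_nonneg (Real.exp_pos _).le, ← dist_eq_norm,
        show (c s : ℝ) = s by simp [c, projIcc_of_mem hab hs'], mul_assoc, mul_comm (dist φ ψ)]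
      gcongr
      exact ContinuousMap.dist_apply_le_dist _
    have h2 : ∫ s in a..x, K * dist φ ψ * Real.exp (L * s) =
        K * dist φ ψ * (Real.exp (L * x) / L) - K * dist φ ψ * (Real.exp (L * a) / L) := by
      refine integral_eq_sub_of_hasDerivAt (f := fun s => K * dist φ ψ * (Real.exp (L * s) / L))
        (fun s _ => ?_) (Continuous.intervalIntegrable (by fun_prop) _ _)
      refine ((((hasDerivAt_id s).const_mul L).exp.div_const L).const_mul _).congr_deriv ?_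
      simp only [id]; field_simp
    have h3 : T φ (p, ⟨x, hx⟩) - T ψ (p, ⟨x, hx⟩) =
        Real.exp (-(L * x)) • ∫ s in a..x, (G φ p s - G ψ p s) := by
      rw [intervalIntegral.integral_sub ((hG' φ p).intervalIntegrable _ _)
        ((hG' ψ p).intervalIntegrable _ _)]
      simp only [T, J, ContinuousMap.coe_mk, ← smul_sub, add_sub_add_left_eq_sub]
    rw [dist_eq_norm, h3, norm_smul, Real.norm_of_nonneg (Real.exp_pos _).le]
    have h4 : 0 ≤ K * dist φ ψ * (Real.exp (L * a) / L) := by positivity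
    have h5 : Real.exp (-(L * x)) * (K * dist φ ψ * (Real.exp (L * x) / L)) =
        K / L * dist φ ψ := by
      rw [Real.exp_neg]; field_simp
    have h6 : K / L ≤ 1 / 2 := by rw [div_le_iff₀ hL0]; linarith
    calc _ ≤ Real.exp (-(L * x)) * (K * dist φ ψ * (Real.exp (L * x) / L)) := by
          gcongr; linarith
      _ ≤ _ := by rw [h5]; push_cast; gcongr
  set φ := hT.fixedPoint T
  have hφ : T φ = φ := hT.fixedPoint_isFixedPt
  refine ⟨J φ, hJ φ, fun p => ⟨by simp [J], fun x hx => ?_⟩⟩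
  have h1 := (((hG' φ p).integral_hasStrictDerivAt a x).hasDerivAt).const_add (z₀ p)
  refine h1.congr_deriv ?_
  have h2 : c x = ⟨x, hx⟩ := projIcc_of_mem hab hx
  simp only [G, h2]
  congr 1
  conv_lhs => rw [← hφ]
  simp only [T, ContinuousMap.coe_mk, smul_smul, ← Real.exp_add, add_neg_cancel, Real.exp_zero,
    one_smul]

/-- solution of the second order linear equation -/
structure Lin (Λ : Mat N) (V U Y : ℝ → Mat N) (a b : ℝ) : Prop where
  dU : ∀ x ∈ Icc a b, HasDerivAt U (Y x) x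
  dY : ∀ x ∈ Icc a b, HasDerivAt Y ((Λ * Λ - V x) * U x) x
  U0 : U a = 1
  Y0 : Y a = Λ

lemma exists_lin {P : Type*} [TopologicalSpace P] [CompactSpace P] {Λ : P → Mat N}
    {V : P → ℝ → Mat N} (hΛ : Continuous Λ) (hV : Continuous (Function.uncurry V)) {a b : ℝ}
    (hab : a ≤ b) : ∃ U Y : P → ℝ → Mat N, Continuous (Function.uncurry U) ∧
      Continuous (Function.uncurry Y) ∧ ∀ p, Lin (Λ p) (V p) (U p) (Y p) a b := by
  have hQ : Continuous fun u : P × ℝ => Λ u.1 * Λ u.1 - V u.1 u.2 :=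
    ((hΛ.comp continuous_fst).mul (hΛ.comp continuous_fst)).sub hV
  obtain ⟨C, hC⟩ := (isCompact_univ.prod (isCompact_Icc (a := a) (b := b))).exists_bound_of_continuousOn
    hQ.continuousOn
  obtain ⟨z, hz1, hz2⟩ := exists_ode (E := Mat N × Mat N)
    (f := fun p x u => (u.2, (Λ p * Λ p - V p x) * u.1)) (z₀ := fun p => (1, Λ p)) hab
    (K := max 1 C) (by positivity)
    ((continuous_snd.comp (continuous_snd.comp continuous_snd)).prodMk
      ((hQ.comp (f := fun u : P × ℝ × Mat N × Mat N => (u.1, u.2.1)) (by fun_prop)).mul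
        (continuous_fst.comp (continuous_snd.comp continuous_snd))))
    (by fun_prop) (fun p x hx u v => by
      rw [Prod.mk_sub_mk, Prod.norm_mk, ← Matrix.mul_sub]
      refine max_le ?_ ?_
      · exact (norm_snd_le (u - v)).trans (le_mul_of_one_le_left (norm_nonneg _) (le_max_left _ _))
      · exact (norm_mul_le _ _).trans (mul_le_mul ((hC (p, x) ⟨trivial, hx⟩).trans
          (le_max_right _ _)) (norm_fst_le (u - v)) (norm_nonneg _) (by positivity)))
  refine ⟨fun p x => (z p x).1, fun p x => (z p x).2, continuous_fst.comp hz1,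
    continuous_snd.comp hz1, fun p => ⟨fun x hx => ?_, fun x hx => ?_, ?_, ?_⟩⟩
  · exact (ContinuousLinearMap.fst ℝ _ _).hasFDerivAt.comp_hasDerivAt x ((hz2 p).2 x hx)
  · exact (ContinuousLinearMap.snd ℝ _ _).hasFDerivAt.comp_hasDerivAt x ((hz2 p).2 x hx)
  · simp [(hz2 p).1]
  · simp [(hz2 p).1]

/-- the quadratic form as a real linear functional of the matrix -/
noncomputable def qf (v : Fin N → ℂ) : Mat N →L[ℝ] ℝ :=
  LinearMap.toContinuousLinearMap
    { toFun := fun A => (star v ⬝ᵥ A *ᵥ v).re,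
      map_add' := fun A B => by simp [add_mulVec],
      map_smul' := fun c A => by simp [smul_mulVec] }

lemma qf_apply (v : Fin N → ℂ) (A : Mat N) : qf v A = (star v ⬝ᵥ A *ᵥ v).re := rfl

lemma hasDerivAt_ct {A : ℝ → Mat N} {A' : Mat N} {x : ℝ} (h : HasDerivAt A A' x) :
    HasDerivAt (fun y => (A y)ᴴ) A'ᴴ x :=
  (ctL N).hasFDerivAt.comp_hasDerivAt x h

lemma herm_of_deriv {G G' : ℝ → Mat N} {a b : ℝ} (hG : ∀ x ∈ Icc a b, HasDerivAt G (G' x) x)
    (hp : ∀ x ∈ Icc a b, (G' x).IsHermitian) {x : ℝ} (hx : x ∈ Icc a b) :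
    (G x - G a).IsHermitian := by
  have h1 : ∀ x ∈ Icc a b, HasDerivAt (fun y => (G y)ᴴ - G y) 0 x := fun x hx =>
    ((hasDerivAt_ct (hG x hx)).sub (hG x hx)).congr_deriv (by rw [(hp x hx).eq, sub_self])
  have h2 := constant_of_has_deriv_right_zero
    (fun x hx => (h1 x hx).continuousAt.continuousWithinAt)
    (fun x hx => (h1 x (Ico_subset_Icc_self hx)).hasDerivWithinAt) x hx
  unfold IsHermitian
  rw [conjTranspose_sub, sub_eq_sub_iff_sub_eq_sub, h2]

lemma psd_of_deriv {G G' : ℝ → Mat N} {a b : ℝ} (hG : ∀ x ∈ Icc a b, HasDerivAt G (G' x) x)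
    (hp : ∀ x ∈ Icc a b, (G' x).PosSemidef) {x : ℝ} (hx : x ∈ Icc a b) :
    (G x - G a).PosSemidef := by
  rw [posSemidef_iff_re (herm_of_deriv hG (fun x hx => (hp x hx).1) hx)]
  intro v
  have h1 : ∀ x ∈ Icc a b, HasDerivAt (fun y => qf v (G y)) (qf v (G' x)) x := fun x hx =>
    (qf v).hasFDerivAt.comp_hasDerivAt x (hG x hx)
  have h2 := monotoneOn_of_hasDerivWithinAt_nonneg (convex_Icc a b)
    (fun x hx => (h1 x hx).continuousAt.continuousWithinAt)
    (fun x hx => (h1 x (interior_subset hx)).hasDerivWithinAt)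
    (fun x hx => (hp x (interior_subset hx)).re_dotProduct_nonneg v)
    ⟨le_rfl, hx.1.trans hx.2⟩ hx hx.1
  rw [← qf_apply, map_sub]
  exact sub_nonneg.mpr h2

lemma compare {U Y M D Q : ℝ → Mat N} {a b : ℝ} (hU : ∀ x ∈ Icc a b, HasDerivAt U (Y x) x)
    (hY : ∀ x ∈ Icc a b, HasDerivAt Y (Q x * U x) x)
    (hM : ∀ x ∈ Icc a b, HasDerivAt M (D x) x) (hh : ∀ x, (M x).IsHermitian)
    (hq : ∀ x ∈ Icc a b, (Q x - D x - M x * M x).PosSemidef) {x : ℝ} (hx : x ∈ Icc a b) :
    ((U x)ᴴ * (Y x - M x * U x) - (U a)ᴴ * (Y a - M a * U a)).PosSemidef := by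
  refine psd_of_deriv (G := fun x => (U x)ᴴ * (Y x - M x * U x))
    (fun x hx => (hasDerivAt_ct (hU x hx)).mul ((hY x hx).sub ((hM x hx).mul (hU x hx))))
    (fun x hx => ?_) hx
  have := (posSemidef_conjTranspose_mul_self (Y x - M x * U x)).add
    ((hq x hx).conjTranspose_mul_mul_same (U x))
  refine (congrArg PosSemidef ?_).mp this
  simp only [conjTranspose_sub, conjTranspose_mul, (hh x).eq]
  noncomm_ring

lemma psd_of_conj {U A : Mat N} (hU : IsUnit U) (h : (Uᴴ * (A * U)).PosSemidef) :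
    A.PosSemidef := by
  have h1 := h.conjTranspose_mul_mul_same U⁻¹
  have hd := (isUnit_iff_isUnit_det _).mp hU
  rwa [← Matrix.mul_assoc, ← conjTranspose_mul, mul_nonsing_inv _ hd, conjTranspose_one,
    Matrix.one_mul, Matrix.mul_assoc, mul_nonsing_inv _ hd, Matrix.mul_one] at h1

lemma pd_conj {U A : Mat N} (hU : IsUnit U) (h : A.PosDef) : (Uᴴ * (A * U)).PosDef := by
  rw [← Matrix.mul_assoc]
  exact h.conjTranspose_mul_mul_same (mulVec_injective_of_isUnit hU)

lemma pd_of_conj {U A : Mat N} (hU : IsUnit U) (h : (Uᴴ * (A * U)).PosDef) : A.PosDef := by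
  have hd := (isUnit_iff_isUnit_det _).mp hU
  have h1 := pd_conj (U := U⁻¹) (isUnit_nonsing_inv_iff.mpr hU) h
  rwa [Matrix.mul_assoc, Matrix.mul_assoc, mul_nonsing_inv _ hd, Matrix.mul_one,
    ← Matrix.mul_assoc, ← conjTranspose_mul, mul_nonsing_inv _ hd, conjTranspose_one,
    Matrix.one_mul] at h1

/-- A solution of the Riccati equation that starts at `Λ` and stays above `-Λ`. -/
structure Ric (Λ : Mat N) (M V : ℝ → Mat N) (a b : ℝ) : Prop where
  herm : ∀ x, (M x).IsHermitian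
  ode : ∀ x ∈ Icc a b, HasDerivAt M (Λ * Λ - M x * M x - V x) x
  lo : ∀ x ∈ Icc a b, (Λ + M x).PosSemidef
  ha : M a = Λ

lemma exp_deriv (A : Mat N) (x : ℝ) :
    HasDerivAt (fun y : ℝ => NormedSpace.exp (y • A)) (A * NormedSpace.exp (x • A)) x :=
  hasDerivAt_exp_smul_const' A x

lemma Ric.comp {Λ : Mat N} {M V : ℝ → Mat N} {a b : ℝ} (h : Ric Λ M V a b)
    (hV : ∀ x, (V x).PosSemidef) {A : Mat N} (hA : A * A = Λ * Λ) {x y : ℝ} (hx : x ∈ Icc a b)
    (hy : y ∈ Icc x b) :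
    ((NormedSpace.exp (y • A))ᴴ * ((A - M y) * NormedSpace.exp (y • A)) -
      (NormedSpace.exp (x • A))ᴴ * ((A - M x) * NormedSpace.exp (x • A))).PosSemidef := by
  have := compare (Q := fun _ => A * A) (a := x) (b := b) (fun z _ => exp_deriv A z)
    (fun z _ => ((exp_deriv A z).const_mul A).congr_deriv (Matrix.mul_assoc _ _ _).symm)
    (fun z hz => h.ode z ⟨hx.1.trans hz.1, hz.2⟩) h.herm
    (fun z _ => (congrArg PosSemidef (by rw [hA]; abel)).mp (hV z)) hy
  simpa only [Matrix.sub_mul] using this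

lemma Ric.up {Λ : Mat N} {M V : ℝ → Mat N} {a b : ℝ} (h : Ric Λ M V a b)
    (hV : ∀ x, (V x).PosSemidef) {x : ℝ} (hx : x ∈ Icc a b) : (Λ - M x).PosSemidef := by
  have := h.comp hV rfl ⟨le_rfl, hx.1.trans hx.2⟩ hx
  rw [h.ha, sub_self, Matrix.zero_mul, Matrix.mul_zero, sub_zero] at this
  exact psd_of_conj (Matrix.isUnit_exp _) this

lemma Ric.back {Λ : Mat N} {M V : ℝ → Mat N} {a b : ℝ} (h : Ric Λ M V a b)
    (hV : ∀ x, (V x).PosSemidef) (hb : (Λ + M b).PosDef) {x : ℝ} (hx : x ∈ Icc a b) :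
    (Λ + M x).PosDef := by
  have h1 := h.comp hV (neg_mul_neg Λ Λ) hx ⟨hx.2, le_rfl⟩
  have h2 := (pd_conj (Matrix.isUnit_exp (b • -Λ)) hb).add_posSemidef h1
  refine pd_of_conj (Matrix.isUnit_exp (x • -Λ)) ((congrArg PosDef ?_).mp h2)
  noncomm_ring

/-- the admissibility condition -/
def Good (Λ : Mat N) (U Y : ℝ → Mat N) (a b : ℝ) : Prop :=
  ∀ x ∈ Icc a b, ((U x)ᴴ * (Y x + Λ * U x)).PosSemidef

/-- the logarithmic derivative -/
noncomputable def logd (U Y : ℝ → Mat N) (x : ℝ) : Mat N := hre N (Y x * (U x)⁻¹)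

namespace Lin

variable {Λ : Mat N} {V U Y : ℝ → Mat N} {a b : ℝ}

lemma unit (h : Lin Λ V U Y a b) (hΛ : Λ.IsHermitian) (hg : Good Λ U Y a b) {x : ℝ}
    (hx : x ∈ Icc a b) : IsUnit (U x) := by
  have h1 : (‖Λ‖ • (1 : Mat N) - Λ).PosSemidef := by
    have := IsSelfAdjoint.le_algebraMap_norm_self (a := Λ) hΛ
    rw [Algebra.algebraMap_eq_smul_one] at this
    exact this
  have h2 := psd_of_deriv (G := fun x => Real.exp (2 * ‖Λ‖ * x) • ((U x)ᴴ * U x))
    (fun x hx => ((hasDerivAt_id x).const_mul (2 * ‖Λ‖)).exp.smul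
      ((hasDerivAt_ct (h.dU x hx)).mul (h.dU x hx))) (fun x hx => by
      have h3 := (hg x hx).1.eq
      rw [conjTranspose_mul, conjTranspose_conjTranspose, conjTranspose_add, conjTranspose_mul,
        hΛ.eq, Matrix.add_mul, Matrix.mul_add, ← Matrix.mul_assoc, add_left_inj] at h3
      have := ((hg x hx).add (h1.conjTranspose_mul_mul_same (U x))).smul
        (a := 2 * Real.exp (2 * ‖Λ‖ * x)) (by positivity)
      refine (congrArg PosSemidef ?_).mp this
      simp only [id, h3, Matrix.mul_add, Matrix.mul_sub, Matrix.sub_mul,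
        Matrix.mul_smul, Matrix.smul_mul, Matrix.mul_one, Matrix.mul_assoc]
      module) hx
  have h3 := (PosDef.one.smul (Real.exp_pos (2 * ‖Λ‖ * a))).add_posSemidef h2
  rw [h.U0, conjTranspose_one, Matrix.mul_one, add_sub_cancel, ← Matrix.smul_mul] at h3
  exact isUnit_of_mul_isUnit_right h3.isUnit

lemma logd_eq (h : Lin Λ V U Y a b) (hΛ : Λ.IsHermitian) (hg : Good Λ U Y a b) {x : ℝ}
    (hx : x ∈ Icc a b) : logd U Y x = Y x * (U x)⁻¹ ∧ (Λ + Y x * (U x)⁻¹).PosSemidef := by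
  have hu := h.unit hΛ hg hx
  have h1 : (Λ + Y x * (U x)⁻¹).PosSemidef := by
    refine psd_of_conj hu ?_
    rw [Matrix.add_mul, Matrix.mul_assoc, nonsing_inv_mul _ ((isUnit_iff_isUnit_det _).mp hu),
      Matrix.mul_one, add_comm]
    exact hg x hx
  refine ⟨hre_of_herm ?_, h1⟩
  have := h1.1.sub hΛ
  rwa [add_sub_cancel_left] at this

lemma ric (h : Lin Λ V U Y a b) (hab : a ≤ b) (hΛ : Λ.IsHermitian) (hV : ∀ x, (V x).IsHermitian)
    (hg : Good Λ U Y a b) : Ric Λ (logd U Y) V a b := by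
  refine ⟨fun x => hre_herm _, fun x hx => ?_, fun x hx => ?_, ?_⟩
  · obtain ⟨u, hu⟩ := h.unit hΛ hg hx
    have h1 := hasFDerivAt_ringInverse (𝕜 := ℝ) u
    rw [hu] at h1
    have h2 := (h.dY x hx).mul (h1.comp_hasDerivAt x (h.dU x hx))
    have h3 : logd U Y = (hre N) ∘ (Y * (Ring.inverse ∘ U)) := by
      ext1 y; simp [logd, nonsing_inv_eq_ringInverse]
    have h4 := (hre N).hasFDerivAt.comp_hasDerivAt x h2
    rw [← h3] at h4
    refine h4.congr_deriv ?_
    have h7 : (logd U Y x).IsHermitian := hre_herm _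
    rw [← hre_of_herm (((sq_psd hΛ).1.sub (sq_psd h7).1).sub (hV x))]
    congr 1
    have h5 := (h.logd_eq hΛ hg hx).1
    have h6 : (U x)⁻¹ = ↑u⁻¹ := by rw [← hu, coe_units_inv]
    rw [h5, h6]
    simp only [Function.comp, ← hu, Ring.inverse_unit, Matrix.mul_assoc, Units.mul_inv,
      Matrix.mul_one, _root_.neg_apply, ContinuousLinearMap.mulLeftRight_apply,
      Matrix.mul_neg]
    abel
  · rw [(h.logd_eq hΛ hg hx).1]; exact (h.logd_eq hΛ hg hx).2
  · rw [(h.logd_eq hΛ hg ⟨le_rfl, hab⟩).1, h.U0, h.Y0]; simp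

lemma kernel (h : Lin Λ V U Y a b) (hab : a ≤ b) (hΛ : Λ.IsHermitian)
    (hV : ∀ x, (V x).IsHermitian) (hg : Good Λ U Y a b) {ξ : Fin N → ℂ} {μ : ℝ}
    (h1 : Λ *ᵥ ξ = (μ : ℂ) • ξ) (h2 : ∀ x, V x *ᵥ ξ = 0) :
    logd U Y b *ᵥ ξ = (μ : ℂ) • ξ := by
  have h3 : star ξ ᵥ* Λ = (μ : ℂ) • star ξ := by
    rw [← hΛ.eq, ← star_mulVec, h1, star_smul]; simp
  have h4 : ∀ x, star ξ ᵥ* V x = 0 := fun x => by
    rw [← (hV x).eq, ← star_mulVec, h2, star_zero]
  have h5 : ∀ w, star ξ ⬝ᵥ (Y b - (μ : ℂ) • U b) *ᵥ w = 0 := by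
    intro w
    let l : Mat N →L[ℝ] ℂ := LinearMap.toContinuousLinearMap
      { toFun := fun A => star ξ ⬝ᵥ A *ᵥ w,
        map_add' := fun A B => by simp [add_mulVec],
        map_smul' := fun c A => by simp [smul_mulVec] }
    have hl : ∀ A, l A = (star ξ ᵥ* A) ⬝ᵥ w := fun A => dotProduct_mulVec (star ξ) A w
    have := exp_ode (D := fun x => l (Y x - (μ : ℂ) • U x)) (c := fun _ => -(μ : ℂ)) hab
      continuousOn_const (fun x hx => by
        refine (l.hasFDerivAt.comp_hasDerivAt x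
          ((h.dY x hx).sub (hasDerivAt_csmul (h.dU x hx) μ))).congr_deriv ?_
        simp only [hl, vecMul_sub, vecMul_smul, ← vecMul_vecMul, h3, h4, smul_vecMul, sub_zero,
          sub_dotProduct, smul_dotProduct, smul_eq_mul]
        ring)
    rw [h.U0, h.Y0, hl (Λ - _), vecMul_sub, h3, vecMul_smul, vecMul_one, sub_self,
      zero_dotProduct, zero_mul] at this
    exact this
  have h6 : star ξ ᵥ* (Y b - (μ : ℂ) • U b) = 0 := by
    refine dotProduct_eq_zero_iff.mp fun w => ?_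
    rw [← dotProduct_mulVec, h5]
  have hd := (isUnit_iff_isUnit_det _).mp (h.unit hΛ hg ⟨hab, le_rfl⟩)
  have h7 : star (star ξ ᵥ* (Y b - (μ : ℂ) • U b) ᵥ* (U b)⁻¹) = 0 := by rw [h6]; simp
  have h8 : (logd U Y b).IsHermitian := hre_herm _
  rw [vecMul_vecMul, Matrix.sub_mul, Matrix.smul_mul, mul_nonsing_inv _ hd,
    ← (h.logd_eq hΛ hg ⟨hab, le_rfl⟩).1, vecMul_sub, vecMul_smul, vecMul_one, star_sub,
    star_vecMul, star_smul, star_star, sub_eq_zero, h8.eq] at h7
  rw [h7]; simp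

end Lin

end Vale.Agent.P371
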