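import Vale.Agent.P371.Alg

/-! Existence and smoothness of the solution of the algebraic Riccati system. -/

open Matrix Set Filter Topology Complex
open scoped ComplexOrder MatrixOrder Matrix.Norms.L2Operator

namespace Vale.Agent.P371

variable {N : ℕ}

/-- conjugate transpose as a real continuous linear map -/
noncomputable def ctL (N : ℕ) : Mat N →L[ℝ] Mat N :=
  LinearMap.toContinuousLinearMap
    { toFun := fun A => Aᴴ, map_add' := conjTranspose_add,
      map_smul' := fun c A => by simp }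

@[simp] lemma ctL_apply (A : Mat N) : ctL N A = Aᴴ := rfl

noncomputable def hre (N : ℕ) : Mat N →L[ℝ] Mat N :=
  (1 / 2 : ℝ) • (ContinuousLinearMap.id ℝ (Mat N) + ctL N)

/-- multiplication by a complex scalar as a real continuous linear map -/
noncomputable def csmul (N : ℕ) (c : ℂ) : Mat N →L[ℝ] Mat N :=
  LinearMap.toContinuousLinearMap
    { toFun := fun A => c • A, map_add' := smul_add c,
      map_smul' := fun r A => by simp [smul_comm r c] }

@[simp] lemma csmul_apply (c : ℂ) (A : Mat N) : csmul N c A = c • A := rfl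

noncomputable def him (N : ℕ) : Mat N →L[ℝ] Mat N := (hre N).comp (csmul N (-I))

lemma hre_apply (A : Mat N) : hre N A = (1 / 2 : ℝ) • (A + Aᴴ) := rfl

lemma him_apply (A : Mat N) : him N A = hre N ((-I) • A) := rfl

lemma hre_herm (A : Mat N) : (hre N A).IsHermitian := by
  unfold IsHermitian
  simp [hre_apply, add_comm]

lemma him_herm (A : Mat N) : (him N A).IsHermitian := hre_herm _

lemma hre_of_herm {A : Mat N} (hA : A.IsHermitian) : hre N A = A := by
  rw [hre_apply, hA.eq, ← two_smul ℝ A, smul_smul]; simp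

lemma hre_add_him (A : Mat N) : hre N A + I • him N A = A := by
  ext i j
  simp [hre_apply, him_apply]
  linear_combination (-(A i j) / 2 + (starRingEnd ℂ) (A j i) / 2) * I_mul_I

lemma hre_pair {A B : Mat N} (hA : A.IsHermitian) (hB : B.IsHermitian) :
    hre N (A + I • B) = A := by
  rw [hre_apply, Z_star hA hB]
  have : A + I • B + (A - I • B) = (2 : ℝ) • A := by rw [two_smul]; abel
  rw [this, smul_smul]; simp

lemma him_pair {A B : Mat N} (hA : A.IsHermitian) (hB : B.IsHermitian) :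
    him N (A + I • B) = B := by
  have : (-I) • (A + I • B) = B + I • (-A) := by
    simp [smul_add, smul_smul, add_comm]
  rw [him_apply, this, hre_pair hB hA.neg]

lemma pair_eq_zero {A B : Mat N} (hA : A.IsHermitian) (hB : B.IsHermitian)
    (h : A + I • B = 0) : A = 0 ∧ B = 0 :=
  ⟨by rw [← hre_pair hA hB, h, map_zero], by rw [← him_pair hA hB, h, map_zero]⟩

noncomputable def FF (u : (Mat N × Mat N) × Mat N) : Mat N :=
  (E1 (hre N u.1.2) (hre N u.2) - hre N u.1.1) +
    I • (E2 (hre N u.1.2) (hre N u.2) (him N u.2) - (2 : ℂ) • 1)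

lemma contDiff_FF : ContDiff ℝ 1 (FF (N := N)) := by
  unfold FF E1 E2
  fun_prop

lemma two_herm : ((2 : ℂ) • (1 : Mat N)).IsHermitian := by
  unfold IsHermitian; simp

lemma isSol_of_FF {u : (Mat N × Mat N) × Mat N} (h : FF u = 0) (hg : (him N u.2).PosDef) :
    IsSol (hre N u.1.1) (hre N u.1.2) (hre N u.2) (him N u.2) := by
  obtain ⟨h1, h2⟩ := pair_eq_zero ((E1_herm (hre_herm _) (hre_herm _)).sub (hre_herm _))
    ((E2_herm (hre_herm _) (hre_herm _) (him_herm _)).sub two_herm) h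
  exact ⟨hre_herm _, hre_herm _, hg, sub_eq_zero.mp h1, sub_eq_zero.mp h2⟩

lemma hasDerivAt_csmul {A : ℝ → Mat N} {A' : Mat N} {x : ℝ} (h : HasDerivAt A A' x) (c : ℂ) :
    HasDerivAt (fun y => c • A y) (c • A') x :=
  (csmul N c).hasFDerivAt.comp_hasDerivAt x h

lemma hasDerivAt_E1 {M Γ : ℝ → Mat N} {M' Γ' : Mat N} {x : ℝ} (hM : HasDerivAt M M' x)
    (hΓ : HasDerivAt Γ Γ' x) :
    HasDerivAt (fun y => E1 (M y) (Γ y))
      (Γ' * Γ x + Γ x * Γ' + I • (M' * Γ x + M x * Γ' - (Γ' * M x + Γ x * M'))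
        + (M' * M x + M x * M')) x :=
  ((hΓ.mul hΓ).add (hasDerivAt_csmul ((hM.mul hΓ).sub (hΓ.mul hM)) I)).add (hM.mul hM)

lemma hasDerivAt_E2 {M : Mat N} {Γ g : ℝ → Mat N} {Γ' g' : Mat N} {x : ℝ}
    (hΓ : HasDerivAt Γ Γ' x) (hg : HasDerivAt g g' x) :
    HasDerivAt (fun y => E2 M (Γ y) (g y))
      (Γ' * g x + Γ x * g' + (g' * Γ x + g x * Γ') - I • (M * g' - g' * M)) x :=
  ((hΓ.mul hg).add (hg.mul hΓ)).sub
    (hasDerivAt_csmul ((hg.const_mul M).sub (hg.mul_const M)) I)

lemma FF_invertible {E M Γ g : Mat N} (h : IsSol E M Γ g) :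
    (fderiv ℝ FF ((E, M), Γ + I • g) ∘L .inr ℝ (Mat N × Mat N) (Mat N)).IsInvertible := by
  set L := fderiv ℝ FF ((E, M), Γ + I • g) ∘L .inr ℝ (Mat N × Mat N) (Mat N) with hL
  have hinj : Function.Injective L := by
    rw [injective_iff_map_eq_zero]
    intro δ hδ
    have hp : HasDerivAt (fun s : ℝ => (((E, M), Γ + I • g + s • δ) : (Mat N × Mat N) × Mat N))
        (0, δ) 0 := by
      refine (hasDerivAt_const _ _).prodMk ?_
      simpa using ((hasDerivAt_id (0 : ℝ)).smul_const δ).const_add (Γ + I • g)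
    have h1 := HasFDerivAt.comp_hasDerivAt (l := FF) (0 : ℝ)
      (by simpa using (contDiff_FF.differentiable one_ne_zero ((E, M), Γ + I • g)).hasFDerivAt) hp
    have h1' : fderiv ℝ FF ((E, M), Γ + I • g) (0, δ) = 0 := hδ
    rw [h1'] at h1
    have hq : HasDerivAt (fun s : ℝ => Γ + I • g + s • δ) δ 0 := by
      simpa using ((hasDerivAt_id (0 : ℝ)).smul_const δ).const_add (Γ + I • g)
    have hΓ := (hre N).hasFDerivAt.comp_hasDerivAt (0 : ℝ) hq
    have hg := (him N).hasFDerivAt.comp_hasDerivAt (0 : ℝ) hq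
    have h2 := ((hasDerivAt_E1 (hasDerivAt_const (0 : ℝ) (hre N M)) hΓ).sub_const (hre N E)).add
      (hasDerivAt_csmul ((hasDerivAt_E2 (M := hre N M) hΓ hg).sub_const ((2 : ℂ) • 1)) I)
    have h3 := h1.unique h2
    simp only [Function.comp, zero_smul, add_zero, hre_pair h.hΓ h.hg.1, him_pair h.hΓ h.hg.1,
      hre_of_herm h.hM, Matrix.zero_mul, Matrix.mul_zero, zero_add] at h3
    have hA : (hre N δ * Γ + Γ * hre N δ + I • (M * hre N δ - hre N δ * M)).IsHermitian := by
      unfold IsHermitian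
      simp only [conjTranspose_add, conjTranspose_mul, conjTranspose_smul, conjTranspose_sub,
        h.hM.eq, h.hΓ.eq, (hre_herm δ).eq, RCLike.star_def, conj_I, neg_smul, ← smul_neg, neg_sub,
        add_comm]
    have hB : (hre N δ * g + Γ * him N δ + (him N δ * Γ + g * hre N δ) -
        I • (M * him N δ - him N δ * M)).IsHermitian := by
      unfold IsHermitian
      simp only [conjTranspose_add, conjTranspose_mul, conjTranspose_smul, conjTranspose_sub,
        h.hM.eq, h.hΓ.eq, h.hg.1.eq, (hre_herm δ).eq, (him_herm δ).eq, RCLike.star_def, conj_I,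
        neg_smul, ← smul_neg, neg_sub]
      abel
    obtain ⟨h4, h5⟩ := pair_eq_zero hA hB h3.symm
    have h6 : hre N δ = 0 := h.inj1 (by rw [← h4]; abel)
    rw [h6] at h5
    have h7 : him N δ = 0 := h.inj2 (by rw [← h5]; simp [E2])
    rw [← hre_add_him δ, h6, h7]; simp
  exact ⟨(LinearEquiv.ofInjectiveEndo (L : Mat N →ₗ[ℝ] Mat N) hinj).toContinuousLinearEquiv,
    by ext1 v; rfl⟩

open Classical in
/-- the solution, encoded as one complex matrix -/
noncomputable def sol (p : Mat N × Mat N) : Mat N :=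
  if h : ∃ X, IsSol (hre N p.1) (hre N p.2) (hre N X) (him N X) then h.choose else 0

lemma sol_eq {p : Mat N × Mat N} {X : Mat N}
    (h : IsSol (hre N p.1) (hre N p.2) (hre N X) (him N X)) : sol p = X := by
  have h0 : ∃ X, IsSol (hre N p.1) (hre N p.2) (hre N X) (him N X) := ⟨X, h⟩
  rw [sol, dif_pos h0]
  obtain ⟨h1, h2⟩ := h.unique h0.choose_spec
  rw [← hre_add_him h0.choose, h1, h2, hre_add_him]

lemma IsSol.hE {E M Γ g : Mat N} (h : IsSol E M Γ g) : E.IsHermitian :=
  h.e1 ▸ E1_herm h.hM h.hΓ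

lemma IsSol.enc {E M Γ g : Mat N} (h : IsSol E M Γ g) :
    IsSol (hre N E) (hre N M) (hre N (Γ + I • g)) (him N (Γ + I • g)) := by
  rwa [hre_of_herm h.hE, hre_of_herm h.hM, hre_pair h.hΓ h.hg.1, him_pair h.hΓ h.hg.1]

lemma IsSol.local {E M Γ g : Mat N} (h : IsSol E M Γ g) :
    (∀ᶠ p in 𝓝 (E, M), IsSol (hre N p.1) (hre N p.2) (hre N (sol p)) (him N (sol p))) ∧
      DifferentiableAt ℝ sol (E, M) := by
  have cdf : ContDiffAt ℝ 1 FF ((E, M), Γ + I • g) := contDiff_FF.contDiffAt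
  set ψ := cdf.implicitFunction one_ne_zero (FF_invertible h)
  have h0 : ψ (E, M) = Γ + I • g := cdf.implicitFunction_apply_self one_ne_zero (FF_invertible h)
  have h1 := cdf.eventually_apply_implicitFunction one_ne_zero (FF_invertible h)
  have h2 : DifferentiableAt ℝ ψ (E, M) :=
    (cdf.hasStrictFDerivAt_implicitFunction one_ne_zero (FF_invertible h)).differentiableAt
  have hF : FF ((E, M), Γ + I • g) = 0 := by
    simp only [FF, h.enc.e1, h.enc.e2, sub_self, smul_zero, add_zero]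
  have h3 : ∀ᶠ p in 𝓝 (E, M), (him N (ψ p)).PosDef := by
    have hc : ContinuousAt (fun p => him N (ψ p)) (E, M) :=
      (him N).continuous.continuousAt.comp h2.continuousAt
    have := hc.eventually (eventually_posDef (A := him N (ψ (E, M))) (by rw [h0]; exact h.enc.hg))
    filter_upwards [this] with p hp using hp (him_herm _)
  have h4 : ∀ᶠ p in 𝓝 (E, M), IsSol (hre N p.1) (hre N p.2) (hre N (ψ p)) (him N (ψ p)) := by
    filter_upwards [h1, h3] with p hp hp'
    exact isSol_of_FF (u := (p, ψ p)) (hp.trans hF) hp'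
  have h5 : sol =ᶠ[𝓝 (E, M)] ψ := by
    filter_upwards [h4] with p hp using sol_eq hp
  refine ⟨?_, h2.congr_of_eventuallyEq h5⟩
  filter_upwards [h4, h5] with p hp hp'
  rwa [hp']

lemma no_real_eig {Z h : Mat N} (hh : h.PosSemidef) (h0 : h ≠ 0) (hZ : Z * h = h * Zᴴ) :
    ∃ (μ : ℝ) (v : Fin N → ℂ), v ≠ 0 ∧ Z *ᵥ v = (μ : ℂ) • v := by
  set V := LinearMap.range (toLin' h)
  have hinv : ∀ v ∈ V, toLin' Z v ∈ V := by
    rintro _ ⟨w, rfl⟩
    refine ⟨Zᴴ *ᵥ w, ?_⟩
    simp [mulVec_mulVec, hZ]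
  have : Nontrivial V := by
    rw [Submodule.nontrivial_iff_ne_bot]
    intro hb
    apply h0
    rw [LinearMap.range_eq_bot] at hb
    exact toLin'.injective (by rw [hb, map_zero])
  obtain ⟨z, hz⟩ := Module.End.exists_eigenvalue ((toLin' Z).restrict hinv)
  obtain ⟨⟨v, w, rfl⟩, hv⟩ := hz.exists_hasEigenvector
  have hv0 : h *ᵥ w ≠ 0 := fun h' => hv.2 (Subtype.ext (by simpa using h'))
  have hv1 : Z *ᵥ (h *ᵥ w) = z • (h *ᵥ w) := by
    have := congrArg Subtype.val hv.apply_eq_smul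
    simpa using this
  have hN : (Z * h).IsHermitian := by
    unfold IsHermitian
    rw [conjTranspose_mul, hh.1.eq, hZ]
  have h1 := hN.im_star_dotProduct_mulVec_self w
  rw [← mulVec_mulVec, hv1, dotProduct_smul, smul_eq_mul] at h1
  have h2 := hh.1.im_star_dotProduct_mulVec_self w
  have h3 : star w ⬝ᵥ h *ᵥ w ≠ 0 := fun h' => hv0 ((hh.dotProduct_mulVec_zero_iff w).mp h')
  simp only [RCLike.im_to_complex, mul_im] at h1 h2
  rw [h2, mul_zero, zero_add] at h1
  have h4 : (star w ⬝ᵥ h *ᵥ w).re ≠ 0 := fun h' => h3 (Complex.ext h' h2)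
  have h5 : z.im = 0 := (mul_eq_zero.mp h1).resolve_right h4
  refine ⟨z.re, h *ᵥ w, hv0, ?_⟩
  rw [hv1]
  congr 1
  exact Complex.ext rfl (by simpa using h5)

lemma Q_posDef {Λ M : Mat N} (h1 : (Λ - M).PosSemidef) (h2 : (Λ + M).PosSemidef)
    (hΛ : Λ.IsHermitian) {t : ℝ} (ht : 0 < t) (μ : ℝ) :
    (Λ * Λ + t • 1 + (μ ^ 2) • 1 - (2 * μ) • M).PosDef := by
  have hs : ∀ c : ℝ, ((Λ - c • 1) * (Λ - c • 1)).PosSemidef := fun c => by
    have := posSemidef_conjTranspose_mul_self (Λ - c • (1 : Mat N))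
    rwa [conjTranspose_sub, hΛ.eq, conjTranspose_smul, conjTranspose_one, star_trivial] at this
  have ht' : (t • (1 : Mat N)).PosDef := PosDef.one.smul ht
  rcases le_total 0 μ with hμ | hμ
  · have := (ht'.add_posSemidef (hs μ)).add_posSemidef (h1.smul (a := 2 * μ) (by positivity))
    refine (congrArg PosDef ?_).mp this
    simp only [Matrix.sub_mul, Matrix.mul_sub, Matrix.mul_smul, Matrix.smul_mul, Matrix.mul_one,
      Matrix.one_mul]
    module
  · have := (ht'.add_posSemidef (hs (-μ))).add_posSemidef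
      (h2.smul (a := -(2 * μ)) (by linarith))
    refine (congrArg PosDef ?_).mp this
    simp only [Matrix.sub_mul, Matrix.mul_sub, Matrix.mul_smul, Matrix.smul_mul, Matrix.mul_one,
      Matrix.one_mul]
    module

lemma isSol_end {Λ : Mat N} (hΛ : Λ.IsHermitian) {t : ℝ} (ht : 0 < t) :
    IsSol (Λ * Λ + t • 1) Λ ((√t) • 1) ((√t)⁻¹ • 1) := by
  have hs : 0 < √t := Real.sqrt_pos.mpr ht
  refine ⟨hΛ, by unfold IsHermitian; simp, PosDef.one.smul (inv_pos.mpr hs), ?_, ?_⟩
  · simp only [E1, Matrix.mul_smul, Matrix.smul_mul, Matrix.mul_one, Matrix.one_mul, sub_self,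
      smul_zero, add_zero, smul_smul, Real.mul_self_sqrt ht.le]
    exact add_comm _ _
  · simp only [E2, Matrix.mul_smul, Matrix.smul_mul, Matrix.mul_one, Matrix.one_mul, sub_self,
      smul_zero, sub_zero, smul_smul, mul_inv_cancel₀ hs.ne', inv_mul_cancel₀ hs.ne', one_smul,
      two_smul]

lemma exists_sol {Λ M : Mat N} (h1 : (Λ - M).PosSemidef) (h2 : (Λ + M).PosSemidef)
    (hΛ : Λ.IsHermitian) {t : ℝ} (ht : 0 < t) :
    ∃ Γ g, IsSol (Λ * Λ + t • 1) M Γ g := by
  set E : Mat N := Λ * Λ + t • 1 with hE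
  have hM : M.IsHermitian := by
    have := hΛ.sub h1.1
    rwa [sub_sub_cancel] at this
  have hΛp : Λ.PosSemidef := by
    have := (h1.add h2).smul (a := (1 / 2 : ℝ)) (by norm_num)
    refine (congrArg PosSemidef ?_).mp this
    module
  let Ms : ℝ → Mat N := fun s => Λ + s • (M - Λ)
  have hMs : ∀ s, (Ms s).IsHermitian := fun s => by
    unfold IsHermitian; simp [Ms, hΛ.eq, hM.eq]
  let S : Set ℝ := {s | ∃ Γ g, IsSol E (Ms s) Γ g}
  let K : Set (ℝ × Mat N × Mat N × ℝ) := {u | u.1 ∈ Icc (0 : ℝ) 1 ∧ u.2.1.IsHermitian ∧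
    u.2.2.1.PosSemidef ∧ 0 ≤ u.2.2.2 ∧ E1 (Ms u.1) u.2.1 = E ∧
    E2 (Ms u.1) u.2.1 u.2.2.1 = (2 * u.2.2.2) • 1 ∧ rtr (u.2.2.1ᴴ * u.2.2.1) + u.2.2.2 ^ 2 = 1}
  have hKc : IsClosed K := by
    simp only [K, ofPred_and]
    refine (isClosed_Icc.preimage continuous_fst).inter
      ((isClosed_herm.preimage (by fun_prop)).inter ((isClosed_psd.preimage (by fun_prop)).inter
      ((isClosed_le continuous_const (by fun_prop)).inter ((isClosed_eq ?_ continuous_const).inter
      ((isClosed_eq ?_ (by fun_prop)).inter (isClosed_eq (by fun_prop) continuous_const))))))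
    · simp only [E1, Ms]; fun_prop
    · simp only [E2, Ms]; fun_prop
  have hK : IsCompact K := by
    refine IsCompact.of_isClosed_subset (isCompact_Icc (a := (0 : ℝ)) (b := 1) |>.prod
      ((isCompact_frob (rtr E)).prod ((isCompact_frob 1).prod
        (isCompact_Icc (a := (0 : ℝ)) (b := 1))))) hKc ?_
    rintro ⟨s, Γ, h, r⟩ ⟨a1, a2, a3, a4, a5, a6, a7⟩
    have b1 := rtr_nonneg (posSemidef_conjTranspose_mul_self h)
    refine ⟨a1, ?_, ?_, a4, ?_⟩
    · have b2 := rtr_E1 (Ms s) Γ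
      have b3 := rtr_nonneg (posSemidef_conjTranspose_mul_self (Ms s))
      simp only at a2 a5
      rw [(hMs s).eq] at b3
      rw [a5, rtr_sub] at b2
      simp only [mem_ofPred_eq, a2.eq]
      linarith
    · simp only [mem_ofPred_eq] at a7 ⊢
      nlinarith [sq_nonneg r]
    · simp only at a4 a7 ⊢
      nlinarith
  have hSK : S ∩ Icc 0 1 = Prod.fst '' K := by
    ext s
    constructor
    · rintro ⟨⟨Γ, g, hs⟩, hs1⟩
      have b1 := rtr_nonneg (posSemidef_conjTranspose_mul_self g)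
      set r : ℝ := (√(1 + rtr (gᴴ * g)))⁻¹ with hr
      have hr0 : 0 ≤ r := by positivity
      refine ⟨(s, Γ, r • g, r), ⟨hs1, hs.hΓ, hs.hg.posSemidef.smul hr0, hr0, hs.e1, ?_, ?_⟩, rfl⟩
      · have := congrArg (fun Y => r • Y) hs.e2
        simp only [E2, Matrix.mul_smul, Matrix.smul_mul, smul_sub, smul_add,
          smul_comm r I] at this ⊢
        rw [this, two_smul]
        module
      · simp only [conjTranspose_smul, star_trivial, Matrix.mul_smul, Matrix.smul_mul, rtr_smul]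
        have : r ^ 2 * (1 + rtr (gᴴ * g)) = 1 := by
          rw [hr, inv_pow, Real.sq_sqrt (by linarith), inv_mul_cancel₀ (by linarith)]
        linarith
    · rintro ⟨⟨s, Γ, h, r⟩, ⟨a1, a2, a3, a4, a5, a6, a7⟩, rfl⟩
      simp only at a1 a2 a3 a4 a5 a6 a7 ⊢
      refine ⟨?_, a1⟩
      rcases a4.eq_or_lt with hr | hr
      · exfalso
        subst hr
        have b0 : h ≠ 0 := by rintro rfl; simp at a7
        have b1 := Zg_eq (Ms s) Γ h
        rw [a6, mul_zero, zero_smul, smul_zero, sub_eq_zero, ← Z_star (hMs s) a2] at b1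
        obtain ⟨μ, v, hv, hZ⟩ := no_real_eig a3 b0 b1
        have b2 : (Λ - Ms s).PosSemidef := by
          refine (congrArg PosSemidef ?_).mp (h1.smul a1.1)
          simp only [Ms]; module
        have b3 : (Λ + Ms s).PosSemidef := by
          refine (congrArg PosSemidef ?_).mp ((h2.smul a1.1).add
            (hΛp.smul (a := 2 * (1 - s)) (by linarith [a1.2])))
          simp only [Ms]; module
        have b4 := (Q_posDef b2 b3 hΛ ht μ).dotProduct_mulVec_pos hv
        have b5 : Λ * Λ + t • 1 + (μ ^ 2) • 1 - (2 * μ) • Ms s =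
            (μ • 1 - (Ms s - I • Γ)) * (μ • 1 - (Ms s + I • Γ)) := by
          rw [← hE, ← a5, ← ZZ_eq]
          simp only [Matrix.sub_mul, Matrix.mul_sub (μ • (1 : Mat N)),
            Matrix.mul_sub (Ms s - I • Γ), Matrix.mul_smul, Matrix.smul_mul, Matrix.mul_one,
            Matrix.one_mul]
          module
        have b6 : (μ • 1 - (Ms s + I • Γ)) *ᵥ v = 0 := by
          rw [sub_mulVec, hZ, smul_mulVec, one_mulVec]
          ext i; simp
        rw [b5, ← mulVec_mulVec, b6] at b4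
        simp at b4
      · have e2 : E2 (Ms s) Γ (r⁻¹ • h) = (2 : ℂ) • 1 := by
          have := congrArg (fun Y => r⁻¹ • Y) a6
          simp only [E2, Matrix.mul_smul, Matrix.smul_mul, smul_sub, smul_add,
            smul_comm r⁻¹ I] at this ⊢
          rw [this, smul_smul, show r⁻¹ * (2 * r) = 2 by field_simp, two_smul, two_smul]
        have hp : (r⁻¹ • h).PosSemidef := a3.smul (inv_pos.mpr hr).le
        refine ⟨Γ, r⁻¹ • h, hMs s, a2, ?_, a5, e2⟩
        refine PosDef.of_dotProduct_mulVec_pos hp.1 fun v hv => ?_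
        refine lt_of_le_of_ne (hp.dotProduct_mulVec_nonneg v) fun h0 => hv ?_
        have b1 := (hp.dotProduct_mulVec_zero_iff v).mp h0.symm
        have b2 : star v ᵥ* (r⁻¹ • h) = 0 := by
          rw [← hp.1.eq, ← star_mulVec, b1, star_zero]
        have b3 := congrArg (fun Y => star v ⬝ᵥ Y *ᵥ v) e2
        simp only [E2, sub_mulVec, add_mulVec, smul_mulVec _ (_ - _), ← mulVec_mulVec, b1,
          mulVec_zero, dotProduct_add, dotProduct_sub, dotProduct_smul, dotProduct_zero,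
          dotProduct_mulVec _ (r⁻¹ • h), b2, zero_dotProduct, smul_mulVec _ (1 : Mat N),
          one_mulVec] at b3
        simpa [dotProduct_star_self_eq_zero] using b3
  have hfin : (1 : ℝ) ∈ S := by
    refine IsClosed.mem_of_ge_of_forall_exists_gt (a := 0)
      (hSK ▸ (hK.image continuous_fst).isClosed) ?_ zero_le_one ?_
    · exact ⟨_, _, by simpa [Ms] using isSol_end hΛ ht⟩
    · rintro s ⟨⟨Γ, g, hs⟩, hs1⟩
      have hc : ContinuousAt (fun s => (E, Ms s)) s := by simp only [Ms]; fun_prop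
      have h3 := hc.eventually hs.local.1
      have h4 : ∀ᶠ y in 𝓝[>] s, y ∈ S ∩ Ioc s 1 := by
        filter_upwards [nhdsWithin_le_nhds h3, Ioc_mem_nhdsGT hs1.2] with y hy hy'
        rw [hre_of_herm hs.hE, hre_of_herm (hMs y)] at hy
        exact ⟨⟨_, _, hy⟩, hy'⟩
      exact h4.exists
  simpa [S, Ms] using hfin

/-! ### derivative identities -/

lemma herm_deriv {A : ℝ → Mat N} {A' : Mat N} {x : ℝ} (h : HasDerivAt A A' x)
    (hA : ∀ᶠ y in 𝓝 x, (A y).IsHermitian) : A'.IsHermitian := by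
  have h1 := (ctL N).hasFDerivAt.comp_hasDerivAt x h
  have h2 : (ctL N) ∘ A =ᶠ[𝓝 x] A := by
    filter_upwards [hA] with y hy using hy.eq
  exact (h1.congr_of_eventuallyEq h2.symm).unique h

lemma IsSol.deriv_t {E M Γ g Γ' : Mat N} (h : IsSol E M Γ g)
    (hd : Γ' * Γ + Γ * Γ' + I • (M * Γ' - Γ' * M) = 1) : 2 * rtr Γ' = rtr g := by
  have h2 := congrArg (fun Y => (g * Y).trace) hd
  have h3 := congrArg (fun Y => (Γ' * Y).trace) h.e2
  have e1 : (Γ' * (Γ * g)).trace = (g * (Γ' * Γ)).trace := by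
    rw [← Matrix.mul_assoc, trace_mul_comm]
  have e2 : (Γ' * (g * Γ)).trace = (g * (Γ * Γ')).trace := by
    rw [trace_mul_comm, Matrix.mul_assoc]
  have e3 : (Γ' * (M * g)).trace = (g * (Γ' * M)).trace := by
    rw [← Matrix.mul_assoc, trace_mul_comm]
  have e4 : (Γ' * (g * M)).trace = (g * (M * Γ')).trace := by
    rw [trace_mul_comm, Matrix.mul_assoc]
  simp only [E2, Matrix.mul_add, Matrix.mul_sub, Matrix.mul_smul, trace_add, trace_sub,
    trace_smul, e1, e2, e3, e4, Matrix.mul_one, smul_eq_mul] at h2 h3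
  have h4 : 2 * Γ'.trace = g.trace := by linear_combination h2 - h3
  have := congrArg Complex.re h4
  simpa [rtr] using this

lemma rtr_herm_mul {A B : Mat N} (hA : A.IsHermitian) (hB : B.IsHermitian) :
    (A * B).trace = (rtr (A * B) : ℂ) := by
  have h : star (A * B).trace = (A * B).trace := by
    rw [← trace_conjTranspose, conjTranspose_mul, hA.eq, hB.eq, trace_mul_comm]
  exact (Complex.conj_eq_iff_re.mp h).symm

lemma IsSol.deriv_x {E M Γ g M' Γ' : Mat N} (h : IsSol E M Γ g) (hE : E.PosDef)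
    (hM' : M'.IsHermitian) (hΓ' : Γ'.IsHermitian)
    (hd : Γ' * Γ + Γ * Γ' + I • (M' * Γ + M * Γ' - (Γ' * M + Γ * M')) + (M' * M + M * M') = 0) :
    IsUnit (M + I • Γ).det ∧
      ((M + I • Γ)⁻¹ * (M' + I • Γ')).trace = -I * (rtr (g * M') : ℂ) := by
  set Z := M + I • Γ with hZ
  set Z' := M' + I • Γ' with hZ'
  have hu : IsUnit Z.det := by
    have := hE.isUnit
    rw [← h.ZZ] at this
    exact (isUnit_iff_isUnit_det _).mp (isUnit_of_mul_isUnit_right this)
  refine ⟨hu, ?_⟩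
  have hd' : Zᴴ * Z' + Z'ᴴ * Z = 0 := by
    rw [← hd, hZ, hZ', Z_star h.hM h.hΓ, Z_star hM' hΓ']
    simp only [Matrix.sub_mul, Matrix.mul_add, Matrix.mul_smul, Matrix.smul_mul, smul_sub,
      smul_add, smul_smul, I_mul_I, neg_smul, one_smul]
    abel
  have k1 : Z⁻¹ᴴ * Zᴴ = 1 := by rw [← conjTranspose_mul, mul_nonsing_inv _ hu, conjTranspose_one]
  have k2 : Z * Z⁻¹ = 1 := mul_nonsing_inv _ hu
  have k3 : Z⁻¹ * Z = 1 := nonsing_inv_mul _ hu
  have key : ∀ Y : Mat N, Y.IsHermitian → ((Z⁻¹ * Y * Z').trace).re = 0 := by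
    intro Y hY
    have h1 := congrArg (fun X => (Z⁻¹ * Y * Z⁻¹ᴴ * X).trace) hd'
    simp only [Matrix.mul_add, trace_add, Matrix.mul_zero, trace_zero] at h1
    have e1 : Z⁻¹ * Y * Z⁻¹ᴴ * (Zᴴ * Z') = Z⁻¹ * Y * Z' := by
      rw [Matrix.mul_assoc, ← Matrix.mul_assoc Z⁻¹ᴴ, k1, Matrix.one_mul]
    have e2 : (Z⁻¹ * Y * Z⁻¹ᴴ * (Z'ᴴ * Z)).trace = star (Z⁻¹ * Y * Z').trace := by
      rw [← trace_conjTranspose, conjTranspose_mul, conjTranspose_mul, hY.eq, trace_mul_comm,
        Matrix.mul_assoc, ← Matrix.mul_assoc Z, ← Matrix.mul_assoc Z, k2, Matrix.one_mul]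
    rw [e1, e2] at h1
    have := congrArg Complex.re h1
    simp at this
    linarith
  have hN : (Z * g - I • 1).IsHermitian := by
    unfold IsHermitian
    have := h.lyap
    rw [← hZ, sub_eq_iff_eq_add] at this
    rw [conjTranspose_sub, conjTranspose_mul, h.hg.1.eq, this]
    simp only [conjTranspose_smul, conjTranspose_one, RCLike.star_def, conj_I]
    module
  have h1 := key 1 isHermitian_one
  have h2 := key _ hN
  rw [Matrix.mul_one] at h1
  rw [Matrix.mul_sub, ← Matrix.mul_assoc, k3, Matrix.one_mul, Matrix.mul_smul, Matrix.mul_one,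
    Matrix.sub_mul, Matrix.smul_mul, trace_sub, trace_smul, hZ', Matrix.mul_add g,
    Matrix.mul_smul, trace_add, trace_smul, rtr_herm_mul h.hg.1 hM', rtr_herm_mul h.hg.1 hΓ',
    ← hZ'] at h2
  apply Complex.ext
  · simpa using h1
  · simp at h2 ⊢
    linarith

end Vale.Agent.P371
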