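import Vale.Agent.P371.ODE

/-! The threshold shift and its continuity. -/

open Matrix Set Filter Topology MeasureTheory
open scoped ComplexOrder MatrixOrder Matrix.Norms.L2Operator

namespace Vale.Agent.P371

variable {N : ℕ}

lemma norm_sub_psd {A : Mat N} (hA : A.IsHermitian) {C : ℝ} (hC : ‖A‖ ≤ C) :
    (C • (1 : Mat N) - A).PosSemidef := by
  have h1 : (‖A‖ • (1 : Mat N) - A).PosSemidef := by
    have := IsSelfAdjoint.le_algebraMap_norm_self (a := A) hA
    rw [Algebra.algebraMap_eq_smul_one] at this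
    exact this
  refine (congrArg PosSemidef ?_).mp (h1.add (PosSemidef.one.smul (sub_nonneg.mpr hC)))
  module

namespace Lin

variable {Λ : Mat N} {V U Y U' Y' : ℝ → Mat N} {a b δ : ℝ}

lemma herm (h : Lin Λ V U Y a b) (hΛ : Λ.IsHermitian) (hV : ∀ x, (V x).IsHermitian) {x : ℝ}
    (hx : x ∈ Icc a b) : ((U x)ᴴ * (Y x + Λ * U x)).IsHermitian := by
  have h1 := herm_of_deriv (G := fun x => (U x)ᴴ * Y x)
    (fun x hx => (hasDerivAt_ct (h.dU x hx)).mul (h.dY x hx)) (fun x _ => by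
      refine (isHermitian_conjTranspose_mul_self _).add ?_
      rw [← Matrix.mul_assoc]
      exact isHermitian_conjTranspose_mul_mul _ ((sq_psd hΛ).1.sub (hV x))) hx
  rw [h.U0, h.Y0, conjTranspose_one, Matrix.one_mul] at h1
  have h2 := (h1.add hΛ).add (isHermitian_conjTranspose_mul_mul (U x) hΛ)
  rwa [sub_add_cancel, Matrix.mul_assoc, ← Matrix.mul_add] at h2

lemma strict (h' : Lin (Λ + δ • 1) V U' Y' a b) {M : ℝ → Mat N} (h : Ric Λ M V a b)
    (hΛ : Λ.PosSemidef) (hδ : 0 < δ) {x : ℝ} (hx : x ∈ Icc a b) :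
    ((U' x)ᴴ * (Y' x + (Λ + δ • 1) * U' x)).PosDef := by
  have h1 := compare h'.dU h'.dY h.ode h.herm (fun x _ => by
    refine (congrArg PosSemidef ?_).mp ((hΛ.smul (a := 2 * δ) (by positivity)).add
      (PosSemidef.one.smul (a := δ ^ 2) (by positivity)))
    simp only [Matrix.add_mul, Matrix.mul_add, Matrix.mul_smul, Matrix.smul_mul, Matrix.mul_one,
      Matrix.one_mul]
    module) hx
  have h2 := ((PosDef.one.smul hδ).add_posSemidef h1).add_posSemidef
    (((h.lo x hx).add (PosSemidef.one.smul hδ.le)).conjTranspose_mul_mul_same (U' x))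
  refine (congrArg PosDef ?_).mp h2
  rw [h'.U0, h'.Y0, h.ha]
  simp only [conjTranspose_one, Matrix.one_mul, Matrix.mul_one, Matrix.mul_add, Matrix.add_mul,
    Matrix.mul_sub, Matrix.mul_assoc]
  abel

lemma good_of_large (h : Lin Λ V U Y a b) (hΛ : Λ.PosSemidef)
    (hq : ∀ x ∈ Icc a b, (Λ * Λ - V x).PosSemidef) : Good Λ U Y a b := by
  intro x hx
  have h1 := compare (M := fun _ => 0) (D := fun _ => 0) h.dU h.dY
    (fun x _ => hasDerivAt_const x _) (fun _ => isHermitian_zero) (fun x hx => by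
      simpa using hq x hx) hx
  have h2 := (h1.add hΛ).add (hΛ.conjTranspose_mul_mul_same (U x))
  refine (congrArg PosSemidef ?_).mp h2
  rw [h.U0, h.Y0]
  simp [Matrix.mul_add, Matrix.mul_assoc]

end Lin

theorem threshold {X : Type*} [TopologicalSpace X] [CompactSpace X] {Λ₀ : X → Mat N}
    {V : X → ℝ → Mat N} (hΛ : Continuous Λ₀) (hV : Continuous (Function.uncurry V))
    (pV : ∀ B x, (V B x).PosSemidef) {c ε a b : ℝ} (hab : a ≤ b)
    (hc : ∀ B, (Λ₀ B - c • 1).PosSemidef) (hε : 0 < ε) (hεc : ε ≤ c / 2)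
    (test : ∀ B σ M, -(c / 2) ≤ σ → σ ≤ -ε → ¬ Ric (Λ₀ B + σ • 1) M (V B) a b) :
    ∃ (σ : X → ℝ) (M : X → ℝ → Mat N), Continuous (fun B => Λ₀ B + σ B • 1 + M B b) ∧
      ∀ B, -ε ≤ σ B ∧ Ric (Λ₀ B + σ B • 1) (M B) (V B) a b ∧
        ¬ (Λ₀ B + σ B • 1 + M B b).PosDef ∧
        ∀ (ξ : Fin N → ℂ) (μ : ℝ), (Λ₀ B + σ B • 1) *ᵥ ξ = (μ : ℂ) • ξ →
          (∀ x, V B x *ᵥ ξ = 0) → M B b *ᵥ ξ = (μ : ℂ) • ξ := by
  obtain ⟨C, hC⟩ := (isCompact_univ.prod (isCompact_Icc (a := a) (b := b))).exists_bound_of_continuousOn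
    hV.continuousOn
  set s₀ := -(c / 2) with hs₀
  set s₁ := |C| + 1 with hs₁
  have hs1 : 0 < s₁ := by positivity
  have h02 : s₀ ≤ s₁ + 1 := by linarith
  obtain ⟨U, Y, cU, cY, hL⟩ := exists_lin (P := X × Icc s₀ (s₁ + 1))
    (Λ := fun p => Λ₀ p.1 + (p.2 : ℝ) • 1) (V := fun p => V p.1) (by fun_prop)
    (hV.comp (f := fun u : (X × Icc s₀ (s₁ + 1)) × ℝ => (u.1.1, u.2)) (by fun_prop)) hab
  let pr := projIcc s₀ (s₁ + 1) h02
  have cpr : Continuous pr := continuous_projIcc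
  have hL' : ∀ B, ∀ σ ∈ Icc s₀ (s₁ + 1),
      Lin (Λ₀ B + σ • 1) (V B) (U (B, pr σ)) (Y (B, pr σ)) a b := fun B σ hσ => by
    have := hL (B, pr σ)
    rwa [show ((pr σ : Icc s₀ (s₁ + 1)) : ℝ) = σ by simp [pr, projIcc_of_mem h02 hσ]] at this
  have hpsd : ∀ B σ, s₀ ≤ σ → (Λ₀ B + σ • 1).PosSemidef := fun B σ hσ => by
    refine (congrArg PosSemidef ?_).mp ((hc B).add (PosSemidef.one.smul (a := c + σ)
      (by linarith)))
    module
  let G : (X × ℝ) → ℝ → Mat N := fun p x =>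
    (U (p.1, pr p.2) x)ᴴ * (Y (p.1, pr p.2) x + (Λ₀ p.1 + p.2 • 1) * U (p.1, pr p.2) x)
  have cU' : Continuous fun u : (X × ℝ) × ℝ => U (u.1.1, pr u.1.2) u.2 :=
    cU.comp (f := fun u : (X × ℝ) × ℝ => ((u.1.1, pr u.1.2), u.2)) (by fun_prop)
  have cY' : Continuous fun u : (X × ℝ) × ℝ => Y (u.1.1, pr u.1.2) u.2 :=
    cY.comp (f := fun u : (X × ℝ) × ℝ => ((u.1.1, pr u.1.2), u.2)) (by fun_prop)
  have cG : Continuous fun u : (X × ℝ) × ℝ => G u.1 u.2 :=
    cU'.matrix_conjTranspose.mul (cY'.add (Continuous.mul (by fun_prop) cU'))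
  let K : Set (X × ℝ) := {p | p.2 ∈ Icc s₀ (s₁ + 1) ∧ ∀ x ∈ Icc a b, (G p x).PosSemidef}
  have hK : IsClosed K := by
    simp only [K, ofPred_and, ofPred_forall]
    refine (isClosed_Icc.preimage continuous_snd).inter
      (isClosed_iInter fun x => isClosed_iInter fun _ => isClosed_psd.preimage ?_)
    exact cG.comp (f := fun p : X × ℝ => (p, x)) (by fun_prop)
  have hopen : ∀ p, (∀ x ∈ Icc a b, (G p x).PosDef) →
      ∀ᶠ p' in 𝓝 p, p'.2 ∈ Icc s₀ (s₁ + 1) → p' ∈ K := by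
    intro p hp
    have := (isCompact_Icc (a := a) (b := b)).eventually_forall_of_forall_eventually (x₀ := p)
      (P := fun p' x => (G p' x).IsHermitian → (G p' x).PosDef)
      fun x hx => (cG.tendsto (p, x)).eventually (eventually_posDef (hp x hx))
    filter_upwards [this] with p' hp' h1
    exact ⟨h1, fun x hx => (hp' x hx ((hL' p'.1 p'.2 h1).herm (hpsd _ _ h1.1).1
      (fun x => (pV _ x).1) hx)).posSemidef⟩
  have hric : ∀ p ∈ K, Ric (Λ₀ p.1 + p.2 • 1) (logd (U (p.1, pr p.2)) (Y (p.1, pr p.2)))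
      (V p.1) a b := fun p hp =>
    (hL' p.1 p.2 hp.1).ric hab (hpsd _ _ hp.1.1).1 (fun x => (pV _ x).1) hp.2
  have h1K : ∀ B, (B, s₁) ∈ K := fun B => by
    have hm : s₁ ∈ Icc s₀ (s₁ + 1) := ⟨by linarith, by linarith⟩
    refine ⟨hm, (hL' B s₁ hm).good_of_large (hpsd _ _ hm.1) fun x hx => ?_⟩
    have h0 : (Λ₀ B).PosSemidef := by simpa using hpsd B 0 (by linarith)
    have h1 := norm_sub_psd (pV B x).1 (C := s₁ ^ 2) ((hC (B, x) ⟨trivial, hx⟩).trans
      (by nlinarith [le_abs_self C, abs_nonneg C]))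
    refine (congrArg PosSemidef ?_).mp (((sq_psd h0.1).add
      (h0.smul (a := 2 * s₁) (by positivity))).add h1)
    simp only [Matrix.add_mul, Matrix.mul_add, Matrix.mul_smul, Matrix.smul_mul, Matrix.mul_one,
      Matrix.one_mul]
    module
  let σ : X → ℝ := fun B => sInf {s | (B, s) ∈ K}
  have hbdd : ∀ B, BddBelow {s | (B, s) ∈ K} := fun B => ⟨s₀, fun s hs => hs.1.1⟩
  have hσK : ∀ B, (B, σ B) ∈ K := fun B =>
    (hK.preimage (f := fun s => (B, s)) (by fun_prop)).csInf_mem ⟨s₁, h1K B⟩ (hbdd B)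
  have hσle : ∀ B s, (B, s) ∈ K → σ B ≤ s := fun B s hs => csInf_le (hbdd B) hs
  have hσε : ∀ B, -ε < σ B := fun B =>
    lt_of_not_ge fun h => test B (σ B) _ (hσK B).1.1 h (hric _ (hσK B))
  have cσ : Continuous σ := by
    refine continuous_iff_continuousAt.mpr fun B => tendsto_order.mpr ⟨fun s hs => ?_, fun s hs => ?_⟩
    · have h1 : IsClosed (Prod.fst '' {p : X × Icc s₀ (s₁ + 1) | (p.1, (p.2 : ℝ)) ∈ K ∧
          (p.2 : ℝ) ≤ s}) := isClosedMap_fst_of_compactSpace _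
        ((hK.preimage (f := fun p : X × Icc s₀ (s₁ + 1) => (p.1, (p.2 : ℝ))) (by fun_prop)).inter
          (isClosed_le (continuous_subtype_val.comp continuous_snd) continuous_const))
      have h2 : B ∉ Prod.fst '' {p : X × Icc s₀ (s₁ + 1) | (p.1, (p.2 : ℝ)) ∈ K ∧
          (p.2 : ℝ) ≤ s} := by
        rintro ⟨p, ⟨hp1, hp2⟩, rfl⟩
        linarith [hσle _ _ hp1]
      filter_upwards [h1.isOpen_compl.mem_nhds h2] with B' hB'
      exact lt_of_not_ge fun h => hB' ⟨(B', ⟨σ B', (hσK B').1⟩), ⟨hσK B', h⟩, rfl⟩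
    · obtain ⟨s', h1, h2⟩ := exists_between (lt_min hs
        (show σ B < s₁ + 1 by linarith [hσle B _ (h1K B)]))
      have hm : s' ∈ Icc s₀ (s₁ + 1) := ⟨(hσK B).1.1.trans h1.le, (lt_min_iff.mp h2).2.le⟩
      have h3 := hopen (B, s') fun x hx => by
        have e : Λ₀ B + s' • (1 : Mat N) = Λ₀ B + σ B • 1 + (s' - σ B) • 1 := by module
        have := hL' B s' hm
        simp only [G]
        rw [e] at this ⊢
        exact this.strict (hric _ (hσK B)) (hpsd _ _ (hσK B).1.1) (sub_pos.mpr h1) hx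
      have h4 : Continuous fun B' : X => (B', s') := by fun_prop
      filter_upwards [h4.continuousAt.eventually h3] with B' hB'
      exact (hσle _ _ (hB' hm)).trans_lt (lt_min_iff.mp h2).1
  refine ⟨σ, fun B => logd (U (B, pr (σ B))) (Y (B, pr (σ B))), ?_, fun B =>
    ⟨(hσε B).le, hric _ (hσK B), fun hpd => ?_, fun ξ μ h1 h2 =>
      (hL' B _ (hσK B).1).kernel hab (hpsd _ _ (hσK B).1.1).1 (fun x => (pV _ x).1) (hσK B).2
        h1 h2⟩⟩
  · have c1 : Continuous fun B : X => ((B, σ B), b) := by fun_prop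
    refine Continuous.add (by fun_prop) ((hre N).continuous.comp ((cY'.comp c1).mul ?_))
    refine continuous_iff_continuousAt.mpr fun B => ?_
    obtain ⟨u, hu⟩ := (hL' B _ (hσK B).1).unit (hpsd _ _ (hσK B).1.1).1 (hσK B).2 ⟨hab, le_rfl⟩
    have h1 := NormedRing.inverse_continuousAt u
    rw [hu] at h1
    simp only [nonsing_inv_eq_ringInverse]
    exact ContinuousAt.comp (f := fun B => U (B, pr (σ B)) b) h1 (cU'.comp c1).continuousAt
  · have h3 := hopen (B, σ B) fun x hx => by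
      have h4 := (hric _ (hσK B)).back (pV B) hpd hx
      have hu := (hL' B _ (hσK B).1).unit (hpsd _ _ (hσK B).1.1).1 (hσK B).2 hx
      have h5 := pd_conj hu h4
      rwa [((hL' B _ (hσK B).1).logd_eq (hpsd _ _ (hσK B).1.1).1 (hσK B).2 hx).1, Matrix.add_mul,
        Matrix.mul_assoc (Y _ x), nonsing_inv_mul _ ((isUnit_iff_isUnit_det _).mp hu),
        Matrix.mul_one, add_comm _ (Y _ x)] at h5
    have h4 : Continuous fun s : ℝ => (B, s) := by fun_prop
    have h5 : s₀ < σ B := by linarith [hσε B]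
    obtain ⟨s, hs1, hs2⟩ := (((h4.continuousAt.eventually h3).filter_mono
      (nhdsWithin_le_nhds (s := Iio (σ B)))).and (Ioo_mem_nhdsLT h5)).exists
    exact absurd (hσle _ _ (hs1 ⟨hs2.1.le, hs2.2.le.trans (hσK B).1.2⟩)) (not_le.mpr hs2.2)

end Vale.Agent.P371
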