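import Vale.Agent.P371.AC

/-! The upper bound. -/

open Matrix Set Filter Topology MeasureTheory
open scoped ComplexOrder MatrixOrder Matrix.Norms.L2Operator

namespace Vale.Agent.P371

variable {N m : ℕ}

lemma mat_eq_sum (A : ℝ → Mat N) :
    A = fun x => ∑ i, ∑ j, A x i j • (single i j (1 : ℂ) : Mat N) := by
  ext1 x
  simp only [smul_single, smul_eq_mul, mul_one]
  exact matrix_eq_sum_single _

lemma aesm_mat {A : ℝ → Mat N} (h : ∀ i j, AEStronglyMeasurable (fun x => A x i j)) :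
    AEStronglyMeasurable A := by
  rw [mat_eq_sum A]
  exact Finset.aestronglyMeasurable_fun_sum _ fun i _ =>
    Finset.aestronglyMeasurable_fun_sum _ fun j _ => (h i j).smul_const _

lemma integrable_mat {A : ℝ → Mat N} (h : ∀ i j, Integrable (fun x => A x i j)) :
    Integrable A := by
  rw [mat_eq_sum A]
  exact integrable_finsetSum _ fun i _ => integrable_finsetSum _ fun j _ => (h i j).smul_const _

lemma integral_entry {A : ℝ → Mat N} (h : Integrable A) (i j : Fin N) :
    (∫ x, A x) i j = ∫ x, A x i j := ((entL i j).integral_comp_comm h).symm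

lemma integrable_L2 {X Y : ℝ → Matrix (Fin m) (Fin N) ℂ} (hX : ∀ a j, MemLp (fun x => X x a j) 2)
    (hY : ∀ a j, MemLp (fun x => Y x a j) 2) : Integrable fun x => (X x)ᴴ * Y x :=
  integrable_mat fun i j => by
    simp only [mul_apply, conjTranspose_apply]
    exact integrable_finsetSum _ fun a _ => (hX a i).star.integrable_mul (hY a j)

/-- the trace of a sandwich as a continuous linear map -/
noncomputable def trL (X Y : Mat N) : Mat N →L[ℝ] ℝ :=
  (rtrL N).comp (ContinuousLinearMap.mulLeftRight ℝ (Mat N) X Y)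

lemma trL_apply (X Y A : Mat N) : trL X Y A = rtr (X * A * Y) := rfl

lemma le_smul_one {A : Mat N} (hA : A.IsHermitian) {r : ℝ} (h : ∀ i, hA.eigenvalues i ≤ r) :
    (r • (1 : Mat N) - A).PosSemidef := by
  have := cfc_psd hA (f := fun x => r * 1 + (-1) * x) fun i => by linarith [h i]
  rw [cfc_affine hA, cfc_one' hA, cfc_id'' hA] at this
  refine (congrArg PosSemidef ?_).mp this
  module

lemma norm_le_rtr {A : Mat N} (hA : A.PosSemidef) : ‖A‖ ≤ rtr A := by
  rw [CStarAlgebra.norm_le_iff_le_algebraMap A (rtr_nonneg hA) hA.nonneg,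
    Algebra.algebraMap_eq_smul_one]
  refine le_smul_one hA.1 fun i => ?_
  rw [rtr_eq_sum hA.1]
  exact Finset.single_le_sum (fun j _ => hA.eigenvalues_nonneg j) (Finset.mem_univ i)

lemma rtr_mul_le_trPow {W X : Mat N} (hW : W.PosSemidef) (hX : X.PosSemidef) {p : ℝ}
    (hp : 1 ≤ p) : rtr (W * X) ≤ (1 + trPow W p) * rtr X := by
  have h1 := le_smul_one hW.1 (r := 1 + trPow W p) fun i => by
    have h0 := hW.eigenvalues_nonneg i
    have h2 : hW.1.eigenvalues i ^ p ≤ trPow W p := by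
      rw [trPow_eq hW.1]
      exact Finset.single_le_sum (f := fun j => hW.1.eigenvalues j ^ p)
        (fun j _ => Real.rpow_nonneg (hW.eigenvalues_nonneg j) _) (Finset.mem_univ i)
    rcases le_total (hW.1.eigenvalues i) 1 with h | h
    · linarith [Real.rpow_nonneg h0 p]
    · linarith [Real.self_le_rpow_of_one_le h hp]
  have := rtr_mul_nonneg h1 hX
  simp only [Matrix.sub_mul, Matrix.smul_mul, Matrix.one_mul, rtr_sub, rtr_smul] at this
  linarith

lemma IsPotential.integrable {W : ℝ → Mat m} {p : ℝ} (hW : IsPotential p W) (hp : 0 ≤ p) :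
    Integrable fun x => trPow (W x) p := by
  refine (lintegral_ofReal_ne_top_iff_integrable ?_
    (Eventually.of_forall fun x => trPow_nonneg (hW.psd x) p)).mp hW.fin.ne
  have h1 := (continuous_trPow hp (hre m).continuous hre_herm).comp_aestronglyMeasurable
    (aesm_mat fun i j => (hW.meas i j).aestronglyMeasurable)
  simpa only [hre_of_herm (hW.psd _).1] using h1

noncomputable def Psi (ψ : Fin N → H1 m) (x : ℝ) : Matrix (Fin m) (Fin N) ℂ :=
  of fun a j => (ψ j).val x a

noncomputable def Dpsi (ψ : Fin N → H1 m) (x : ℝ) : Matrix (Fin m) (Fin N) ℂ :=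
  of fun a j => (ψ j).der x a

variable {ψ : Fin N → H1 m}

lemma Psi_mac (ψ : Fin N → H1 m) (x y : ℝ) : MAC (Psi ψ) (Dpsi ψ) x y :=
  fun a j => (ψ j).ac a x y

lemma H1.cont (φ : H1 m) (a : Fin m) : Continuous fun x => φ.val x a := by
  refine continuous_iff_continuousAt.mpr fun x => ?_
  have := (φ.ac a (x - 1) (x + 1)).ac.continuousOn
  rw [uIcc_of_le (by linarith)] at this
  exact this.continuousAt (Icc_mem_nhds (by linarith) (by linarith))

lemma Psi_cont (ψ : Fin N → H1 m) : Continuous (Psi ψ) :=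
  continuous_matrix fun a j => (ψ j).cont a

lemma int_GG (ψ : Fin N → H1 m) : Integrable fun x => (Psi ψ x)ᴴ * Psi ψ x :=
  integrable_L2 (fun a j => (ψ j).val_L2 a) fun a j => (ψ j).val_L2 a

lemma int_DD (ψ : Fin N → H1 m) : Integrable fun x => (Dpsi ψ x)ᴴ * Dpsi ψ x :=
  integrable_L2 (fun a j => (ψ j).der_L2 a) fun a j => (ψ j).der_L2 a

lemma Psi_bound (ψ : Fin N → H1 m) : ∃ C, ∀ x, rtr ((Psi ψ x)ᴴ * Psi ψ x) ≤ C := by
  have h1 : Integrable fun x => rtr ((Dpsi ψ x)ᴴ * Psi ψ x + (Psi ψ x)ᴴ * Dpsi ψ x) :=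
    (rtrL N).integrable_comp
      ((integrable_L2 (fun a j => (ψ j).der_L2 a) fun a j => (ψ j).val_L2 a).add
        (integrable_L2 (fun a j => (ψ j).val_L2 a) fun a j => (ψ j).der_L2 a))
  refine ⟨rtr ((Psi ψ 0)ᴴ * Psi ψ 0) +
    ∫ x, ‖rtr ((Dpsi ψ x)ᴴ * Psi ψ x + (Psi ψ x)ᴴ * Dpsi ψ x)‖, fun x => ?_⟩
  have h2 := ((Psi_mac ψ 0 x).ct.mul (Psi_mac ψ 0 x)).rtr_ftc.2
  rw [← sub_le_iff_le_add', h2]
  exact (le_abs_self _).trans (intervalIntegral.norm_integral_le_integral_norm_uIoc.trans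
    (setIntegral_le_integral h1.norm (Eventually.of_forall fun _ => norm_nonneg _)))

lemma int_W {W : ℝ → Mat m} {p : ℝ} (hW : IsPotential p W) (hp : 1 ≤ p) (ψ : Fin N → H1 m) :
    Integrable fun x => (Psi ψ x)ᴴ * W x * Psi ψ x := by
  obtain ⟨C, hC⟩ := Psi_bound ψ
  refine Integrable.mono' (((rtrL N).integrable_comp (int_GG ψ)).add
    ((hW.integrable (by linarith)).mul_const C)) (aesm_mat fun i j => ?_)
    (Eventually.of_forall fun x => ?_)
  · simp only [mul_apply, conjTranspose_apply]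
    refine Finset.aestronglyMeasurable_fun_sum _ fun b _ => AEStronglyMeasurable.mul
      (Finset.aestronglyMeasurable_fun_sum _ fun a _ => AEStronglyMeasurable.mul ?_
        (hW.meas a b).aestronglyMeasurable) ((ψ j).cont b).aestronglyMeasurable
    exact ((ψ i).cont a).star.aestronglyMeasurable
  · refine (norm_le_rtr ((hW.psd x).conjTranspose_mul_mul_same _)).trans ?_
    have h1 := rtr_mul_le_trPow (hW.psd x) (posSemidef_self_mul_conjTranspose (Psi ψ x)) hp
    have h2 := mul_le_mul_of_nonneg_left (hC x) (trPow_nonneg (hW.psd x) p)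
    rw [Matrix.mul_assoc, rtr_mul_comm, Matrix.mul_assoc]
    rw [rtr_mul_comm (Psi ψ x)] at h1
    simp only [Pi.add_apply, rtrL_apply]
    linarith

lemma integral_GG (ho : ∀ i j, l2 (ψ i) (ψ j) = if i = j then 1 else 0) :
    ∫ x, (Psi ψ x)ᴴ * Psi ψ x = 1 := by
  ext i j
  rw [integral_entry (int_GG ψ), one_apply, ← ho]
  rfl

lemma integral_form {W : ℝ → Mat m} {p : ℝ} (hW : IsPotential p W) (hp : 1 ≤ p) {κ : Fin N → ℝ}
    (he : ∀ j, IsEigen W (ψ j) (-(κ j * κ j)))
    (ho : ∀ i j, l2 (ψ i) (ψ j) = if i = j then 1 else 0) :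
    (∫ x, (Dpsi ψ x)ᴴ * Dpsi ψ x) + diagonal (fun j => (κ j : ℂ)) * diagonal (fun j => (κ j : ℂ)) =
      ∫ x, (Psi ψ x)ᴴ * W x * Psi ψ x := by
  ext i j
  have h1 := he j (ψ i)
  rw [ho, form, sub_eq_iff_eq_add] at h1
  rw [Matrix.add_apply, integral_entry (int_DD ψ), integral_entry (int_W hW hp ψ),
    diagonal_mul_diagonal]
  have e1 : ∫ x, ((Dpsi ψ x)ᴴ * Dpsi ψ x) i j = ∫ x, star ((ψ i).der x) ⬝ᵥ (ψ j).der x := rfl
  have e2 : ∫ x, ((Psi ψ x)ᴴ * W x * Psi ψ x) i j =
      ∫ x, star ((ψ i).val x) ⬝ᵥ (W x *ᵥ (ψ j).val x) := by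
    simp only [Matrix.mul_assoc]; rfl
  rw [e1, e2, h1]
  by_cases h : i = j <;> simp [h]

lemma young_scalar {q l : ℝ} (hq : 0 < q) (hl : 0 < l) (w x : ℝ) (hw : 0 ≤ w) (hx : 0 ≤ x) :
    w * x ≤ l ^ (-q) / (1 + q) * w ^ (1 + q) + q / (1 + q) * l * x ^ ((1 + q) / q) := by
  have hc : (1 + q).HolderConjugate ((1 + q) / q) := by
    rw [Real.holderConjugate_iff]
    exact ⟨by linarith, by field_simp⟩
  have h := Real.young_inequality_of_nonneg (a := w * l ^ (-(q / (1 + q))))
    (b := x * l ^ (q / (1 + q))) (by positivity) (by positivity) hc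
  rw [Real.mul_rpow hw (by positivity), Real.mul_rpow hx (by positivity), ← Real.rpow_mul hl.le,
    ← Real.rpow_mul hl.le, show -(q / (1 + q)) * (1 + q) = -q by field_simp,
    show q / (1 + q) * ((1 + q) / q) = 1 by field_simp, Real.rpow_one, mul_mul_mul_comm,
    ← Real.rpow_add hl, neg_add_cancel, Real.rpow_zero, mul_one] at h
  refine h.trans (le_of_eq ?_)
  field_simp

theorem upper_eps {W : ℝ → Mat m} {q : ℝ} (hq : 0 < q) (hq1 : q < 1) (hW : IsPotential (1 + q) W)
    (hA : 0 < ∫ x, trPow (W x) (1 + q)) {κ : Fin N → ℝ}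
    (he : ∀ j, IsEigen W (ψ j) (-(κ j * κ j)))
    (ho : ∀ i j, l2 (ψ i) (ψ j) = if i = j then 1 else 0) (hN : 0 < N) {ε : ℝ} (hε : 0 < ε)
    (hκ : ∀ j, 3 * ε ≤ κ j) :
    q * Bq q * ∑ j, (κ j - 2 * ε) ^ (2 * q + 1) ≤
      (q / (1 + q)) ^ (1 + q) * ∫ x, trPow (W x) (1 + q) := by
  have iW := int_W hW (by linarith) ψ
  have iT := hW.integrable (by linarith)
  have hδ : 0 < ε ^ 2 / N := by positivity
  obtain ⟨R, hR, hR0⟩ := (((intervalIntegral_tendsto_integral iW.norm tendsto_neg_atTop_atBot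
    tendsto_id).eventually (lt_mem_nhds (sub_lt_self _ hδ))).and (eventually_ge_atTop 0)).exists
  have hab : -R ≤ R := by linarith
  have cG : Continuous fun x => (Psi ψ x)ᴴ * Psi ψ x :=
    (Psi_cont ψ).matrix_conjTranspose.matrix_mul (Psi_cont ψ)
  refine fix_main hN hε hκ hq hq1 hA (τ := (∫ x, ‖(Psi ψ x)ᴴ * W x * Psi ψ x‖) -
    ∫ x in (-R)..R, ‖(Psi ψ x)ᴴ * W x * Psi ψ x‖) (by simp only [id] at hR; linarith) hab cG
    (fun x => posSemidef_conjTranspose_mul_self _) fun B hB l hl Λ M V hΛ cV hRic => ?_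
  have e1 : ∀ X : Matrix (Fin m) (Fin N) ℂ, (X * B)ᴴ * (X * B) = B * (Xᴴ * X) * B := fun X => by
    rw [conjTranspose_mul, hB.1.1.eq]; simp only [Matrix.mul_assoc]
  have e2 : ∀ X Y : Mat N, rtr (X * (B * Y * B)) = trL (X * B) B Y := fun X Y => by
    rw [trL_apply]; simp only [Matrix.mul_assoc]
  have cP : Continuous fun x => B * ((Psi ψ x)ᴴ * Psi ψ x) * B :=
    (continuous_const.mul cG).mul continuous_const
  have b1 := hRic.form_ineq hab hΛ cV (Φ := fun x => Psi ψ x * B) (Φ' := fun x => Dpsi ψ x * B)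
    (fun x y => by simpa using (Psi_mac ψ x y).mul (MAC.const B x y))
    (by simpa only [e1] using cP)
    (by simpa only [e1, trL_apply] using (trL B B).integrable_comp (int_DD ψ))
    (by simpa only [e1, e2] using (trL _ B).integrable_comp (int_GG ψ))
    (by simpa only [e1, e2] using (trL _ B).integrable_comp (int_GG ψ))
  simp only [e1] at b1
  have b2 : ∫ x, rtr (Λ * Λ * (B * ((Psi ψ x)ᴴ * Psi ψ x) * B)) = rtr (B * (Λ * Λ) * B) := by
    simp only [e2]
    rw [(trL _ B).integral_comp_comm (int_GG ψ), integral_GG ho, trL_apply, Matrix.mul_one,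
      rtr_mul_comm, Matrix.mul_assoc B]
  have b3 : (∫ x, rtr (B * ((Dpsi ψ x)ᴴ * Dpsi ψ x) * B)) +
      rtr (B * (diagonal (fun j => (κ j : ℂ)) * diagonal (fun j => (κ j : ℂ))) * B) =
      ∫ x, rtr (B * ((Psi ψ x)ᴴ * W x * Psi ψ x) * B) := by
    simp only [← trL_apply]
    rw [(trL B B).integral_comp_comm (int_DD ψ), (trL B B).integral_comp_comm iW, ← map_add,
      integral_form hW (by linarith) he ho]
  have iB : Integrable fun x => rtr (B * ((Psi ψ x)ᴴ * W x * Psi ψ x) * B) :=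
    (trL B B).integrable_comp iW
  have b4 := interval_le_integral (iW.norm.sub iB) (fun x => by
    have h1 := rtr_mul_le (sq_psd hB.1.1) ((hW.psd x).conjTranspose_mul_mul_same (Psi ψ x)).1
    have h2 := mul_le_of_le_one_right (norm_nonneg ((Psi ψ x)ᴴ * W x * Psi ψ x)) (sq_le_one hB)
    rw [Pi.sub_apply, rtr_mul_comm, ← Matrix.mul_assoc]
    linarith) hab
  simp only [Pi.sub_apply] at b4
  rw [integral_sub iW.norm iB, intervalIntegral.integral_sub iW.norm.intervalIntegrable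
    iB.intervalIntegrable] at b4
  have iP : IntervalIntegrable (fun x => trPow (B * ((Psi ψ x)ᴴ * Psi ψ x) * B) ((1 + q) / q))
      volume (-R) R := (continuous_trPow (by positivity) cP fun x => by
        rw [← e1]; exact isHermitian_conjTranspose_mul_self _).intervalIntegrable _ _
  have b5 := intervalIntegral.integral_mono_on hab iB.intervalIntegrable
    ((iT.intervalIntegrable.const_mul (l ^ (-q) / (1 + q))).add
      (iP.const_mul (q / (1 + q) * l))) fun x _ => by
    have h1 := young (hW.psd x) (posSemidef_self_mul_conjTranspose (Psi ψ x * B))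
      (p' := (1 + q) / q) ((one_le_div hq).mpr (by linarith)) (by positivity) (young_scalar hq hl)
    rw [trPow_mul_comm _ (by positivity), e1, ← Matrix.mul_assoc, rtr_mul_comm, conjTranspose_mul,
      hB.1.1.eq] at h1
    simpa only [Matrix.mul_assoc] using h1
  rw [intervalIntegral.integral_add (iT.intervalIntegrable.const_mul _) (iP.const_mul _),
    intervalIntegral.integral_const_mul, intervalIntegral.integral_const_mul] at b5
  have b6 := mul_le_mul_of_nonneg_left
    (interval_le_integral iT (fun x => trPow_nonneg (hW.psd x) _) hab)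
    (show 0 ≤ l ^ (-q) / (1 + q) by positivity)
  rw [mul_div_right_comm]
  linarith

theorem upper {W : ℝ → Mat m} {q : ℝ} (hq : 0 < q) (hq1 : q < 1) (hW : IsPotential (1 + q) W)
    (hA : 0 < ∫ x, trPow (W x) (1 + q)) {lam : Fin N → ℝ} (hl : ∀ j, lam j < 0)
    (he : ∀ j, IsEigen W (ψ j) (lam j))
    (ho : ∀ i j, l2 (ψ i) (ψ j) = if i = j then 1 else 0) :
    q * Bq q * ∑ j, |lam j| ^ (q + 1 / 2) ≤
      (q / (1 + q)) ^ (1 + q) * ∫ x, trPow (W x) (1 + q) := by
  rcases Nat.eq_zero_or_pos N with rfl | hN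
  · simp only [Finset.univ_eq_empty, Finset.sum_empty, mul_zero]; positivity
  set κ : Fin N → ℝ := fun j => √(-lam j) with hκ
  have h0 : ∀ j, 0 < κ j := fun j => Real.sqrt_pos.mpr (neg_pos.mpr (hl j))
  have h1 : ∀ j, lam j = -(κ j * κ j) := fun j => by
    rw [Real.mul_self_sqrt (neg_pos.mpr (hl j)).le, neg_neg]
  have h2 : ∀ j, |lam j| ^ (q + 1 / 2) = (κ j - 2 * 0) ^ (2 * q + 1) := fun j => by
    rw [h1 j, abs_neg, abs_of_pos (mul_pos (h0 j) (h0 j)), Real.mul_rpow (h0 j).le (h0 j).le,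
      ← Real.rpow_add (h0 j), mul_zero, sub_zero]
    congr 1; ring
  have h3 : Continuous fun ε : ℝ => q * Bq q * ∑ j, (κ j - 2 * ε) ^ (2 * q + 1) :=
    continuous_const.mul (continuous_finsetSum _ fun j _ =>
      Continuous.rpow_const (by fun_prop) fun _ => Or.inr (by linarith))
  simp only [h2]
  refine le_of_tendsto ((h3.tendsto 0).mono_left (nhdsWithin_le_nhds (s := Ioi 0))) ?_
  have h4 : ∀ᶠ ε in 𝓝[>] (0 : ℝ), ∀ j, 3 * ε ≤ κ j := by
    refine eventually_all.mpr fun j => ?_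
    filter_upwards [Ioc_mem_nhdsGT (show 0 < κ j / 3 by linarith [h0 j])] with ε hε
    linarith [hε.2]
  filter_upwards [h4, self_mem_nhdsWithin] with ε hε hε0
  exact upper_eps hq hq1 hW hA (fun j => h1 j ▸ he j) ho hN hε0 hε

end Vale.Agent.P371
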